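import Crest.Agent.R162.O

/-!
# Row 162, block Z: definitions (owner helper84).  FROZEN.  Blueprint: `notes162/Z.md`.
The mark is a normalised product of block weights supported in a tube around a zigzag; the flow is controlled
deterministically in the tube; no stochastic calculus is used.
-/

set_option autoImplicit false

open scoped ENNReal NNReal Topology
open Set Filter MeasureTheory Metric

noncomputable section
namespace Crest.Agent.R162.Z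

/-- triangle wave of amplitude `a` and speed `v` -/
def zig (a v : ℝ) : Path :=
  ⟨fun t => 2 * a / Real.pi * Real.arcsin (Real.sin (Real.pi * v * t / (2 * a))), by fun_prop⟩

/-- its turning times (`tp 0 = 0`) -/
def tp (a v : ℝ) (k : ℕ) : ℝ := max 0 ((2 * k - 1) * a / v)

/-- `h` is affine with slope `σ v`, `σ = ±1`, on `[s, t]` -/
structure Aff (h : ℝ → ℝ) (σ v s t : ℝ) : Prop where
  sgn : σ = 1 ∨ σ = -1
  aff : ∃ h₀, ∀ u ∈ Icc s t, h u = h₀ + σ * v * u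

/-- deviation of the increments of `ω` from `h` -/
def dev (h ω : Path) (t : ℝ) : ℝ := ω t - ω 0 - h t

def Tube (k : ℝ → ℝ) (T r : ℝ) : Set Path := {ω | ∀ t ∈ Icc 0 T, |ω t - ω 0 - k t| ≤ r}

/-- the increments are uniformly close on `[0, T]` -/
def Cl (T β : ℝ) (ω ω' : Path) : Prop := ∀ t ∈ Icc 0 T, |(ω t - ω 0) - (ω' t - ω' 0)| ≤ β

/-- bounded Lipschitz functionals of the increments on `[0, T]` -/
structure LipB (T L M : ℝ) (f : Path → ℝ) : Prop where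
  nonneg : ∀ ω, 0 ≤ f ω
  le : ∀ ω, f ω ≤ M
  lip : ∀ ω ω' β, Cl T β ω ω' → f ω ≤ f ω' + L * β

/-- block weights of conditional mean one -/
structure Wt (μ : Measure Path) (h : Path) (Δ ε₀ ε₁ : ℝ) (φ : ℕ → Path → ℝ) (M L : ℝ) : Prop where
  lip : ∀ i : ℕ, LipB ((i + 1) * Δ) L M (φ i)
  supp : ∀ (i : ℕ) ω, φ i ω ≠ 0 →
    (∀ u ∈ Icc (i * Δ) ((i + 1) * Δ), |dev h ω u - dev h ω (i * Δ)| ≤ ε₁) ∧ |dev h ω ((i + 1) * Δ)| ≤ ε₀
  one : ∀ (i : ℕ) ω, (∀ u ∈ Icc (i * Δ) ((i + 1) * Δ), |dev h ω u - dev h ω (i * Δ)| ≤ ε₁ / 2) →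
    |dev h ω ((i + 1) * Δ)| ≤ ε₀ / 2 → 1 ≤ φ i ω
  mean : ∀ (i : ℕ) ω, |dev h ω (i * Δ)| ≤ ε₀ → EE μ ω (i * Δ) (fun ω₁ => ENNReal.ofReal (φ i ω₁)) = 1

/-- with probability `q` a block follows `h` narrowly -/
def Nar (μ : Measure Path) (h : Path) (Δ ε₀ q : ℝ) : Prop :=
  ∀ (i : ℕ) ω, |dev h ω (i * Δ)| ≤ ε₀ → ∃ s : Set Path, MeasurableSet s ∧ ENNReal.ofReal q ≤ μ s ∧ ∀ ω' ∈ s,
    (∀ u ∈ Icc (i * Δ) ((i + 1) * Δ), |dev h (spl (i * Δ) ω ω') u| ≤ 2 * ε₀) ∧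
      |dev h (spl (i * Δ) ω ω') ((i + 1) * Δ)| ≤ ε₀ / 2

def prodW (φ : ℕ → Path → ℝ) (i n : ℕ) (ω : Path) : ℝ := ∏ k ∈ Finset.Ico i n, φ k ω

/-- the smooth companion of `Zc` -/
def Zh (h : ℝ → ℝ) (e : ℝ) (ω : Path) (z : ℂ) (t : ℝ) : ℂ := gt ω z t - h t + e * Complex.I

/-- `log (Υ / Y)` -/
def Wl (ω : Path) (z : ℂ) (t : ℝ) : ℝ := Real.log (Up ω z t) - Real.log (Yc ω z t)

/-- parameters of the global flow estimate: amplitude `a`, speed `v`, tube width `e`, minimal height `η` -/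
structure GP (A δ a v e η : ℝ) : Prop where
  A1 : 1 ≤ A
  δ0 : 0 < δ
  δ1 : δ ≤ 1 / 2
  ha : 2 * A + 1000 / δ ≤ a
  hv : 3 * a ≤ v
  e0 : 0 < e
  e1 : e ≤ 1
  η0 : 0 < η
  s1 : (6 * e + 6 / v) * Real.log (2 / η) ≤ δ / 100
  s2 : 4 / v * Real.log (2 * a / e) ≤ 1

/-- the bound for `|log (Υ / Y)|` -/
def Cw (v e η : ℝ) : ℝ := 1 + 8 / (e * v) + (24 * e + 18 / v) / η

/-- parameters of the game: narrow width `e₀`, block length `Δ`, target height `η` -/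
structure IP (A δ a v e η e₀ Δ : ℝ) : Prop where
  gp : GP A δ a v e (η / 4)
  h1 : 2000 ≤ e₀ * v
  h2 : 2 * e₀ ≤ η
  h3 : η ≤ 1 / 2
  h4 : e₀ ≤ e
  Δ0 : 0 < Δ
  h5 : v * Δ ≤ e
  h6 : √Δ ≤ e

/-- the point is low and within reach at the beginning of block `i` -/
def Ready (h ω : Path) (z : ℂ) (v η Δ : ℝ) (i : ℕ) : Prop :=
  Yc ω z (i * Δ) ≤ η ∧ |(gt ω z (i * Δ)).re - h (i * Δ)| ≤ 2 * v * Δ

/-- the special block: a point within reach produces the mass `X` in time `Δ`, and the path ends near `d` -/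
def Spec (κ : ℝ) (μ : Measure Path) (s₀ η Δ R r L X : ℝ) : Prop :=
  ∀ (z : ℂ) (y d : ℝ), z.im ∈ Icc (η / 2) η → |z.re| ≤ R → 0 < y → y ≤ η / 20 → |d| ≤ R →
    ENNReal.ofReal X ≤ ∫⁻ ω in {ω | osc Δ ω ≤ L ∧ |ω Δ - ω 0 - d| ≤ r}, nz κ s₀ y ω z (Ioc 0 Δ) ∂μ

/-- the invariant of the game at the beginning of block `i` -/
structure Inv (h : Path) (z : ℂ) (v e η e₀ ε₀ Δ : ℝ) (i : ℕ) (ω : Path) : Prop where
  zero : ω 0 = 0
  tube : ∀ u ∈ Icc 0 (i * Δ), |ω u - h u| ≤ e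
  safe : ∀ u ∈ Icc 0 (i * Δ), |ω u - h u| ≤ e₀ ∨ e ≤ ‖Zc ω z u‖
  fin : |dev h ω (i * Δ)| ≤ ε₀
  wait : ∀ j : ℕ, j < i → ¬Ready h ω z v η Δ j

end Crest.Agent.R162.Z
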