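import Crest.Agent.R162.Z.Game

/-! Row 162, block Z: choice of the parameters and assembly (helper84). -/

set_option autoImplicit false

open scoped ENNReal NNReal Topology
open Set Filter MeasureTheory Metric

noncomputable section
namespace Crest.Agent.R162.Z

/-- smallness conditions for large speed (`log x ≤ 2 √x`, or `Real.isLittleO_log_id_atTop`) -/
theorem fin_par {A δ Δ ε₁ : ℝ} (hA : 1 ≤ A) (hδ : 0 < δ) (hδ1 : δ ≤ 1 / 2) (hΔ : 1 ≤ Δ) (hε : Δ + 6000 ≤ ε₁) :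
    ∃ m₀, 1 ≤ m₀ ∧ ∀ m, m₀ ≤ m →
      IP A δ (2 * A + 1000 / δ) m (1000 / m + ε₁ / m) (4000 / m) (2 * (1000 / m)) (Δ / m ^ 2) ∧
        4000 / m / 4 ≤ δ / 32 ∧ Real.pi * (Δ / m ^ 2) / (2 * A + 1000 / δ) ≤ δ / 32 := by
  obtain ⟨a, ha⟩ : ∃ a, a = 2 * A + 1000 / δ := ⟨_, rfl⟩
  have hd : 2000 ≤ 1000 / δ := by rw [le_div_iff₀ hδ]; linarith
  have ha0 : 2000 ≤ a := by rw [ha]; linarith
  obtain ⟨K, hK⟩ : ∃ K, K = 6 * (1000 + ε₁) + 6 := ⟨_, rfl⟩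
  have hK0 : 0 < K := by rw [hK]; linarith
  have hl := Real.isLittleO_log_id_atTop.tendsto_div_nhds_zero
  have h1 := hl.eventually (ge_mem_nhds (show (0 : ℝ) < δ / 100 / K by positivity))
  have h2 := hl.eventually (ge_mem_nhds (show (0 : ℝ) < 1 / 8 by norm_num))
  obtain ⟨m₁, hm₁⟩ := eventually_atTop.1 (h1.and (h2.and (eventually_ge_atTop (32 * a + 1000 + ε₁))))
  refine ⟨max 1 m₁, le_max_left _ _, fun m hm => ?_⟩
  obtain ⟨k1, k2, k3⟩ := hm₁ m ((le_max_right _ _).trans hm)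
  simp only [id] at k1 k2
  have hm0 : 0 < m := by linarith
  have hm1 : 1 ≤ m := by linarith
  have he : 1000 / m + ε₁ / m = (1000 + ε₁) / m := by ring
  have he0 : 0 < (1000 + ε₁) / m := div_pos (by linarith) hm0
  have hΔm : Δ / m ^ 2 ≤ 1 := by rw [div_le_one (by positivity)]; nlinarith
  rw [← ha, he]
  refine ⟨⟨⟨hA, hδ, hδ1, ha.ge, by linarith, he0, ?_, by positivity, ?_, ?_⟩, ?_, ?_, ?_, ?_, by positivity, ?_, ?_⟩,
    ?_, ?_⟩
  · rw [div_le_one hm0]; linarith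
  · have e1 : 6 * ((1000 + ε₁) / m) + 6 / m = K / m := by rw [hK]; ring
    have e2 : Real.log (2 / (4000 / m / 4)) ≤ Real.log m :=
      Real.log_le_log (by positivity) (by rw [div_le_iff₀ (by positivity)]; field_simp; norm_num)
    rw [e1]
    calc K / m * Real.log (2 / (4000 / m / 4)) ≤ K / m * Real.log m :=
          mul_le_mul_of_nonneg_left e2 (by positivity)
      _ = K * (Real.log m / m) := by ring
      _ ≤ K * (δ / 100 / K) := mul_le_mul_of_nonneg_left k1 hK0.le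
      _ = δ / 100 := by field_simp
  · have e2 : Real.log (2 * a / ((1000 + ε₁) / m)) ≤ Real.log (2 * a * m) := by
      refine Real.log_le_log (by positivity) ?_
      rw [div_div_eq_mul_div]
      exact div_le_self (by positivity) (by linarith)
    rw [Real.log_mul (by positivity) hm0.ne'] at e2
    have e3 := Real.log_le_sub_one_of_pos (show 0 < 2 * a by positivity)
    have e4 : 2 * a / m ≤ 1 / 8 := by rw [div_le_iff₀ hm0]; linarith
    calc 4 / m * Real.log (2 * a / ((1000 + ε₁) / m)) ≤ 4 / m * (2 * a + Real.log m) :=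
          mul_le_mul_of_nonneg_left (by linarith) (by positivity)
      _ = 4 * (2 * a / m) + 4 * (Real.log m / m) := by ring
      _ ≤ 1 := by linarith
  · field_simp; norm_num
  · exact le_of_eq (by ring)
  · rw [div_le_iff₀ hm0]; linarith
  · rw [← mul_div_assoc]; exact div_le_div_of_nonneg_right (by linarith) hm0.le
  · have : m * (Δ / m ^ 2) = Δ / m := by field_simp
    rw [this]; exact div_le_div_of_nonneg_right (by linarith) hm0.le
  · rw [Real.sqrt_le_left he0.le, div_pow]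
    exact div_le_div_of_nonneg_right (by nlinarith) (by positivity)
  · have : 1000 / δ ≤ a := by rw [ha]; linarith
    rw [div_le_iff₀ hδ] at this
    rw [div_div, div_le_div_iff₀ (by positivity) (by norm_num)]
    nlinarith
  · have : 1000 / δ ≤ a := by rw [ha]; linarith
    rw [div_le_iff₀ hδ] at this
    rw [div_le_div_iff₀ (by linarith) (by norm_num)]
    have := Real.pi_le_four
    have h0 : 0 ≤ Δ / m ^ 2 := by positivity
    nlinarith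

theorem fin_const {K M L : ℝ} (C₁ : ℝ) (hK : 0 ≤ K) (hM : 1 ≤ M) (hL : 0 ≤ L) :
    ∃ C, C₁ ≤ C ∧ 2 ≤ C ∧ ∀ (m : ℝ) (n : ℕ), 1 ≤ m → n ≤ K * m ^ 2 →
      Real.exp (-C * m ^ 2) * M ^ n ≤ 1 / 2 ∧ Real.exp (-C * m ^ 2) * (n * (L * m) * M ^ n) ≤ 1 := by
  have hlM := Real.log_nonneg hM
  refine ⟨max C₁ (K * Real.log M + K + L + 2), le_max_left _ _, le_max_of_le_right (by nlinarith), fun m n hm hn => ?_⟩
  have hC := le_max_right C₁ (K * Real.log M + K + L + 2)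
  generalize max C₁ (K * Real.log M + K + L + 2) = C at hC
  have hm2 : 1 ≤ m ^ 2 := one_le_pow₀ hm
  have h1 : M ^ n ≤ Real.exp (K * Real.log M * m ^ 2) := by
    rw [← Real.exp_log (show 0 < M by linarith), ← Real.exp_nat_mul, Real.log_exp]
    exact Real.exp_le_exp.2 (by nlinarith)
  have h2 : (n : ℝ) ≤ Real.exp (K * m ^ 2) := by linarith [Real.add_one_le_exp (K * m ^ 2)]
  have h3 : L * m ≤ Real.exp (L * m ^ 2) := by
    have : L * m ≤ L * m ^ 2 := mul_le_mul_of_nonneg_left (by nlinarith) hL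
    linarith [Real.add_one_le_exp (L * m ^ 2)]
  have h4 : (K * Real.log M + K + L + 2) * m ^ 2 ≤ C * m ^ 2 := mul_le_mul_of_nonneg_right hC (by positivity)
  have hK2 : 0 ≤ K * m ^ 2 := by positivity
  have hL2 : 0 ≤ L * m ^ 2 := by positivity
  constructor
  · calc Real.exp (-C * m ^ 2) * M ^ n ≤ Real.exp (-C * m ^ 2) * Real.exp (K * Real.log M * m ^ 2) :=
          mul_le_mul_of_nonneg_left h1 (Real.exp_pos _).le
      _ ≤ Real.exp (-1) := by rw [← Real.exp_add]; exact Real.exp_le_exp.2 (by linarith)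
      _ ≤ 1 / 2 := by
          rw [Real.exp_neg, ← one_div]
          exact one_div_le_one_div_of_le (by norm_num) (by linarith [Real.add_one_le_exp 1])
  · calc Real.exp (-C * m ^ 2) * (n * (L * m) * M ^ n) ≤ Real.exp (-C * m ^ 2) *
          (Real.exp (K * m ^ 2) * Real.exp (L * m ^ 2) * Real.exp (K * Real.log M * m ^ 2)) := by gcongr
      _ ≤ 1 := by
          rw [← Real.exp_add, ← Real.exp_add, ← Real.exp_add]
          exact Real.exp_le_one_iff.2 (by linarith)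

section
variable {κ : ℝ} {μ : Measure Path} {a v Δ ε₀ ε₁ M L lam C c : ℝ} {φ : ℕ → Path → ℝ} {n : ℕ}

theorem fin_osc (ha : 0 < a) (hΔ : 0 < Δ) (hε : 0 ≤ ε₀) (hε' : 0 ≤ ε₁) (he : ε₀ + ε₁ ≤ 1)
    (W : Wt μ (zig a v) Δ ε₀ ε₁ φ M L) {ω : Path} (hω : prodW φ 0 n ω ≠ 0) : osc (n * Δ) ω ≤ a + 1 := by
  refine osc_le (by linarith) fun t ht => ?_
  have h1 := W.prod_supp hΔ hε hε' zig_zero n hω t ht
  have h2 := abs_zig_le (v := v) ha t
  rw [dev] at h1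
  have := abs_add_le (ω t - ω 0 - zig a v t) (zig a v t)
  rw [sub_add_cancel] at this
  linarith

theorem fin_int (hμ : Wie κ μ) (hΔ : 0 < Δ) (hε : 0 ≤ ε₀) (W : Wt μ (zig a v) Δ ε₀ ε₁ φ M L) (x : ℝ≥0∞) :
    ∫⁻ ω, x * ENNReal.ofReal (prodW φ 0 n ω) ∂μ = x := by
  rw [lintegral_const_mul _ (W.prod_cont 0 n).measurable.ennreal_ofReal, W.total hμ hΔ hε zig_zero, mul_one]

theorem fin_rare (hμ : Wie κ μ) (ha : 0 < a) (hΔ : 0 < Δ) (hε : 0 ≤ ε₀) (hε' : 0 ≤ ε₁) (he : ε₀ + ε₁ ≤ 1)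
    (W : Wt μ (zig a v) Δ ε₀ ε₁ φ M L) (hl : 0 ≤ lam) (hC : Real.exp (a + 1) ≤ C) :
    ∫⁻ ω, ENNReal.ofReal (lam * prodW φ 0 n ω * Real.exp (osc (n * Δ) ω)) ∂μ ≤ ENNReal.ofReal (C * lam) := by
  rw [← fin_int (n := n) hμ hΔ hε W (ENNReal.ofReal (C * lam))]
  refine lintegral_mono fun ω => ?_
  have h0 := W.prod_nonneg 0 n ω
  rw [← ENNReal.ofReal_mul' h0]
  refine ENNReal.ofReal_le_ofReal ?_
  by_cases hω : prodW φ 0 n ω = 0
  · simp [hω]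
  · have := (Real.exp_le_exp.2 (fin_osc ha hΔ hε hε' he W hω)).trans hC
    calc _ ≤ lam * prodW φ 0 n ω * C := by gcongr
      _ = _ := by ring

theorem fin_surv (hμ : Wie κ μ) (hΔ : 0 < Δ) (hε : 0 ≤ ε₀) (hε' : 0 ≤ ε₁) (W : Wt μ (zig a v) Δ ε₀ ε₁ φ M L)
    (hl : 0 ≤ lam) {ζ : ℂ} (h : ∀ ω : Path, (∀ u ∈ Icc 0 (n * Δ), |ω u - zig a v u| ≤ ε₀ + ε₁) →
      c ≤ Up ω ζ (n * Δ) ∧ c ≤ Gr κ ω ζ (n * Δ)) :
    ENNReal.ofReal (c * lam) ≤
      ∫⁻ ω in {ω | c ≤ Up ω ζ (n * Δ)}, ENNReal.ofReal (lam * prodW φ 0 n ω * Gr κ ω ζ (n * Δ)) ∂μ := by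
  have hm : MeasurableSet {ω : Path | c ≤ Up ω ζ (n * Δ)} :=
    measurableSet_le measurable_const (measurable_Up.comp (f := fun ω : Path => (ω, ζ, n * Δ))
      (measurable_id.prodMk measurable_const))
  rw [← fin_int (n := n) hμ hΔ hε W (ENNReal.ofReal (c * lam)), ← lintegral_indicator hm]
  refine lintegral_mono_ae ?_
  filter_upwards [hμ.zero] with ω h0
  have hp := W.prod_nonneg 0 n ω
  by_cases hω : prodW φ 0 n ω = 0
  · simp [hω]
  · obtain ⟨h1, h2⟩ := h ω fun u hu => by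
      have := W.prod_supp hΔ hε hε' zig_zero n hω u hu
      rwa [dev, h0 0 le_rfl, sub_zero] at this
    rw [indicator_of_mem (show ω ∈ {ω : Path | c ≤ Up ω ζ (n * Δ)} from h1), ← ENNReal.ofReal_mul' hp]
    refine ENNReal.ofReal_le_ofReal ?_
    calc c * lam * prodW φ 0 n ω = lam * prodW φ 0 n ω * c := by ring
      _ ≤ _ := by gcongr

theorem fin_mass (hμ : Wie κ μ) (ha : 0 < a) (hΔ : 0 < Δ) (hε : 0 ≤ ε₀) (hε' : 0 ≤ ε₁) (he : ε₀ + ε₁ ≤ 1)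
    (W : Wt μ (zig a v) Δ ε₀ ε₁ φ M L) (hl : 0 ≤ lam) (hC : a + 1 ≤ C) {s₀ y X : ℝ} {ζ : ℂ}
    (h : ENNReal.ofReal X ≤ Val κ μ s₀ y Δ φ ζ n 0 0) :
    ENNReal.ofReal (lam * X) ≤
      ∫⁻ ω in {ω | osc (n * Δ) ω ≤ C}, ENNReal.ofReal (lam * prodW φ 0 n ω) * nz κ s₀ y ω ζ (Ioc 0 (n * Δ)) ∂μ := by
  rw [setLIntegral_eq_of_support_subset fun ω hω => ?_]
  · simp only [ENNReal.ofReal_mul hl, mul_assoc]
    rw [lintegral_const_mul' _ _ ENNReal.ofReal_ne_top]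
    gcongr
    rwa [Val, Nat.cast_zero, zero_mul, hμ.EE_zero fun _ _ => rfl] at h
  · refine (fin_osc ha hΔ hε hε' he W fun h0 => hω ?_).trans hC
    simp [h0]

theorem fin_n {δ : ℝ} (ha : 0 < a) (hδ : 0 < δ) (hδ1 : δ ≤ 1 / 2) (hΔ : 0 < Δ) (h : Real.pi * Δ / a ≤ δ / 32) :
    ∃ n : ℕ, 0 < n * Δ ∧ n * Δ ≤ a / 3 ∧ 1 - δ / 8 - δ / 32 ≤ Real.pi * (n * Δ) / a ∧
      Real.pi * (n * Δ) / a ≤ 1 - δ / 8 := by
  have hp := Real.pi_gt_three
  have hx : 0 ≤ a * (1 - δ / 8) / (Real.pi * Δ) := div_nonneg (mul_nonneg ha.le (by linarith)) (by positivity)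
  have h1 := Nat.floor_le hx
  have h2 := Nat.lt_floor_add_one (a * (1 - δ / 8) / (Real.pi * Δ))
  generalize ⌊a * (1 - δ / 8) / (Real.pi * Δ)⌋₊ = n at h1 h2
  rw [le_div_iff₀ (by positivity)] at h1
  rw [div_lt_iff₀ (by positivity)] at h2
  rw [div_le_iff₀ ha] at h
  have h3 : 0 ≤ n * Δ := by positivity
  have h4 : (1 - δ / 8 - δ / 32) * a ≤ Real.pi * (n * Δ) := by nlinarith
  refine ⟨n, ?_, ?_, by rwa [le_div_iff₀ ha], by rw [div_le_iff₀ ha]; linarith⟩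
  · refine h3.lt_of_ne fun h0 => ?_
    rw [← h0] at h4
    nlinarith
  · nlinarith [mul_pos ha hδ]

end

theorem main {κ : ℝ} {μ : Measure Path} (hκ : 0 < κ) (hκ8 : κ < 8) (hμ : Wie κ μ) {s₀ c₀ C₀ : ℝ}
    (hlow : Low κ μ s₀ c₀ C₀) {A δ : ℝ} (hA : 1 ≤ A) (hδ : 0 < δ) (hδ1 : δ ≤ 1 / 2) :
    ∃ c C m₀ : ℝ, 0 < c ∧ c ≤ 1 ∧ 1 ≤ C ∧ 1 ≤ m₀ ∧ ∀ m, m₀ ≤ m → ∃ (T : ℝ) (π : Path → ℝ), 0 < T ∧ T ≤ C ∧
      Mark π T (C * m ^ 2) ∧
      ∫⁻ ω, ENNReal.ofReal (π ω * Real.exp (osc T ω)) ∂μ ≤ ENNReal.ofReal (C * Real.exp (-C * m ^ 2)) ∧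
      (∀ (ζ : ℂ) (y : ℝ), |ζ.re| ≤ A → ζ.im ∈ Icc (1 - 3 * δ / 4) (1 - δ / 4) → 0 < y → y ≤ c / m →
        ENNReal.ofReal (c * Real.exp (-C * m ^ 2) * m ^ bb κ) ≤
          ∫⁻ ω in {ω | osc T ω ≤ C}, ENNReal.ofReal (π ω) * nz κ s₀ y ω ζ (Ioc 0 T) ∂μ) ∧
      ∀ ζ : ℂ, |ζ.re| ≤ A → ζ.im ∈ Icc (1 - δ / 32) 2 →
        ENNReal.ofReal (c * Real.exp (-C * m ^ 2)) ≤
          ∫⁻ ω in {ω | c ≤ Up ω ζ T}, ENNReal.ofReal (π ω * Gr κ ω ζ T) ∂μ := by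
  have hC₀ := hlow.one_le
  obtain ⟨Δ, hΔ⟩ : ∃ Δ, Δ = 10 * C₀ * 4000 ^ 2 := ⟨_, rfl⟩
  have hΔ1 : 1 ≤ Δ := by rw [hΔ]; linarith
  obtain ⟨Ls, qs, hLs, hqs, S⟩ := spec_unit hκ hκ8 hμ hlow (η := 4000) (R := 2 * Δ + 1000) (r := 500) (by norm_num)
    hΔ.ge (by linarith) (by norm_num)
  obtain ⟨ε₁, hε₁⟩ : ∃ ε₁, ε₁ = 2 * (Ls + Δ) + 6000 := ⟨_, rfl⟩
  have hε6 : Δ + 6000 ≤ ε₁ := by rw [hε₁]; linarith
  obtain ⟨q, hq, hq1, N⟩ := exists_nar hκ hμ (Δ := Δ) (ε₀ := 1000) (by linarith) (by norm_num)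
  obtain ⟨m₀, hm₀, hpar⟩ := fin_par hA hδ hδ1 hΔ1 hε6
  generalize 2 * A + 1000 / δ = a at hpar
  have ha : 0 < a := by linarith [(hpar m₀ le_rfl).1.gp.a_ge.1]
  obtain ⟨C, hC1, hC2, hC⟩ := fin_const (K := a / Δ) (M := 1 / q) (L := 8 / (1000 * q ^ 2)) (Real.exp (a + 1))
    (by positivity) (one_le_one_div hq hq1) (by positivity)
  have hCa : a + 1 ≤ C := by linarith [Real.add_one_le_exp (a + 1)]
  obtain ⟨cw, hcw⟩ : ∃ cw, cw = 1 + 8 / (1000 + ε₁) + (24 * (1000 + ε₁) + 18) / 1000 := ⟨_, rfl⟩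
  obtain ⟨p, hp⟩ : ∃ p, p = -Real.log q / (2 * Δ / (33 * (1000 + ε₁)) ^ 2) := ⟨_, rfl⟩
  have hε0 : 0 < 1000 + ε₁ := by linarith
  have hp0 : 0 ≤ p := by
    rw [hp]; exact div_nonneg (by linarith [Real.log_nonpos hq.le hq1]) (by positivity)
  obtain ⟨c, hc0, hc1, hc2, hc3, hc4, hc5⟩ : ∃ c : ℝ, 0 < c ∧ c ≤ 1 ∧ c ≤ qs * 4000 ^ (-bb κ) * Real.exp (-cw) *
      Real.exp (p * Real.log (2000 / (6 * (1000 + ε₁)))) ∧ c ≤ 200 * Real.exp (-cw) ∧
      c ≤ δ / 16 * Real.exp (-cw) ∧ c ≤ 1 / 2 * (δ / (32 * a)) ^ aa κ :=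
    ⟨min 1 (min _ (min _ (min _ _))), by positivity, min_le_left _ _, (min_le_right _ _).trans (min_le_left _ _),
      (min_le_right _ _).trans ((min_le_right _ _).trans (min_le_left _ _)),
      (min_le_right _ _).trans ((min_le_right _ _).trans ((min_le_right _ _).trans (min_le_left _ _))),
      (min_le_right _ _).trans ((min_le_right _ _).trans ((min_le_right _ _).trans (min_le_right _ _)))⟩
  refine ⟨c, C, m₀, hc0, hc1, by linarith, hm₀, fun m hm => ?_⟩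
  obtain ⟨P, hη, hπ⟩ := hpar m hm
  have hm1 : 1 ≤ m := hm₀.trans hm
  have hm0 : 0 < m := by linarith
  have hΔ' : 0 < Δ / m ^ 2 := by positivity
  have he0 : 0 < 1000 / m := by positivity
  have he1 : 0 ≤ ε₁ / m := div_nonneg (by linarith) hm0.le
  have he6 : 6 * (1000 / m) ≤ ε₁ / m := by
    rw [← mul_div_assoc]; exact div_le_div_of_nonneg_right (by linarith) hm0.le
  have N' := N m (zig a m) hm0 fun s t hs hst => zig_lip ha hm0 hs hst
  obtain ⟨φ, W⟩ := exists_wt hμ hΔ' he0 he6 hq hq1 N'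
  obtain ⟨n, hn0, hn1, hn2, hn3⟩ := fin_n ha hδ hδ1 hΔ' hπ
  obtain ⟨hl1, hl2⟩ := hC m n hm1 (by
    rw [← mul_div_assoc, div_le_iff₀ (by positivity)] at hn1
    rw [div_mul_eq_mul_div, le_div_iff₀ (by positivity)]
    nlinarith [mul_pos ha (pow_pos hm0 2)])
  have hl := (Real.exp_pos (-C * m ^ 2)).le
  have hm2 : 1 ≤ m ^ 2 := one_le_pow₀ hm1
  have hcw' : Cw m (1000 / m + ε₁ / m) (4000 / m / 4) = cw := by
    rw [hcw, Cw, ← add_div]; field_simp; ring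
  refine ⟨n * (Δ / m ^ 2), fun ω => Real.exp (-C * m ^ 2) * prodW φ 0 n ω, hn0, by linarith, ?_,
    fin_rare hμ ha hΔ' he0.le he1 P.gp.e1 W hl hC1, fun ζ y h1 h2 hy0 hy => ?_, fun ζ h1 h2 => ?_⟩
  · have e : 8 / (1000 / m * q ^ 2) = 8 / (1000 * q ^ 2) * m := by field_simp
    have k := (W.prod_lip hΔ' (by positivity) (one_le_one_div hq hq1) n).const_mul hl
    rw [e] at k
    exact (k.mono hn0.le le_rfl hl2 hl1).mark hn0.le zero_le_one (by nlinarith)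
  · have S' := S.scale hμ (by linarith) hLs.le (one_div_pos.2 hm0)
    have e1 : 4000 * (1 / m) = 4000 / m := by ring
    have e2 : Δ * (1 / m) ^ 2 = Δ / m ^ 2 := by ring
    have e3 : (2 * Δ + 1000) * (1 / m) = 2 * m * (Δ / m ^ 2) + 1000 / m := by field_simp
    have e4 : 500 * (1 / m) = 1000 / m / 2 := by ring
    have e5 : (1 / m) ^ (-bb κ) = m ^ bb κ := by
      rw [one_div, Real.inv_rpow hm0.le, Real.rpow_neg hm0.le, inv_inv]
    rw [e1, e2, e3, e4, e5] at S'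
    have hζ : 0 < ζ.im := by linarith [h2.1]
    have G := game (i := 0) (ω := 0) (z := ζ) (y := y) (p := p) (C := cw) hκ hκ8 hμ P he6 W hq N' (by positivity) S'
      (by rw [hε₁]; field_simp; linarith) (by linarith) hcw'.le hy0
      (hy.trans (by rw [div_le_iff₀ hm0]; refine hc3.trans (le_of_eq ?_); field_simp; norm_num)) hp0
      (by rw [hp, ← add_div]; refine le_of_eq ?_; field_simp) hn1 hn2 h1 ⟨by linarith [h2.1], h2.2⟩ (Nat.zero_le n)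
      (inv_zero P.gp.e0.le (by positivity) he0.le zig_zero rfl)
    refine le_trans (ENNReal.ofReal_le_ofReal ?_) (fin_mass hμ ha hΔ' he0.le he1 P.gp.e1 W hl hCa G)
    have k1 : Real.exp (p * Real.log (2000 / (6 * (1000 + ε₁)))) ≤
        Pot p (4000 / m) (1000 / m + ε₁ / m) (Yc 0 ζ ((0 : ℕ) * (Δ / m ^ 2))) := by
      rw [Nat.cast_zero, zero_mul, Yc, gt_zero hζ]
      refine Real.exp_le_exp.2 (mul_le_mul_of_nonneg_left ?_ hp0)
      have k2 : Real.log (min ζ.im (6 * (1000 / m + ε₁ / m))) ≤ Real.log (6 * (1000 / m + ε₁ / m)) :=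
        Real.log_le_log (lt_min hζ (by positivity)) (min_le_right _ _)
      have k3 : Real.log (2000 / (6 * (1000 + ε₁))) =
          Real.log (4000 / m / 2) - Real.log (6 * (1000 / m + ε₁ / m)) := by
        rw [← Real.log_div (by positivity) (by positivity), ← add_div]
        congr 1
        field_simp; norm_num
      linarith
    calc c * Real.exp (-C * m ^ 2) * m ^ bb κ ≤ (qs * 4000 ^ (-bb κ) * Real.exp (-cw) *
          Real.exp (p * Real.log (2000 / (6 * (1000 + ε₁))))) * Real.exp (-C * m ^ 2) * m ^ bb κ := by gcongr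
      _ = Real.exp (-C * m ^ 2) * (qs * 4000 ^ (-bb κ) * m ^ bb κ * Real.exp (-cw) *
          Real.exp (p * Real.log (2000 / (6 * (1000 + ε₁))))) := by ring
      _ ≤ _ := by gcongr
  · refine fin_surv hμ hΔ' he0.le he1 W hl fun ω hω => ?_
    obtain ⟨k1, k2⟩ := surv_det hκ hκ8 P.gp hη h1 h2 hn0.le hn3 hω
    rw [hcw'] at k1
    exact ⟨hc4.trans k1, hc5.trans k2⟩

end Crest.Agent.R162.Z
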