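import Crest.Agent.R162.Z.Glob

/-! Row 162, block Z: the deterministic steps of the game.  Statements frozen (helper84). -/

set_option autoImplicit false

open scoped ENNReal NNReal Topology
open Set Filter MeasureTheory Metric

noncomputable section
namespace Crest.Agent.R162.Z

variable {A δ a v e η e₀ ε₀ ε₁ Δ s t : ℝ} {ω : Path} {z : ℂ}

/-- three pieces lower `Y` by less than the factor `2` (`piece_stab` with `e₀`; `|Zh| ≤ |Z| + 2 e₀ ≤ 5 |Z|` at narrow times since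
`e₀ / 2 ≤ Y ≤ |Z|`, and `|Zh| ≤ |Z| + e + e₀ ≤ 3 |Z|` at far times; `3 * 100 π / 2000 ≤ log 2`) -/
theorem stab3 (P : IP A δ a v e η e₀ Δ) (k : ℕ) (ht1 : tp a v k ≤ t) (ht2 : t ≤ tp a v (k + 3))
    (htube : ∀ u ∈ Icc 0 t, |ω u - zig a v u| ≤ e)
    (hsafe : ∀ u ∈ Icc 0 t, |ω u - zig a v u| ≤ e₀ ∨ e ≤ ‖Zc ω z u‖) (hY : η / 4 ≤ Yc ω z t) :
    Yc ω z (tp a v k) / 2 ≤ Yc ω z t := by
  obtain ⟨ha, hv⟩ := P.gp.pos
  have hη := P.gp.η0
  have hev : 0 < e₀ * v := by linarith [P.h1]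
  have he₀ : 0 < e₀ := (pos_iff_pos_of_mul_pos hev).2 hv
  have hYt : 0 < Yc ω z t := hη.trans_le hY
  have hal : Alive ω z t := alive_iff.2 hYt
  have h5 : ∀ u ∈ Icc 0 t, ‖Zh (zig a v) e₀ ω z u‖ ≤ 5 * ‖Zc ω z u‖ := by
    intro u hu
    have h1 := norm_Zh_sub (h := zig a v) (e := e₀) (ω := ω) (z := z) (u := u)
    have h2 := norm_sub_norm_le (Zh (zig a v) e₀ ω z u) (Zc ω z u)
    have h3 : η / 4 ≤ ‖Zc ω z u‖ := hY.trans ((Yc_anti hu.1 hu.2).trans Yc_le_norm)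
    rw [abs_of_pos he₀] at h1
    rcases hsafe u hu with h | h <;> linarith [P.h2, P.h4, htube u hu]
  have hc : 100 * Real.pi / (e₀ * v) ≤ 0.2 := by
    rw [div_le_iff₀ hev]; linarith [Real.pi_lt_four, P.h1]
  have key : ∀ j, Real.log (Yc ω z (min (tp a v j) t)) - Real.log (Yc ω z (min (tp a v (j + 1)) t)) ≤ 0.2 := by
    intro j
    have hj : tp a v j ≤ tp a v (j + 1) := tp_mono ha hv (Nat.le_succ j)
    rcases le_total t (tp a v j) with h | h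
    · rw [min_eq_right h, min_eq_right (h.trans hj), sub_self]; norm_num
    · rw [min_eq_left h]
      exact (piece_stab hv (by linarith [P.h1]) (tp_nonneg j) (le_min hj h)
        ((zig_aff ha hv j).mono le_rfl (min_le_left _ _))
        (hal.mono ((tp_nonneg j).trans (le_min hj h)) (min_le_right _ _))
        fun u hu => h5 u ⟨(tp_nonneg j).trans hu.1, hu.2.trans (min_le_right _ _)⟩).trans hc
  have k0 := key k
  have k1 := key (k + 1)
  have k2 := key (k + 2)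
  rw [min_eq_left ht1] at k0
  rw [min_eq_right ht2] at k2
  have hY0 : 0 < Yc ω z (tp a v k) := hYt.trans_le (Yc_anti (tp_nonneg k) ht1)
  rw [← Real.log_le_log_iff (half_pos hY0) hYt, Real.log_div hY0.ne' two_ne_zero]
  linarith [Real.log_two_gt_d9]

/-- in a full pass `Re g - h` changes sign (`glob_re`, `zig_tp`, IVT) at a time `u`; take `j` with `j Δ < u ≤ (j+1) Δ`
(`gt_lip`, `zig_lip`, `8 / η ≤ v`); `Δ ≤ a / v` -/
theorem exists_cross (P : IP A δ a v e η e₀ Δ) (hz : |z.re| ≤ A) (hz2 : z.im ≤ 2) (ht : t ∈ Icc 0 (a / 3))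
    (htube : ∀ u ∈ Icc 0 t, |ω u - zig a v u| ≤ e) (hY : η / 4 ≤ Yc ω z t) (k : ℕ) (hk : tp a v (k + 2) ≤ t) :
    ∃ j : ℕ, tp a v k ≤ j * Δ ∧ j * Δ < tp a v (k + 2) ∧
      |(gt ω z (j * Δ)).re - zig a v (j * Δ)| ≤ 2 * v * Δ := by
  obtain ⟨ha, hv⟩ := P.gp.pos
  have hη := P.gp.η0
  have hΔ := P.Δ0
  have hal : Alive ω z t := alive_iff.2 (hη.trans_le hY)
  have H := glob_re P.gp hz hz2 ht htube hY
  have h12 : tp a v (k + 1) ≤ tp a v (k + 2) := tp_mono ha hv (Nat.le_succ _)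
  have hc : ContinuousOn (fun u => (gt ω z u).re - zig a v u) (Icc (tp a v (k + 1)) (tp a v (k + 2))) :=
    (Complex.continuous_re.comp_continuousOn (hal.sol.cont.mono (Icc_subset_Icc (tp_nonneg _) hk))).sub
      (zig a v).continuous.continuousOn
  have b1 := abs_le.1 (H _ ⟨tp_nonneg (k + 1), h12.trans hk⟩)
  have b2 := abs_le.1 (H _ ⟨tp_nonneg (k + 2), hk⟩)
  have z1 := zig_tp ha hv k
  have z2 := zig_tp ha hv (k + 1)
  rw [pow_succ] at z2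
  obtain ⟨u, hu, hu0⟩ : ∃ u ∈ Icc (tp a v (k + 1)) (tp a v (k + 2)), (gt ω z u).re - zig a v u = 0 := by
    rcases neg_one_pow_eq_or ℝ k with h | h <;> rw [h] at z1 z2
    · exact intermediate_value_Icc h12 hc ⟨by simp only [z1]; linarith, by simp only [z2]; linarith⟩
    · exact intermediate_value_Icc' h12 hc ⟨by simp only [z2]; linarith, by simp only [z1]; linarith⟩
  have hav : Δ ≤ a / v := by
    rw [le_div_iff₀ hv]; linarith [P.h5, P.gp.e1, P.gp.a_ge.1]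
  have hk1 : tp a v k + Δ ≤ tp a v (k + 1) := by
    have : tp a v k ≤ 2 * k * a / v := max_le (by positivity) (by gcongr; linarith)
    have e : (2 * k + 1) * a / v = 2 * k * a / v + a / v := by ring
    rw [tp_succ ha hv]; linarith
  have hu1 : 0 < u := by linarith [tp_nonneg (a := a) (v := v) k, hu.1]
  obtain ⟨j, hj⟩ := Nat.exists_eq_succ_of_ne_zero (Nat.ceil_pos.2 (div_pos hu1 hΔ)).ne'
  have j1 := Nat.le_ceil (u / Δ)
  have j2 := Nat.ceil_lt_add_one (div_pos hu1 hΔ).le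
  rw [hj] at j1 j2
  push_cast at j1 j2
  have j3 : u ≤ j * Δ + Δ := by rw [div_le_iff₀ hΔ] at j1; linarith
  have j4 : j * Δ < u := by rwa [add_lt_add_iff_right, lt_div_iff₀ hΔ] at j2
  have j0 : 0 ≤ j * Δ := by positivity
  refine ⟨j, by linarith [hu.1], j4.trans_le hu.2, ?_⟩
  have l1 := (Complex.abs_re_le_norm _).trans (gt_lip hη hY j0 j4.le (hu.2.trans hk))
  have l2 := zig_lip ha hv j0 j4.le
  have l3 : 2 / (η / 4) ≤ v := by
    rw [div_le_iff₀ hη]; nlinarith [P.h1, mul_le_mul_of_nonneg_left P.h2 hv.le]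
  have l4 : 2 / (η / 4) * (u - j * Δ) ≤ v * Δ := mul_le_mul l3 (by linarith) (by linarith) hv.le
  have l5 : v * (u - j * Δ) ≤ v * Δ := mul_le_mul_of_nonneg_left (by linarith) hv.le
  rw [Complex.sub_re] at l1
  have l1' := abs_le.1 l1
  have l2' := abs_le.1 l2
  rw [abs_le]; constructor <;> linarith

/-- `boot` for `-Y`; `t` in piece `k ≤ 1`: `stab3` from `0`; piece `k + 2`: `exists_cross`, not ready so
`η < Y (j Δ) ≤ Y (tp k)`, `stab3` -/
theorem inv_Y (P : IP A δ a v e η e₀ Δ) (hz : |z.re| ≤ A) (hz2 : z.im ∈ Icc (1 / 2 : ℝ) 2) {i : ℕ}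
    (hi : i * Δ ≤ a / 3) (H : Inv (zig a v) z v e η e₀ ε₀ Δ i ω) : η / 2 ≤ Yc ω z (i * Δ) := by
  obtain ⟨ha, hv⟩ := P.gp.pos
  have hη := P.gp.η0
  have hΔ := P.Δ0
  have hzH : z ∈ HH := by show 0 < z.im; linarith [hz2.1]
  refine neg_le_neg_iff.1 (boot (f := fun u => -Yc ω z u) (T := i * Δ) (b := -(η / 2)) (c := -(η / 4))
    ((Lx.contOn_Yc'.mono Icc_subset_Ici_self).neg) (by linarith)
    (by simp only [Lx.yc_zero hzH]; linarith [hz2.1, P.h3]) (fun r hr hb => neg_le_neg_iff.2 ?_) _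
    ⟨by positivity, le_rfl⟩)
  have hY : η / 4 ≤ Yc ω z r := neg_le_neg_iff.1 (hb r ⟨hr.1, le_rfl⟩)
  have htube : ∀ u ∈ Icc 0 r, |ω u - zig a v u| ≤ e := fun u hu => H.tube u ⟨hu.1, hu.2.trans hr.2⟩
  have hsafe : ∀ u ∈ Icc 0 r, |ω u - zig a v u| ≤ e₀ ∨ e ≤ ‖Zc ω z u‖ := fun u hu => H.safe u ⟨hu.1, hu.2.trans hr.2⟩
  obtain ⟨k, k1, k2, -⟩ := exists_piece ha hv hr.1
  rcases lt_or_ge k 2 with hk | hk
  · have := stab3 P 0 ((tp_zero ha hv).trans_le hr.1) (k2.trans (tp_mono ha hv (by omega))) htube hsafe hY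
    rw [tp_zero ha hv, Lx.yc_zero hzH] at this
    linarith [hz2.1, P.h3]
  · obtain ⟨k, rfl⟩ := Nat.exists_eq_add_of_le' hk
    obtain ⟨j, j1, j2, j3⟩ := exists_cross P hz hz2.2 ⟨hr.1, hr.2.trans hi⟩ htube hY k k1
    have hji : j < i := by exact_mod_cast lt_of_mul_lt_mul_right ((j2.trans_le k1).trans_le hr.2) hΔ.le
    have h1 : η < Yc ω z (j * Δ) := not_le.1 fun h => H.wait j hji ⟨h, j3⟩
    have h2 : Yc ω z (j * Δ) ≤ Yc ω z (tp a v k) := Yc_anti (tp_nonneg k) j1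
    have := stab3 P k ((tp_mono ha hv (by omega)).trans k1) k2 htube hsafe hY
    linarith

theorem sh_apply_of_nonneg {r : ℝ} (hr : 0 ≤ r) : sh s ω r = ω (s + r) - ω s := by
  simp [sh, max_eq_left hr]

theorem osc_sh_le {r c : ℝ} (hc : 0 ≤ c) (hr : r ≤ Δ) (hω : ∀ u ∈ Icc s (s + Δ), |ω u - ω s| ≤ c) :
    osc r (sh s ω) ≤ c := by
  refine osc_le hc fun u hu => ?_
  rw [sh_apply_of_nonneg hu.1, sh_apply_of_nonneg le_rfl, add_zero, sub_self, sub_zero]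
  exact hω _ ⟨by linarith [hu.1], by linarith [hu.2]⟩

/-- `far` for `sh s ω`, `Zc ω z s`, `D = e`; `Alive.add_iff`, `Alive.Zc_add` -/
theorem far_step (hal : Alive ω z s) (hΔ : 0 < Δ) (he : √Δ ≤ e) (hfar : 6 * e ≤ ‖Zc ω z s‖)
    (hω : ∀ u ∈ Icc s (s + Δ), |ω u - ω s| ≤ 3 * e) : ∀ u ∈ Icc s (s + Δ), e ≤ ‖Zc ω z u‖ := by
  have he0 : 0 < e := (Real.sqrt_pos.2 hΔ).trans_le he
  have h1 := osc_sh_le (by positivity) le_rfl hω
  obtain ⟨h2, h3⟩ := far (ω := sh s ω) (Lx.zc_mem hal) hΔ.le he0 he (by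
    rw [sh_apply_of_nonneg le_rfl, add_zero, sub_self, Complex.ofReal_zero, sub_zero]; linarith)
  intro u hu
  obtain ⟨r, rfl⟩ : ∃ r, u = s + r := ⟨u - s, by ring⟩
  have hr : r ∈ Icc 0 Δ := ⟨by linarith [hu.1], by linarith [hu.2]⟩
  rw [((hal.add_iff hr.1).2 (h2.mono hr.1 hr.2)).Zc_add hal.1 hr.1]
  exact (h3 r hr).1

/-- `|Z u| ≤ 33 e` on the block (`Alive.norm_gt_sub` for `sh s ω`), then `deriv_logY` -/
theorem near_step (hs : 0 ≤ s) (hal : Alive ω z (s + Δ)) (hΔ : 0 < Δ) (he : √Δ ≤ e) (hnear : ‖Zc ω z s‖ ≤ 6 * e)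
    (hω : ∀ u ∈ Icc s (s + Δ), |ω u - ω s| ≤ 3 * e) :
    Real.log (Yc ω z (s + Δ)) ≤ Real.log (Yc ω z s) - 2 * Δ / (33 * e) ^ 2 := by
  have he0 : 0 < e := (Real.sqrt_pos.2 hΔ).trans_le he
  have hal' : Alive ω z s := hal.mono hs (by linarith)
  have hZ : ∀ u ∈ Icc s (s + Δ), ‖Zc ω z u‖ ≤ 33 * e := by
    intro u hu
    have h0 := hω u hu
    have hu' := hal.mono (hs.trans hu.1) hu.2
    obtain ⟨r, rfl⟩ : ∃ r, u = s + r := ⟨u - s, by ring⟩
    have hr : r ∈ Icc 0 Δ := ⟨by linarith [hu.1], by linarith [hu.2]⟩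
    have h1 := ((hal'.add_iff hr.1).1 hu').norm_gt_sub
    have h2 := osc_sh_le (by positivity) hr.2 hω
    have h3 := (Real.sqrt_le_sqrt hr.2).trans he
    have h4 := norm_sub_norm_le (gt (sh s ω) (Zc ω z s) r) (Zc ω z s)
    have h5 := norm_sub_le (gt (sh s ω) (Zc ω z s) r) (sh s ω r)
    rw [Complex.norm_real, Real.norm_eq_abs, sh_apply_of_nonneg hr.1] at h5
    rw [hu'.Zc_add hs hr.1, Zc, sh_apply_of_nonneg hr.1]
    linarith
  have key := image_le_of_deriv_right_le_deriv_boundary (f := fun u => Real.log (Yc ω z u))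
    (B := fun u => Real.log (Yc ω z s) - 2 / (33 * e) ^ 2 * (u - s)) (B' := fun _ => -(2 / (33 * e) ^ 2))
    (cont_logY hs hal) (fun x hx => deriv_logY (hal.mono (hs.trans hx.1) hx.2.le)) (by simp) (by fun_prop)
    (fun x _ => (((((hasDerivAt_id x).sub_const s).const_mul _).const_sub _).congr_deriv
      (by simp)).hasDerivWithinAt) (fun x hx => ?_) ⟨by linarith, le_rfl⟩
  · refine key.trans (le_of_eq ?_); ring
  have h1 := Lx.norm_pos (hal.mono (hs.trans hx.1) hx.2.le)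
  have h2 := hZ x ⟨hx.1, hx.2.le⟩
  rw [neg_div, neg_le_neg_iff]
  gcongr

variable {h ω' : Path} {i : ℕ}

theorem inv_zero (he : 0 ≤ e) (he₀ : 0 ≤ e₀) (hε : 0 ≤ ε₀) (h0 : h 0 = 0) (hω : ω 0 = 0) :
    Inv h z v e η e₀ ε₀ Δ 0 ω := by
  have : ∀ u ∈ Icc (0 : ℝ) (((0 : ℕ) : ℝ) * Δ), |ω u - h u| = 0 := fun u hu => by
    rw [le_antisymm (hu.2.trans_eq (by simp)) hu.1, hω, h0, sub_self, abs_zero]
  exact ⟨hω, fun u hu => (this u hu).trans_le he, fun u hu => Or.inl ((this u hu).trans_le he₀),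
    by simpa [dev, h0] using hε, fun j hj => absurd hj (Nat.not_lt_zero j)⟩

/-- extension of the invariant by one block (`Agr.gt`) -/
theorem Inv.succ (hΔ : 0 < Δ) (H : Inv h z v e η e₀ ε₀ Δ i ω) (hn : ¬Ready h ω z v η Δ i)
    (ha : Agr (i * Δ) ω ω') (h1 : ∀ u ∈ Icc (i * Δ) ((i + 1) * Δ), |dev h ω' u| ≤ e)
    (h2 : ∀ u ∈ Icc (i * Δ) ((i + 1) * Δ), |dev h ω' u| ≤ e₀ ∨ e ≤ ‖Zc ω' z u‖)
    (h3 : |dev h ω' ((i + 1) * Δ)| ≤ ε₀) : Inv h z v e η e₀ ε₀ Δ (i + 1) ω' := by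
  have h0 : ω' 0 = 0 := (ha 0 (by positivity)).trans H.zero
  have hd : ∀ u, dev h ω' u = ω' u - h u := fun u => by rw [dev, h0, sub_zero]
  have e1 : ((i + 1 : ℕ) : ℝ) = i + 1 := Nat.cast_succ i
  refine ⟨h0, fun u hu => ?_, fun u hu => ?_, by rwa [e1], fun j hj hr => ?_⟩
  · rcases le_total u (i * Δ) with h' | h'
    · rw [ha u h']; exact H.tube u ⟨hu.1, h'⟩
    · exact hd u ▸ h1 u ⟨h', e1 ▸ hu.2⟩
  · rcases le_total u (i * Δ) with h' | h'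
    · rw [ha u h', Lx.agr_Zc (Lx.agr_of_le ha h')]; exact H.safe u ⟨hu.1, h'⟩
    · exact hd u ▸ h2 u ⟨h', e1 ▸ hu.2⟩
  · have hji : j ≤ i := Nat.lt_succ_iff.1 hj
    have ha' : Agr (j * Δ) ω ω' := Lx.agr_of_le ha (by gcongr)
    rw [Ready, Lx.agr_Yc ha', ha'.gt] at hr
    rcases hji.eq_or_lt with rfl | hlt
    · exact hn hr
    · exact H.wait j hlt hr

end Crest.Agent.R162.Z
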