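import Crest.Agent.R162.Z.Defs

/-! Row 162, block Z: the flow along one affine piece of the zigzag.  Statements frozen (helper84).
All three estimates are of the form `‖F'‖ ≤ B'` (`image_norm_le_of_norm_deriv_right_le_deriv_boundary'` applied to `F - F s`,
`B - B s`) or `0 ≤ G'` (`image_le_of_deriv_right_le_deriv_boundary`); `(log Y)' = -2 / |Z|²`, `(1/Y)' = 2 / (Y |Z|²)`. -/

set_option autoImplicit false

open scoped ENNReal NNReal Topology
open Set Filter MeasureTheory Metric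

noncomputable section
namespace Crest.Agent.R162.Z

variable {h : ℝ → ℝ} {σ v e s t u : ℝ} {ω : Path} {z : ℂ}

theorem Zh_im : (Zh h e ω z u).im = Yc ω z u + e := by
  simp [Zh, Yc]

theorem Zh_re : (Zh h e ω z u).re = (gt ω z u).re - h u := by
  simp [Zh]

theorem le_norm_Zh (he : 0 ≤ e) : e ≤ ‖Zh h e ω z u‖ := by
  have h1 := Complex.abs_im_le_norm (Zh h e ω z u)
  have h2 := le_abs_self (Zh h e ω z u).im
  have h3 : 0 ≤ Yc ω z u := Yc_nonneg
  rw [Zh_im] at h1 h2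
  linarith

theorem norm_Zh_sub : ‖Zh h e ω z u - Zc ω z u‖ ≤ |ω u - h u| + |e| := by
  have : Zh h e ω z u - Zc ω z u = ((ω u - h u : ℝ) : ℂ) + e * Complex.I := by
    simp only [Zh, Zc]; push_cast; ring
  rw [this]
  refine (norm_add_le _ _).trans (le_of_eq ?_)
  rw [Complex.norm_real, norm_mul, Complex.norm_I, Complex.norm_real, mul_one, Real.norm_eq_abs, Real.norm_eq_abs]

theorem norm_le_Zh (he : 0 ≤ e) (H : |ω u - h u| ≤ e) : ‖Zc ω z u‖ ≤ 3 * ‖Zh h e ω z u‖ := by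
  have h1 := norm_Zh_sub (h := h) (e := e) (ω := ω) (z := z) (u := u)
  have h2 := le_norm_Zh (h := h) (ω := ω) (z := z) (u := u) he
  have h3 := norm_sub_norm_le (Zc ω z u) (Zh h e ω z u)
  rw [norm_sub_rev, abs_of_nonneg he] at h1
  linarith

theorem cont_Zh (ha : Aff h σ v s t) (hs : 0 ≤ s) (hal : Alive ω z t) : ContinuousOn (Zh h e ω z) (Icc s t) := by
  obtain ⟨h₀, hh⟩ := ha.aff
  have h1 : ContinuousOn (gt ω z) (Icc s t) := hal.sol.cont.mono (Icc_subset_Icc_left hs)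
  have h2 : ContinuousOn (fun u : ℝ => gt ω z u - ((h₀ + σ * v * u : ℝ) : ℂ) + e * Complex.I) (Icc s t) :=
    (h1.sub (Continuous.continuousOn (by fun_prop))).add continuousOn_const
  exact h2.congr fun u hu => by simp only [Zh, hh u hu]

theorem deriv_Zh (ha : Aff h σ v s t) (hs : 0 ≤ s) (hal : Alive ω z t) (hu : u ∈ Ico s t) :
    HasDerivWithinAt (Zh h e ω z) (2 / Zc ω z u - σ * v) (Ici u) u := by
  obtain ⟨h₀, hh⟩ := ha.aff
  have hu0 : 0 ≤ u := hs.trans hu.1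
  have h1 := (hal.mono hu0 hu.2.le).deriv_gt.mono (Ici_subset_Ici.2 hu0)
  have h2 : HasDerivAt (fun u : ℝ => ((h₀ + σ * v * u : ℝ) : ℂ)) (σ * v) u :=
    (((hasDerivAt_id u).const_mul (σ * v)).const_add h₀).ofReal_comp.congr_deriv (by simp)
  have h3 := (h1.sub h2.hasDerivWithinAt).add_const (e * Complex.I)
  refine h3.congr_of_eventuallyEq ?_ ?_
  · filter_upwards [Icc_mem_nhdsGE hu.2] with r hr
    simp only [Zh, hh r ⟨hu.1.trans hr.1, hr.2⟩, Pi.sub_apply]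
  · simp only [Zh, hh u ⟨hu.1, hu.2.le⟩, Pi.sub_apply]

/-- `norm_image_sub_le_of_norm_deriv_right_le_segment`, `Yc_anti`, `Yc_le_norm` -/
theorem gt_lip {η₁ : ℝ} (hη : 0 < η₁) (hY : η₁ ≤ Yc ω z t) (hs : 0 ≤ s) (hsu : s ≤ u) (hu : u ≤ t) :
    ‖gt ω z u - gt ω z s‖ ≤ 2 / η₁ * (u - s) := by
  have hal : Alive ω z t := alive_iff.2 (hη.trans_le hY)
  refine norm_image_sub_le_of_norm_deriv_right_le_segment (f' := fun r => 2 / Zc ω z r)
    (hal.sol.cont.mono (Icc_subset_Icc hs hu)) (fun r hr => ?_) (fun r hr => ?_) u ⟨hsu, le_rfl⟩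
  · have hr0 : 0 ≤ r := hs.trans hr.1
    exact (hal.mono hr0 (hr.2.le.trans hu)).deriv_gt.mono (Ici_subset_Ici.2 hr0)
  · have hr0 : 0 ≤ r := hs.trans hr.1
    have h1 : η₁ ≤ ‖Zc ω z r‖ := hY.trans ((Yc_anti hr0 (hr.2.le.trans hu)).trans Yc_le_norm)
    rw [norm_div, Complex.norm_two]
    exact div_le_div_of_nonneg_left zero_le_two hη h1

theorem cont_logY (hs : 0 ≤ s) (hal : Alive ω z t) : ContinuousOn (fun u => Real.log (Yc ω z u)) (Icc s t) := by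
  refine ContinuousOn.log (Lx.contOn_Yc'.mono fun r hr => hs.trans hr.1) fun r hr => ?_
  exact (alive_iff.1 (hal.mono (hs.trans hr.1) hr.2)).ne'

theorem deriv_logY (hal : Alive ω z u) :
    HasDerivWithinAt (fun u => Real.log (Yc ω z u)) (-2 / ‖Zc ω z u‖ ^ 2) (Ici u) u := by
  have hY := alive_iff.1 hal
  refine ((hal.deriv_Yc.mono (Ici_subset_Ici.2 hal.1)).log hY.ne').congr_deriv ?_
  field_simp

theorem norm_sub_le_of_deriv {E : Type} [NormedAddCommGroup E] [NormedSpace ℝ E] {F F' : ℝ → E} {B B' : ℝ → ℝ}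
    (hst : s ≤ t) (hF : ContinuousOn F (Icc s t)) (hF' : ∀ x ∈ Ico s t, HasDerivWithinAt F (F' x) (Ici x) x)
    (hB : ContinuousOn B (Icc s t)) (hB' : ∀ x ∈ Ico s t, HasDerivWithinAt B (B' x) (Ici x) x)
    (bd : ∀ x ∈ Ico s t, ‖F' x‖ ≤ B' x) : ‖F t - F s‖ ≤ B t - B s :=
  image_norm_le_of_norm_deriv_right_le_deriv_boundary' (f := fun x => F x - F s) (B := fun x => B x - B s)
    (hF.sub continuousOn_const) (fun x hx => (hF' x hx).sub_const _) (by simp) (hB.sub continuousOn_const)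
    (fun x hx => (hB' x hx).sub_const _) bd ⟨hst, le_rfl⟩

theorem Zh_slit (he : 0 < e) : Zh h e ω z u ∈ Complex.slitPlane := by
  right
  have h3 : 0 ≤ Yc ω z u := Yc_nonneg
  rw [Zh_im]; positivity

theorem Aff.abs (ha : Aff h σ v s t) : |σ| = 1 := by
  rcases ha.sgn with h | h <;> simp [h]

theorem Aff.sq (ha : Aff h σ v s t) : (σ : ℂ) * σ = 1 := by
  rcases ha.sgn with h | h <;> simp [h]

/-- P1: the derivative is `2/Z - 2/Zh + (4σ/v)/(Z Zh)`, of norm `≤ (4 e + 4/v) / (|Z| |Zh|) ≤ (6 e + 6/v) 2 / |Z|²` -/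
theorem piece_log (hv : 0 < v) (he : 0 < e) (hs : 0 ≤ s) (hst : s ≤ t) (ha : Aff h σ v s t) (hal : Alive ω z t)
    (htube : ∀ u ∈ Icc s t, |ω u - h u| ≤ e) :
    ‖(gt ω z t + 2 * σ / v * Complex.log (Zh h e ω z t)) - (gt ω z s + 2 * σ / v * Complex.log (Zh h e ω z s))‖ ≤
      (6 * e + 6 / v) * (Real.log (Yc ω z s) - Real.log (Yc ω z t)) := by
  have key := norm_sub_le_of_deriv (F := fun u => gt ω z u + 2 * σ / v * Complex.log (Zh h e ω z u))
    (F' := fun u => 2 / Zc ω z u + 2 * σ / v * ((2 / Zc ω z u - σ * v) / Zh h e ω z u))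
    (B := fun u => -(6 * e + 6 / v) * Real.log (Yc ω z u))
    (B' := fun u => -(6 * e + 6 / v) * (-2 / ‖Zc ω z u‖ ^ 2)) hst
    ((hal.sol.cont.mono (Icc_subset_Icc_left hs)).add
      (continuousOn_const.mul ((cont_Zh ha hs hal).clog fun _ _ => Zh_slit he)))
    (fun x hx => ((hal.mono (hs.trans hx.1) hx.2.le).deriv_gt.mono (Ici_subset_Ici.2 (hs.trans hx.1))).add
      (((deriv_Zh ha hs hal hx).clog_real (Zh_slit he)).const_mul _))
    (continuousOn_const.mul (cont_logY hs hal))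
    (fun x hx => (deriv_logY (hal.mono (hs.trans hx.1) hx.2.le)).const_mul _) (fun x hx => ?_)
  · refine key.trans (le_of_eq ?_); ring
  have hx' := hal.mono (hs.trans hx.1) hx.2.le
  have hZ := Lx.norm_pos hx'
  have hZ0 := Lx.zc_ne hx'
  have hH : 0 < ‖Zh h e ω z x‖ := he.trans_le (le_norm_Zh he.le)
  have hH0 : Zh h e ω z x ≠ 0 := norm_pos_iff.1 hH
  have h3 := norm_le_Zh (z := z) he.le (htube x ⟨hx.1, hx.2.le⟩)
  have hd : ‖Zh h e ω z x - Zc ω z x‖ ≤ 2 * e := by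
    have := norm_Zh_sub (h := h) (e := e) (ω := ω) (z := z) (u := x)
    rw [abs_of_pos he] at this
    linarith [htube x ⟨hx.1, hx.2.le⟩]
  have hv' : (v : ℂ) ≠ 0 := by exact_mod_cast hv.ne'
  have e1 : 2 / Zc ω z x + 2 * σ / v * ((2 / Zc ω z x - σ * v) / Zh h e ω z x) =
      (2 * (Zh h e ω z x - Zc ω z x) + 4 * σ / v) / (Zc ω z x * Zh h e ω z x) := by
    have := ha.sq
    field_simp
    linear_combination (-2 * v * Zc ω z x) * this
  have e2 : ‖2 * (Zh h e ω z x - Zc ω z x) + 4 * σ / v‖ ≤ 4 * e + 4 / v := by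
    refine (norm_add_le _ _).trans (add_le_add ?_ (le_of_eq ?_))
    · rw [norm_mul, Complex.norm_two]; linarith
    · rw [norm_div, norm_mul, Complex.norm_real, Complex.norm_real, Real.norm_eq_abs, Real.norm_eq_abs, ha.abs,
        abs_of_pos hv]
      simp
  rw [e1, norm_div, norm_mul]
  have hc : 0 ≤ 4 * e + 4 / v := by positivity
  calc _ ≤ (4 * e + 4 / v) / (‖Zc ω z x‖ * (‖Zc ω z x‖ / 3)) := by gcongr; linarith
    _ = _ := by field_simp; ring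

theorem cont_Wl (hs : 0 ≤ s) (hal : Alive ω z t) : ContinuousOn (Wl ω z) (Icc s t) := by
  refine ContinuousOn.sub (ContinuousOn.log ((Lx.contOn_Up hal).mono (Icc_subset_Icc_left hs)) fun r hr => ?_)
    (cont_logY hs hal)
  exact (hal.mono (hs.trans hr.1) hr.2).up_pos.ne'

/-- `-4 S²/|Z|² + 2/|Z|² = Re (2/Z²)` -/
theorem deriv_Wl (hal : Alive ω z u) : HasDerivWithinAt (Wl ω z) (2 / Zc ω z u ^ 2).re (Ici u) u := by
  have hU := hal.up_pos
  have hZ := Lx.norm_pos hal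
  refine (((hal.deriv_Up.mono (Ici_subset_Ici.2 hal.1)).log hU.ne').sub (deriv_logY hal)).congr_deriv ?_
  have e1 : ‖Zc ω z u‖ ^ 2 = (Zc ω z u).re ^ 2 + (Zc ω z u).im ^ 2 := by
    rw [Complex.sq_norm, Complex.normSq_apply]; ring
  have e2 : (2 / Zc ω z u ^ 2).re = 2 * ((Zc ω z u).re ^ 2 - (Zc ω z u).im ^ 2) / (‖Zc ω z u‖ ^ 2) ^ 2 := by
    rw [Complex.div_re, map_pow, Complex.normSq_eq_norm_sq]
    simp [pow_two]
  rw [e2, Sc, ← Lx.zc_im]
  field_simp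
  rw [e1]; ring

/-- P2: the derivative is `Re (2/Z² - 2/Zh² + (4σ/v)/(Z Zh²))`, of modulus `≤ (48 e + 36/v)/|Z|³ ≤ (24 e + 18/v) (1/Y)'` -/
theorem piece_W (hv : 0 < v) (he : 0 < e) (hs : 0 ≤ s) (hst : s ≤ t) (ha : Aff h σ v s t) (hal : Alive ω z t)
    (htube : ∀ u ∈ Icc s t, |ω u - h u| ≤ e) :
    |(Wl ω z t - 2 * σ / v * (Zh h e ω z t)⁻¹.re) - (Wl ω z s - 2 * σ / v * (Zh h e ω z s)⁻¹.re)| ≤
      (24 * e + 18 / v) * (1 / Yc ω z t - 1 / Yc ω z s) := by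
  have hH0 : ∀ x, Zh h e ω z x ≠ 0 := fun x => norm_pos_iff.1 (he.trans_le (le_norm_Zh he.le))
  have key := norm_sub_le_of_deriv (F := fun u => Wl ω z u - 2 * σ / v * (Zh h e ω z u)⁻¹.re)
    (F' := fun u => (2 / Zc ω z u ^ 2).re - 2 * σ / v * (-(2 / Zc ω z u - σ * v) / Zh h e ω z u ^ 2).re)
    (B := fun u => (24 * e + 18 / v) * (Yc ω z u)⁻¹)
    (B' := fun u => (24 * e + 18 / v) * (-(-2 * Yc ω z u / ‖Zc ω z u‖ ^ 2) / Yc ω z u ^ 2)) hst
    ((cont_Wl hs hal).sub (continuousOn_const.mul (Complex.continuous_re.comp_continuousOn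
      ((cont_Zh ha hs hal).inv₀ fun _ _ => hH0 _))))
    (fun x hx => (deriv_Wl (hal.mono (hs.trans hx.1) hx.2.le)).sub
      ((Complex.reCLM.hasFDerivAt.comp_hasDerivWithinAt x ((deriv_Zh ha hs hal hx).inv (hH0 x))).const_mul _))
    (continuousOn_const.mul ((Lx.contOn_Yc'.mono fun r hr => hs.trans hr.1).inv₀ fun r hr =>
      (alive_iff.1 (hal.mono (hs.trans hr.1) hr.2)).ne'))
    (fun x hx => ((((hal.mono (hs.trans hx.1) hx.2.le).deriv_Yc.mono (Ici_subset_Ici.2 (hs.trans hx.1))).inv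
      (alive_iff.1 (hal.mono (hs.trans hx.1) hx.2.le)).ne').const_mul _)) (fun x hx => ?_)
  · refine (le_of_eq (Real.norm_eq_abs _).symm).trans (key.trans (le_of_eq ?_)); ring
  have hx' := hal.mono (hs.trans hx.1) hx.2.le
  have hZ := Lx.norm_pos hx'
  have hZ0 := Lx.zc_ne hx'
  have hY := alive_iff.1 hx'
  have hYZ : Yc ω z x ≤ ‖Zc ω z x‖ := Yc_le_norm
  have hH : 0 < ‖Zh h e ω z x‖ := norm_pos_iff.2 (hH0 x)
  have h3 := norm_le_Zh (z := z) he.le (htube x ⟨hx.1, hx.2.le⟩)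
  have hd : ‖Zh h e ω z x - Zc ω z x‖ ≤ 2 * e := by
    have := norm_Zh_sub (h := h) (e := e) (ω := ω) (z := z) (u := x)
    rw [abs_of_pos he] at this
    linarith [htube x ⟨hx.1, hx.2.le⟩]
  have hv' : (v : ℂ) ≠ 0 := by exact_mod_cast hv.ne'
  have e0 : (2 / Zc ω z x ^ 2).re - 2 * σ / v * (-(2 / Zc ω z x - σ * v) / Zh h e ω z x ^ 2).re =
      (2 / Zc ω z x ^ 2 - ((2 * σ / v : ℝ) : ℂ) * (-(2 / Zc ω z x - σ * v) / Zh h e ω z x ^ 2)).re := by
    rw [Complex.sub_re, Complex.re_ofReal_mul]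
  have e1 : 2 / Zc ω z x ^ 2 - ((2 * σ / v : ℝ) : ℂ) * (-(2 / Zc ω z x - σ * v) / Zh h e ω z x ^ 2) =
      2 * (Zh h e ω z x - Zc ω z x) / (Zc ω z x ^ 2 * Zh h e ω z x) +
        (2 * (Zh h e ω z x - Zc ω z x) + 4 * σ / v) / (Zc ω z x * Zh h e ω z x ^ 2) := by
    have := ha.sq
    have := hH0 x
    push_cast
    field_simp
    linear_combination (-2 * v * Zc ω z x ^ 2) * ha.sq
  have e3 : ‖2 * (Zh h e ω z x - Zc ω z x)‖ ≤ 4 * e := by rw [norm_mul, Complex.norm_two]; linarith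
  have e2 : ‖2 * (Zh h e ω z x - Zc ω z x) + 4 * σ / v‖ ≤ 4 * e + 4 / v := by
    refine (norm_add_le _ _).trans (add_le_add e3 (le_of_eq ?_))
    rw [norm_div, norm_mul, Complex.norm_real, Complex.norm_real, Real.norm_eq_abs, Real.norm_eq_abs, ha.abs,
      abs_of_pos hv]
    simp
  rw [e0, e1, Real.norm_eq_abs]
  refine (Complex.abs_re_le_norm _).trans ((norm_add_le _ _).trans ?_)
  rw [norm_div, norm_div, norm_mul (Zc ω z x ^ 2), norm_mul (Zc ω z x), norm_pow, norm_pow]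
  have h4 : ‖Zc ω z x‖ / 3 ≤ ‖Zh h e ω z x‖ := by linarith
  calc _ ≤ 4 * e / (‖Zc ω z x‖ ^ 2 * (‖Zc ω z x‖ / 3)) + (4 * e + 4 / v) / (‖Zc ω z x‖ * (‖Zc ω z x‖ / 3) ^ 2) := by
        gcongr
    _ = (24 * e + 18 / v) * (2 / (‖Zc ω z x‖ ^ 2 * ‖Zc ω z x‖)) := by field_simp; ring
    _ ≤ (24 * e + 18 / v) * (2 / (‖Zc ω z x‖ ^ 2 * Yc ω z x)) := by gcongr
    _ = _ := by field_simp

/-- P3: `log Y + β σ arg Zh` with `β = 100 / (e v)` (`arg = Im log`) is nondecreasing: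
`σ (arg Zh)' = v Im Zh / |Zh|² + σ Im (2 / (Z Zh)) ≥ (e v - 10) / |Zh|²` and `2 / |Z|² ≤ 50 / |Zh|²`; `0 ≤ arg ≤ π` -/
theorem piece_stab (hv : 0 < v) (he : 20 ≤ e * v) (hs : 0 ≤ s) (hst : s ≤ t) (ha : Aff h σ v s t)
    (hal : Alive ω z t) (H : ∀ u ∈ Icc s t, ‖Zh h e ω z u‖ ≤ 5 * ‖Zc ω z u‖) :
    Real.log (Yc ω z s) - Real.log (Yc ω z t) ≤ 100 * Real.pi / (e * v) := by
  have hev : 0 < e * v := by linarith
  have he0 : 0 < e := (pos_iff_pos_of_mul_pos hev).2 hv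
  have key := image_le_of_deriv_right_le_deriv_boundary
    (f := fun _ => Real.log (Yc ω z s) + 100 / (e * v) * σ * (Complex.log (Zh h e ω z s)).im) (f' := fun _ => 0)
    (B := fun u => Real.log (Yc ω z u) + 100 / (e * v) * σ * (Complex.log (Zh h e ω z u)).im)
    (B' := fun u => -2 / ‖Zc ω z u‖ ^ 2 + 100 / (e * v) * σ * ((2 / Zc ω z u - σ * v) / Zh h e ω z u).im)
    (a := s) (b := t) continuousOn_const (fun x _ => hasDerivWithinAt_const _ _ _) le_rfl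
    ((cont_logY hs hal).add (continuousOn_const.mul (Complex.continuous_im.comp_continuousOn
      ((cont_Zh ha hs hal).clog fun _ _ => Zh_slit he0))))
    (fun x hx => (deriv_logY (hal.mono (hs.trans hx.1) hx.2.le)).add
      ((Complex.imCLM.hasFDerivAt.comp_hasDerivWithinAt x
        ((deriv_Zh ha hs hal hx).clog_real (Zh_slit he0))).const_mul _)) (fun x hx => ?_) ⟨hst, le_rfl⟩
  · simp only [Complex.log_im] at key
    have p : ∀ u, 0 ≤ (Zh h e ω z u).arg := fun u => Complex.arg_nonneg_iff.2 (by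
      have h3 : 0 ≤ Yc ω z u := Yc_nonneg
      rw [Zh_im]; positivity)
    have q1 := Complex.arg_le_pi (Zh h e ω z s)
    have q2 := Complex.arg_le_pi (Zh h e ω z t)
    have hb : 0 < 100 / (e * v) := by positivity
    have : σ * ((Zh h e ω z t).arg - (Zh h e ω z s).arg) ≤ Real.pi := by
      rcases ha.sgn with h | h <;> rw [h] <;> linarith [p s, p t]
    calc _ ≤ 100 / (e * v) * (σ * ((Zh h e ω z t).arg - (Zh h e ω z s).arg)) := by linarith
      _ ≤ 100 / (e * v) * Real.pi := by gcongr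
      _ = _ := by ring
  have hx' := hal.mono (hs.trans hx.1) hx.2.le
  have hZ := Lx.norm_pos hx'
  have hH : 0 < ‖Zh h e ω z x‖ := he0.trans_le (le_norm_Zh he0.le)
  have h5 := H x ⟨hx.1, hx.2.le⟩
  have hY : 0 ≤ Yc ω z x := Yc_nonneg
  have e1 : σ * ((2 / Zc ω z x - σ * v) / Zh h e ω z x).im =
      σ * (2 / (Zc ω z x * Zh h e ω z x)).im + v * (Yc ω z x + e) / ‖Zh h e ω z x‖ ^ 2 := by
    have h2 : σ * σ = 1 := by rcases ha.sgn with h | h <;> simp [h]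
    rw [sub_div, div_div, Complex.sub_im, ← Complex.ofReal_mul, div_eq_mul_inv ((σ * v : ℝ) : ℂ),
      Complex.im_ofReal_mul, Complex.inv_im, Zh_im, Complex.normSq_eq_norm_sq]
    linear_combination (v * (Yc ω z x + e) / ‖Zh h e ω z x‖ ^ 2) * h2
  have e2 : -(10 / ‖Zh h e ω z x‖ ^ 2) ≤ σ * (2 / (Zc ω z x * Zh h e ω z x)).im := by
    refine neg_le_of_abs_le ?_
    rw [abs_mul, ha.abs, one_mul]
    refine (Complex.abs_im_le_norm _).trans ?_
    rw [norm_div, norm_mul, Complex.norm_two]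
    calc _ ≤ 2 / (‖Zh h e ω z x‖ / 5 * ‖Zh h e ω z x‖) := by gcongr; linarith
      _ = _ := by field_simp; ring
  have e3 : e * v / ‖Zh h e ω z x‖ ^ 2 ≤ v * (Yc ω z x + e) / ‖Zh h e ω z x‖ ^ 2 := by
    refine div_le_div_of_nonneg_right ?_ (by positivity)
    nlinarith [mul_nonneg hv.le hY]
  have e4 : 10 / ‖Zh h e ω z x‖ ^ 2 ≤ e * v / 2 / ‖Zh h e ω z x‖ ^ 2 := by gcongr; linarith
  have e5 : 2 / ‖Zc ω z x‖ ^ 2 ≤ 50 / ‖Zh h e ω z x‖ ^ 2 := by
    calc _ ≤ 2 / (‖Zh h e ω z x‖ / 5) ^ 2 := by gcongr; linarith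
      _ = _ := by field_simp; ring
  have e6 : e * v / 2 / ‖Zh h e ω z x‖ ^ 2 ≤ σ * ((2 / Zc ω z x - σ * v) / Zh h e ω z x).im := by
    have : e * v / ‖Zh h e ω z x‖ ^ 2 = 2 * (e * v / 2 / ‖Zh h e ω z x‖ ^ 2) := by ring
    linarith
  have e7 : 50 / ‖Zh h e ω z x‖ ^ 2 = 100 / (e * v) * (e * v / 2 / ‖Zh h e ω z x‖ ^ 2) := by field_simp; ring
  have hb : 0 < 100 / (e * v) := by positivity
  have e8 := mul_le_mul_of_nonneg_left e6 hb.le
  have e9 : -2 / ‖Zc ω z x‖ ^ 2 = -(2 / ‖Zc ω z x‖ ^ 2) := by ring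
  show 0 ≤ -2 / ‖Zc ω z x‖ ^ 2 + 100 / (e * v) * σ * ((2 / Zc ω z x - σ * v) / Zh h e ω z x).im
  rw [mul_assoc]
  linarith

end Crest.Agent.R162.Z
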