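import Crest.Agent.R162.Z.Steer
import Crest.Agent.R162.Z.Piece

/-! Row 162, block Z: the special block.  Statements frozen (helper84). -/

set_option autoImplicit false

open scoped ENNReal NNReal Topology
open Set Filter MeasureTheory Metric

noncomputable section
namespace Crest.Agent.R162.Z

variable {κ : ℝ} {μ : Measure Path} {s₀ c₀ C₀ : ℝ}

theorem measurableSet_end (T L d r : ℝ) : MeasurableSet {ω : Path | osc T ω ≤ L ∧ |ω T - ω 0 - d| ≤ r} := by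
  exact ((isClosed_le (continuous_osc T) continuous_const).inter
    (isClosed_le (f := fun ω : Path => |ω T - ω 0 - d|) (by fun_prop) continuous_const)).measurableSet

theorem measurable_nz' (κ s₀ y : ℝ) (z : ℂ) (a b : ℝ) : Measurable fun ω => nz κ s₀ y ω z (Ioc a b) := by
  exact measurable_nz.comp (f := fun ω : Path => (y, ω, z, a, b)) (by fun_prop)

/-- oscillation of a spliced path -/
theorem osc_spl_le {s t : ℝ} (hs : 0 ≤ s) (ht : 0 ≤ t) (ω ω' : Path) :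
    osc (s + t) (spl s ω ω') ≤ osc s ω + osc t ω' := by
  have h1 := osc_nonneg s ω
  have h2 := osc_nonneg t ω'
  refine osc_le (by linarith) fun u hu => ?_
  rw [agr_spl s ω ω' 0 hs]
  rcases le_total u s with h | h
  · rw [agr_spl s ω ω' u h]; linarith [abs_le_osc ω (T := s) ⟨hu.1, h⟩]
  · have e : spl s ω ω' u = ω s + (ω' (u - s) - ω' 0) := by
      simp [spl, min_eq_right h, max_eq_left (sub_nonneg.2 h)]
    rw [e, show ω s + (ω' (u - s) - ω' 0) - ω 0 = (ω s - ω 0) + (ω' (u - s) - ω' 0) by ring]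
    exact (abs_add_le _ _).trans (add_le_add (abs_le_osc ω ⟨hs, le_rfl⟩)
      (abs_le_osc ω' ⟨by linarith, by linarith [hu.2]⟩))

/-- going home: from anywhere within `D`, in any time `t ∈ [Δ/2, Δ]` (`steer_unit` with `T = Δ`, `V = 2 D / Δ`,
`k u = d * min u t / t`) -/
theorem go_home (hκ : 0 < κ) (hμ : Wie κ μ) {Δ D r : ℝ} (hΔ : 0 < Δ) (hD : 0 ≤ D) (hr : 0 < r) :
    ∃ q, 0 < q ∧ ∀ t d, t ∈ Icc (Δ / 2) Δ → |d| ≤ D →
      ENNReal.ofReal q ≤ μ {ω | osc t ω ≤ D + r ∧ |ω t - ω 0 - d| ≤ r} := by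
  obtain ⟨q, hq0, -, H⟩ := steer_unit hκ hμ hΔ (V := 2 * D / Δ) (by positivity) hr
  refine ⟨q, hq0, fun t d ht hd => ?_⟩
  have ht0 : 0 < t := by linarith [ht.1]
  refine (H (fun u => d * min u t / t) (by simp [ht0.le]) fun u u' h0 h1 h2 => ?_).trans
    (measure_mono fun ω hω => ⟨osc_le (by positivity) fun u hu => ?_, ?_⟩)
  · have a : 0 ≤ min u' t - min u t := sub_nonneg.2 (min_le_min_right _ h1)
    have b : min u' t - min u t ≤ u' - u := by
      rcases le_total u t with h | h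
      · rw [min_eq_left h]; linarith [min_le_left u' t]
      · rw [min_eq_right h]; linarith [min_le_right u' t]
    rw [← sub_div, ← mul_sub, abs_div, abs_mul, abs_of_pos ht0, abs_of_nonneg a]
    calc _ ≤ D * (u' - u) / (Δ / 2) := by gcongr; exact ht.1
      _ = _ := by field_simp
  · have a := hω u ⟨hu.1, hu.2.trans ht.2⟩
    simp only [min_eq_left hu.2] at a
    have b : |d * u / t| ≤ D := by
      rw [abs_div, abs_mul, abs_of_pos ht0, abs_of_nonneg hu.1, div_le_iff₀ ht0]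
      gcongr; exacts [hu.1, hu.2]
    have := abs_add_le (ω u - ω 0 - d * u / t) (d * u / t)
    rw [sub_add_cancel] at this
    linarith
  · have a := hω t ⟨ht0.le, ht.2⟩
    simp only [min_self, mul_div_cancel_right₀ _ ht0.ne'] at a
    exact a

/-- S2: the window of `Low`, then go home.  `lintegral_eq_EE` at the constant time `w = C₀ ‖z‖²`; for `osc w ω ≤ C₀ ‖z‖`,
`EE ω w (indicator * nz (Ioc 0 t)) ≥ nz ω (Ioc 0 w) * q` (`Agr.nz`, `osc_spl_le`, `go_home` with `2 D` and the target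
`d - (ω w - ω 0)`); then `hlow.low` -/
theorem spec_win (hκ : 0 < κ) (hμ : Wie κ μ) (hlow : Low κ μ s₀ c₀ C₀) {Δ D r : ℝ} (hΔ : 0 < Δ) (hD : 0 ≤ D)
    (hr : 0 < r) : ∃ q, 0 < q ∧ ∀ (z : ℂ) (y t d : ℝ), ‖z‖ ≤ 2 * z.im → 0 < y → 3 * y ≤ z.im →
      C₀ * ‖z‖ ^ 2 + Δ / 2 ≤ t → t ≤ Δ → C₀ * ‖z‖ ≤ D → |d| ≤ D →
      ENNReal.ofReal (q * z.im ^ (-bb κ)) ≤
        ∫⁻ ω in {ω | osc t ω ≤ 3 * D + r ∧ |ω t - ω 0 - d| ≤ r}, nz κ s₀ y ω z (Ioc 0 t) ∂μ := by
  obtain ⟨q, hq0, H⟩ := go_home hκ hμ hΔ (D := 2 * D) (by positivity) hr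
  have hc := hlow.c_pos
  have hC := hlow.one_le
  refine ⟨q * c₀, by positivity, fun z y t d hz hy hyz hw ht hzD hd => ?_⟩
  set w := C₀ * ‖z‖ ^ 2 with hwdef
  have hw0 : 0 ≤ w := by positivity
  have hm := measurableSet_end t (3 * D + r) d r
  have hm' : MeasurableSet {ω : Path | osc w ω ≤ C₀ * ‖z‖} :=
    (isClosed_le (continuous_osc w) continuous_const).measurableSet
  rw [← lintegral_indicator hm, hμ.lintegral_eq_EE (Stop.const hw0) ((measurable_nz' _ _ _ _ _ _).indicator hm)]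
  calc ENNReal.ofReal (q * c₀ * z.im ^ (-bb κ)) = ENNReal.ofReal (c₀ * z.im ^ (-bb κ)) * ENNReal.ofReal q := by
        rw [mul_assoc, ENNReal.ofReal_mul hq0.le, mul_comm]
    _ ≤ (∫⁻ ω in {ω | osc w ω ≤ C₀ * ‖z‖}, nz κ s₀ y ω z (Ioc 0 w) ∂μ) * ENNReal.ofReal q := by
        gcongr; exact hlow.low z y hz hy hyz
    _ = ∫⁻ ω in {ω | osc w ω ≤ C₀ * ‖z‖}, nz κ s₀ y ω z (Ioc 0 w) * ENNReal.ofReal q ∂μ :=
        (lintegral_mul_const' _ _ ENNReal.ofReal_ne_top).symm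
    _ ≤ ∫⁻ ω in {ω | osc w ω ≤ C₀ * ‖z‖}, EE μ ω w ({ω | osc t ω ≤ 3 * D + r ∧ |ω t - ω 0 - d| ≤ r}.indicator
          fun ω => nz κ s₀ y ω z (Ioc 0 t)) ∂μ := by
        refine setLIntegral_mono' hm' fun ω hω => ?_
        have hω' : osc w ω ≤ D := le_trans hω hzD
        have hd' : |d - (ω w - ω 0)| ≤ 2 * D := by
          have := abs_le_osc ω (T := w) ⟨hw0, le_rfl⟩
          linarith [abs_sub d (ω w - ω 0)]
        refine mul_le_lintegral (measurableSet_end _ _ _ _) (H (t - w) _ ⟨by linarith, by linarith⟩ hd') fun ω' h' => ?_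
        have htw : w ≤ t := by linarith
        have e : spl w ω ω' t = ω w + (ω' (t - w) - ω' 0) := by
          simp [spl, min_eq_right htw, max_eq_left (sub_nonneg.2 htw)]
        have : spl w ω ω' ∈ {ω : Path | osc t ω ≤ 3 * D + r ∧ |ω t - ω 0 - d| ≤ r} := by
          constructor
          · have a := osc_spl_le hw0 (sub_nonneg.2 htw) ω ω'
            rw [add_sub_cancel] at a
            linarith [h'.1]
          · rw [e, agr_spl w ω ω' 0 hw0]
            convert h'.2 using 2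
            ring
        rw [indicator_of_mem this, ← (agr_spl w ω ω').nz measurableSet_Ioc fun u hu => hu.2]
        exact lintegral_mono_set (Ioc_subset_Ioc_right htw)
    _ ≤ _ := setLIntegral_le_lintegral _ _

/-- the process whose first nonnegative value marks `S ≥ 1/2` -/
def XS (z : ℂ) (t : ℝ) (ω : Path) : ℝ := Yc ω z t * Sc ω z t - Yc ω z t / 2

/-- at living points `Alive.cont_gt`; at dead points `|XS| ≤ Yc → 0` (`continuousOn_Yc`, `Sc_mem`) -/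
theorem cont_XS (z : ℂ) : ContinuousOn (fun p : ℝ × Path => XS z p.1 p.2) (Ici 0 ×ˢ univ) := by
  intro q hq
  have hmap : MapsTo (fun q : ℝ × Path => (q.2, z, q.1)) (Ici 0 ×ˢ univ) (univ ×ˢ univ ×ˢ Ici 0) :=
    fun q hq => ⟨trivial, trivial, hq.1⟩
  have hc0 : ContinuousWithinAt (fun q : ℝ × Path => (q.2, z, q.1)) (Ici 0 ×ˢ univ) q := by fun_prop
  have hY : ContinuousWithinAt (fun q : ℝ × Path => Yc q.2 z q.1) (Ici 0 ×ˢ univ) q :=
    (continuousOn_Yc _ (hmap hq)).comp (f := fun q : ℝ × Path => (q.2, z, q.1)) hc0 hmap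
  refine ContinuousWithinAt.sub ?_ (hY.div_const 2)
  by_cases ha : Alive q.2 z q.1
  · have hg : ContinuousWithinAt (fun q : ℝ × Path => gt q.2 z q.1) (Ici 0 ×ˢ univ) q :=
      ha.cont_gt.comp (f := fun q : ℝ × Path => (q.2, z, q.1)) hc0 hmap
    have hω : ContinuousWithinAt (fun q : ℝ × Path => (q.2 q.1 : ℂ)) (Ici 0 ×ˢ univ) q := by fun_prop
    have hZ : ContinuousWithinAt (fun q : ℝ × Path => ‖Zc q.2 z q.1‖) (Ici 0 ×ˢ univ) q := (hg.sub hω).norm
    exact hY.mul (hY.div hZ ((alive_iff.1 ha).trans_le Yc_le_norm).ne')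
  · have h0 : Yc q.2 z q.1 = 0 := (dead ha).2.1
    unfold ContinuousWithinAt at hY ⊢
    simp only [h0, zero_mul] at hY ⊢
    exact squeeze_zero (fun p => mul_nonneg Yc_nonneg Sc_mem.1)
      (fun p => mul_le_of_le_one_right Yc_nonneg Sc_mem.2) hY

theorem stop_XS (z : ℂ) {θ : ℝ} (hθ : 0 ≤ θ) : Stop fun ω => hitX (XS z) 0 0 θ ω := by
  refine stop_hitX (Stop.const le_rfl) (fun _ => hθ) (cont_XS z) fun t ω ω' _ h => ?_
  simp only [XS, Sc, Yc, Zc, h.gt, h t le_rfl]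

/-- the jump, deterministic part: `Y² ≥ η²/4 - 4 θ` up to `θ = η² / 100` (`Yc_sq_ge`), `|g - z| ≤ η / 10` (`gt_lip`), so `Re Z` vanishes at some
time `≤ θ` (IVT), where `XS ≥ 0`; `lt_of_lt_hitX`, `le_hitX`; `Up_mul_Yc_sq`, `Up_anti`, `Up_zero` -/
theorem jump_det {η R σ : ℝ} {z : ℂ} {ω : Path} (hη : 0 < η) (hz : z.im ∈ Icc (η / 2) η) (hR : |z.re| ≤ R)
    (hσ : σ = 1 ∧ 0 ≤ z.re ∨ σ = -1 ∧ z.re ≤ 0) (h0 : ω 0 = 0) (h1 : R + η ≤ σ * ω (η ^ 2 / 100)) {s : ℝ}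
    (hs : s = hitX (XS z) 0 0 (η ^ 2 / 100) ω) :
    Alive ω z s ∧ ‖Zc ω z s‖ ≤ 2 * Yc ω z s ∧ Yc ω z s ≤ η ∧ η / 5 ≤ Up ω z s ∧ Up ω z s ≤ η := by
  set θ := η ^ 2 / 100 with hθ
  have hθ0 : 0 < θ := by positivity
  have hzH : z ∈ HH := show 0 < z.im by linarith [hz.1]
  have hY0 : Yc ω z 0 = z.im := by unfold Yc; rw [gt_zero hzH]
  have hYθ : 2 * η / 5 ≤ Yc ω z θ := by
    have a := Yc_sq_ge (ω := ω) (z := z) le_rfl hθ0.le
    rw [hY0] at a
    have b : (η / 2) ^ 2 ≤ z.im ^ 2 := by gcongr; exact hz.1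
    refine abs_le_of_sq_le_sq' ?_ Yc_nonneg |>.2
    nlinarith
  have hal : Alive ω z θ := alive_iff.2 (by linarith)
  have hsm : s ∈ Icc 0 θ := hs ▸ hitX_mem hθ0.le
  have hals : Alive ω z s := hal.mono hsm.1 hsm.2
  have hYs : 2 * η / 5 ≤ Yc ω z s := hYθ.trans (Yc_anti hsm.1 hsm.2)
  have hYs' : Yc ω z s ≤ η := (Yc_anti le_rfl hsm.1).trans (hY0.trans_le hz.2)
  have hcX : ContinuousOn (fun t => XS z t ω) (Icc 0 θ) :=
    (cont_XS z).comp (f := fun t : ℝ => (t, ω)) (by fun_prop) fun t ht => ⟨ht.1, trivial⟩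
  -- a time at which `Re Z` vanishes
  obtain ⟨u, hu, hu0⟩ : ∃ u ∈ Icc 0 θ, σ * (Zc ω z u).re = 0 := by
    have hc : ContinuousOn (fun u => σ * (Zc ω z u).re) (Icc 0 θ) := by
      have := hal.sol.cont
      unfold Zc
      fun_prop
    refine intermediate_value_Icc' hθ0.le hc ⟨?_, ?_⟩
    · have a := gt_lip (ω := ω) (z := z) (by positivity : 0 < 2 * η / 5) hYθ le_rfl hθ0.le le_rfl
      rw [gt_zero hzH] at a
      have b : |(gt ω z θ).re - z.re| ≤ η := by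
        refine (Complex.abs_re_le_norm (gt ω z θ - z)).trans (a.trans ?_)
        rw [hθ]; field_simp; nlinarith
      simp only [Zc, Complex.sub_re, Complex.ofReal_re]
      rw [abs_le] at b hR
      rcases hσ with ⟨rfl, -⟩ | ⟨rfl, -⟩ <;> linarith [b.1, b.2, hR.1, hR.2]
    · simp only [Zc, gt_zero hzH, h0, Complex.sub_re, Complex.ofReal_re, sub_zero]
      rcases hσ with ⟨rfl, h⟩ | ⟨rfl, h⟩ <;> linarith
  have hXu : 0 ≤ XS z u ω := by
    have hre : (Zc ω z u).re = 0 := by rcases hσ with ⟨rfl, -⟩ | ⟨rfl, -⟩ <;> linarith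
    have hYu := alive_iff.1 (hal.mono hu.1 hu.2)
    have : ‖Zc ω z u‖ = Yc ω z u := by
      rw [← Complex.abs_im_eq_norm.2 hre]
      have : (Zc ω z u).im = Yc ω z u := by simp [Zc, Yc]
      rw [this, abs_of_pos hYu]
    unfold XS Sc
    rw [this, div_self hYu.ne']; linarith
  have hsu : s ≤ u := by
    by_contra h
    exact absurd (lt_of_lt_hitX hu.1 (hs ▸ not_le.1 h)) (not_lt.2 hXu)
  have hXs : 0 ≤ XS z s ω := by
    rcases le_hitX (c := 0) hθ0.le hcX with h | h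
    · rw [← hs] at h
      rwa [show s = u from le_antisymm hsu (h ▸ hu.2)]
    · rwa [← hs] at h
  have hYp := alive_iff.1 hals
  have hZ : 0 < ‖Zc ω z s‖ := hYp.trans_le Yc_le_norm
  refine ⟨hals, ?_, hYs', ?_, (Up_anti le_rfl hsm.1).trans ((Up_zero hzH).trans_le hz.2)⟩
  · unfold XS Sc at hXs
    have : 1 / 2 ≤ Yc ω z s / ‖Zc ω z s‖ := by nlinarith
    rw [le_div_iff₀ hZ] at this; linarith
  · have a := Up_mul_Yc_sq (ω := ω) (z := z) le_rfl hsm.1
    rw [Up_zero hzH, hY0] at a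
    have hz0 : 0 < z.im := hzH
    have b : Yc ω z s ^ 2 ≤ Up ω z s * z.im := by
      have : z.im * Yc ω z s ^ 2 ≤ z.im * (Up ω z s * z.im) := by linarith
      exact le_of_mul_le_mul_left this hz0
    have c := Yc_sq_ge (ω := ω) (z := z) le_rfl hsm.1
    rw [hY0] at c
    have d : η / 5 * z.im ≤ Up ω z s * z.im := by nlinarith [hz.1, hz.2, hsm.2]
    exact le_of_mul_le_mul_right d hz0

/-- S1.  `steer_unit` on `[0, θ]`, `θ = η²/100`, target `σ (R + 2η) u / θ`, tolerance `η`; `lintegral_eq_EE` at the stopping time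
`stop_XS`; for `ω` in the tube with `ω 0 = 0`, `s = hitX ..`: `Alive.nz_add` (for `spl s ω ω'`, `Agr.gt`, `Agr.Up`, `sh_spl`,
`sh_zero`), `spec_win` with `t = Δ - s`, `D = 2 R + 3 η + 2 C₀ η`, `z = Zc ω z s`, `y / (Υ / Y)`, target `d - ω s`;
`(Υ/Y)^(-b) Y^(-b) = Υ^(-b) ≥ η^(-b)`; `L = 4 D + r` -/
theorem spec_unit (hκ : 0 < κ) (hκ8 : κ < 8) (hμ : Wie κ μ) (hlow : Low κ μ s₀ c₀ C₀) {η Δ R r : ℝ} (hη : 0 < η)
    (hΔ : 10 * C₀ * η ^ 2 ≤ Δ) (hR : 0 ≤ R) (hr : 0 < r) :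
    ∃ L q, 0 < L ∧ 0 < q ∧ Spec κ μ s₀ η Δ R r L (q * η ^ (-bb κ)) := by
  have hC := hlow.one_le
  set θ := η ^ 2 / 100 with hθ
  have hθ0 : 0 < θ := by positivity
  have hη2 : 0 < η ^ 2 := by positivity
  have hΔ0 : 0 < Δ := lt_of_lt_of_le (by positivity) hΔ
  set D := 2 * R + 3 * η + 2 * C₀ * η with hD
  have hCη : 0 ≤ C₀ * η := by positivity
  have hD0 : 0 ≤ D := by positivity
  obtain ⟨q₁, hq₁, -, H₁⟩ := steer_unit hκ hμ hθ0 (V := (R + 2 * η) / θ) (by positivity) hη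
  obtain ⟨q₂, hq₂, H₂⟩ := spec_win hκ hμ hlow hΔ0 hD0 hr
  refine ⟨4 * D + r, q₂ * q₁, by positivity, by positivity, fun z y d hz hR' hy hyη hd => ?_⟩
  obtain ⟨σ, hσ⟩ : ∃ σ : ℝ, σ = 1 ∧ 0 ≤ z.re ∨ σ = -1 ∧ z.re ≤ 0 := by
    rcases le_total 0 z.re with h | h
    exacts [⟨1, Or.inl ⟨rfl, h⟩⟩, ⟨-1, Or.inr ⟨rfl, h⟩⟩]
  have hσ1 : |σ| = 1 := by rcases hσ with ⟨rfl, -⟩ | ⟨rfl, -⟩ <;> simp
  have hσ2 : σ * σ = 1 := by rcases hσ with ⟨rfl, -⟩ | ⟨rfl, -⟩ <;> simp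
  have a₁ := H₁ (fun u => σ * ((R + 2 * η) / θ * u)) (by simp) fun u u' _ h1 _ => by
    rw [← mul_sub, ← mul_sub, abs_mul, hσ1, one_mul, abs_of_nonneg (by have := sub_nonneg.2 h1; positivity)]
  have hm := measurableSet_end Δ (4 * D + r) d r
  have hmA : MeasurableSet (Tube (fun u => σ * ((R + 2 * η) / θ * u)) θ η ∩ {ω | ω 0 = 0}) :=
    (isClosed_Tube _ _ _).measurableSet.inter (isClosed_eq (by fun_prop) continuous_const).measurableSet
  replace a₁ := a₁.trans (measure_mono_ae (t := Tube (fun u => σ * ((R + 2 * η) / θ * u)) θ η ∩ {ω | ω 0 = 0})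
    (hμ.zero.mono fun ω h hω => ⟨hω, h 0 le_rfl⟩))
  rw [← lintegral_indicator hm, hμ.lintegral_eq_EE (stop_XS z hθ0.le) ((measurable_nz' _ _ _ _ _ _).indicator hm),
    show q₂ * q₁ * η ^ (-bb κ) = q₂ * η ^ (-bb κ) * q₁ by ring, ENNReal.ofReal_mul (by positivity)]
  refine mul_le_lintegral hmA a₁ fun ω ⟨hω, h0⟩ => ?_
  replace h0 : ω 0 = 0 := h0
  set s := hitX (XS z) 0 0 θ ω with hs
  have hsm : s ∈ Icc 0 θ := hitX_mem hθ0.le
  have hb : ∀ u ∈ Icc 0 θ, |ω u - ω 0| ≤ R + 3 * η := fun u hu => by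
    have a := hω u hu
    have b : |σ * ((R + 2 * η) / θ * u)| ≤ R + 2 * η := by
      have := hu.1
      rw [abs_mul, hσ1, one_mul, abs_of_nonneg (by positivity), div_mul_eq_mul_div, div_le_iff₀ hθ0]
      gcongr; exact hu.2
    have := abs_add_le (ω u - ω 0 - σ * ((R + 2 * η) / θ * u)) (σ * ((R + 2 * η) / θ * u))
    rw [sub_add_cancel] at this
    simp only at a
    linarith
  have h1 : R + η ≤ σ * ω θ := by
    have a := hω θ ⟨hθ0.le, le_rfl⟩
    simp only [div_mul_cancel₀ _ hθ0.ne', h0, sub_zero] at a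
    have b : |σ * (ω θ - σ * (R + 2 * η))| ≤ η := by rwa [abs_mul, hσ1, one_mul]
    rw [mul_sub, ← mul_assoc, hσ2, one_mul] at b
    linarith [(abs_le.1 b).1]
  obtain ⟨hal, j1, j2, j3, j4⟩ := jump_det hη hz hR' hσ h0 h1 hs
  have hY := alive_iff.1 hal
  have hU := hal.up_pos
  have hZim : (Zc ω z s).im = Yc ω z s := by simp [Zc, Yc]
  have hZ : ‖Zc ω z s‖ ≤ 2 * η := by linarith
  have hsΔ : s ≤ Δ := by nlinarith [hsm.2]
  have a₂ := H₂ (Zc ω z s) (y / (Up ω z s / Yc ω z s)) (Δ - s) (d - (ω s - ω 0)) (by rw [hZim]; exact j1)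
    (by positivity) (by
      rw [hZim, div_div_eq_mul_div, ← mul_div_assoc, div_le_iff₀ hU]; nlinarith)
    (by
      have : ‖Zc ω z s‖ ^ 2 ≤ (2 * η) ^ 2 := by gcongr
      nlinarith [hsm.2])
    (by linarith [hsm.1]) (by nlinarith) (by linarith [abs_sub d (ω s - ω 0), hb s hsm])
  obtain ⟨hb0, -⟩ : 0 < bb κ ∧ True := ⟨by unfold bb; linarith, trivial⟩
  calc ENNReal.ofReal (q₂ * η ^ (-bb κ))
      ≤ ENNReal.ofReal ((Up ω z s / Yc ω z s) ^ (-bb κ)) * ENNReal.ofReal (q₂ * (Zc ω z s).im ^ (-bb κ)) := by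
        rw [← ENNReal.ofReal_mul (by positivity), hZim, mul_left_comm, ← Real.mul_rpow (by positivity) hY.le,
          div_mul_cancel₀ _ hY.ne']
        exact ENNReal.ofReal_le_ofReal (mul_le_mul_of_nonneg_left
          (Real.rpow_le_rpow_of_nonpos hU j4 (by linarith)) hq₂.le)
    _ ≤ _ := by
        refine (mul_le_mul_right a₂ _).trans ?_
        rw [← lintegral_indicator (measurableSet_end _ _ _ _), ← lintegral_const_mul' _ _ ENNReal.ofReal_ne_top]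
        refine lintegral_mono_ae (hμ.sh_zero.mono fun ω' hω' => ?_)
        by_cases h' : ω' ∈ {ω' : Path | osc (Δ - s) ω' ≤ 3 * D + r ∧ |ω' (Δ - s) - ω' 0 - (d - (ω s - ω 0))| ≤ r}
        swap
        · rw [indicator_of_notMem h', mul_zero]; exact zero_le
        have ag := agr_spl s ω ω'
        have e : spl s ω ω' Δ = ω s + (ω' (Δ - s) - ω' 0) := by
          simp [spl, min_eq_right hsΔ, max_eq_left (sub_nonneg.2 hsΔ)]
        have : spl s ω ω' ∈ {ω : Path | osc Δ ω ≤ 4 * D + r ∧ |ω Δ - ω 0 - d| ≤ r} := by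
          constructor
          · have a := osc_spl_le hsm.1 (sub_nonneg.2 hsΔ) ω ω'
            rw [add_sub_cancel] at a
            have b : osc s ω ≤ D := osc_le hD0 fun u hu => (hb u ⟨hu.1, hu.2.trans hsm.2⟩).trans (by linarith)
            linarith [h'.1]
          · rw [e, ag 0 hsm.1]
            convert h'.2 using 2
            ring
        rw [indicator_of_mem h', indicator_of_mem this]
        have n := (ag.alive.2 hal).nz_add (κ := κ) (s₀ := s₀) hκ8 hy (a := 0) (b := Δ - s) le_rfl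
        have eZ : Zc (spl s ω ω') z s = Zc ω z s := by simp only [Zc, ag.gt, ag s le_rfl]
        have eY : Yc (spl s ω ω') z s = Yc ω z s := by simp only [Yc, ag.gt]
        rw [ag.Up, eZ, eY, sh_spl, hω', add_zero, add_sub_cancel] at n
        rw [← n]
        exact lintegral_mono_set (Ioc_subset_Ioc_left hsm.1)

/-- `hμ.scale ℓ`, `nz_scl`, `osc` of `scl ℓ ω` -/
theorem Spec.scale (hμ : Wie κ μ) {η Δ R r L X ℓ : ℝ} (hΔ : 0 ≤ Δ) (hL : 0 ≤ L) (H : Spec κ μ s₀ η Δ R r L X)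
    (hℓ : 0 < ℓ) : Spec κ μ s₀ (η * ℓ) (Δ * ℓ ^ 2) (R * ℓ) (r * ℓ) (L * ℓ) (X * ℓ ^ (-bb κ)) := by
  intro z y d hz hR hy hyη hd
  have a := H (z / ℓ) (y / ℓ) (d / ℓ)
    (by
      rw [Complex.div_ofReal_im]
      exact ⟨by rw [le_div_iff₀ hℓ]; linarith [hz.1], by rw [div_le_iff₀ hℓ]; exact hz.2⟩)
    (by rw [Complex.div_ofReal_re, abs_div, abs_of_pos hℓ, div_le_iff₀ hℓ]; exact hR) (by positivity)
    (by rw [div_le_iff₀ hℓ]; linarith) (by rw [abs_div, abs_of_pos hℓ, div_le_iff₀ hℓ]; exact hd)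
  have hm := measurableSet_end Δ L (d / ℓ) r
  rw [← lintegral_indicator hm, ← (hμ.scale ℓ hℓ).lintegral_comp ((measurable_nz' _ _ _ _ _ _).indicator hm)] at a
  have hp : 0 < ℓ ^ (-bb κ) := by positivity
  rw [mul_comm, ENNReal.ofReal_mul hp.le]
  refine (mul_le_mul_right a _).trans ?_
  rw [← lintegral_indicator (measurableSet_end _ _ _ _), ← lintegral_const_mul' _ _ ENNReal.ofReal_ne_top]
  refine lintegral_mono fun ω => ?_
  by_cases h' : scl ℓ ω ∈ {ω : Path | osc Δ ω ≤ L ∧ |ω Δ - ω 0 - d / ℓ| ≤ r}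
  swap
  · rw [indicator_of_notMem h', mul_zero]; exact zero_le
  have : ω ∈ {ω : Path | osc (Δ * ℓ ^ 2) ω ≤ L * ℓ ∧ |ω (Δ * ℓ ^ 2) - ω 0 - d| ≤ r * ℓ} := by
    constructor
    · refine osc_le (by positivity) fun t ht => ?_
      have b := (abs_le_osc (scl ℓ ω) (T := Δ) (t := t / ℓ ^ 2)
        ⟨div_nonneg ht.1 (by positivity), by rw [div_le_iff₀ (by positivity)]; exact ht.2⟩).trans h'.1
      have e : ℓ ^ 2 * (t / ℓ ^ 2) = t := by field_simp
      simp only [scl, ContinuousMap.coe_mk, e, mul_zero] at b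
      rwa [← sub_div, abs_div, abs_of_pos hℓ, div_le_iff₀ hℓ] at b
    · have b := h'.2
      simp only [scl, ContinuousMap.coe_mk, mul_zero] at b
      rwa [← sub_div, ← sub_div, abs_div, abs_of_pos hℓ, div_le_iff₀ hℓ, mul_comm (ℓ ^ 2)] at b
  rw [indicator_of_mem h', indicator_of_mem this, nz_scl hy hℓ, ← mul_assoc, ← ENNReal.ofReal_mul hp.le,
    ← Real.rpow_add hℓ, neg_add_cancel, Real.rpow_zero, ENNReal.ofReal_one, one_mul, mul_zero, mul_comm]

end Crest.Agent.R162.Z
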