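import Crest.Agent.R162.Z.Wt
import Crest.Agent.R162.Z.Inv
import Crest.Agent.R162.Z.Spec

/-! Row 162, block Z: the game (backward induction over the blocks).  Statements frozen (helper84). -/

set_option autoImplicit false

open scoped ENNReal NNReal Topology
open Set Filter MeasureTheory Metric

noncomputable section
namespace Crest.Agent.R162.Z

variable {κ : ℝ} {μ : Measure Path} {s₀ A δ a v η Δ ε₀ ε₁ q M L Ls X y p : ℝ} {φ : ℕ → Path → ℝ} {z : ℂ} {n : ℕ}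

/-- the value of the game -/
def Val (κ : ℝ) (μ : Measure Path) (s₀ y Δ : ℝ) (φ : ℕ → Path → ℝ) (z : ℂ) (n i : ℕ) (ω : Path) : ℝ≥0∞ :=
  EE μ ω (i * Δ) fun ω₁ => ENNReal.ofReal (prodW φ i n ω₁) * nz κ s₀ y ω₁ z (Ioc 0 (n * Δ))

theorem g_spl_ge {s u : ℝ} (hu : s ≤ u) (ω ω' : Path) : spl s ω ω' u = ω s + (ω' (u - s) - ω' 0) := by
  change ω (min u s) + (ω' (max (u - s) 0) - ω' 0) = _
  rw [min_eq_right hu, max_eq_left (sub_nonneg.2 hu)]

theorem g_dev_agr {h ω ω' : Path} {s : ℝ} (hs : 0 ≤ s) (H : Agr s ω ω') : dev h ω' s = dev h ω s := by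
  rw [dev, dev, H s le_rfl, H 0 hs]

theorem g_cast (i : ℕ) (Δ : ℝ) : ((i + 1 : ℕ) : ℝ) * Δ = (i + 1) * Δ := by push_cast; rfl

/-- mass produced before the end of block `i` is not lost by the later weights -/
theorem g_inner (hμ : Wie κ μ) (hΔ : 0 < Δ) {h : Path} (W : Wt μ h Δ ε₀ ε₁ φ M L) {i : ℕ} (hi : i < n) {ω : Path}
    (hd : |dev h ω ((i + 1) * Δ)| ≤ ε₀) : nz κ s₀ y ω z (Ioc (i * Δ) ((i + 1) * Δ)) ≤
      EE μ ω ((i + 1 : ℕ) * Δ) fun ω₂ => ENNReal.ofReal (prodW φ (i + 1) n ω₂) * nz κ s₀ y ω₂ z (Ioc 0 (n * Δ)) := by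
  have h1 := W.prod_mean hμ hΔ (i + 1) n ω (by rwa [g_cast])
  have hm : Measurable fun ω' => ENNReal.ofReal (prodW φ (i + 1) n (spl ((i + 1 : ℕ) * Δ) ω ω')) :=
    ((W.prod_cont _ _).comp (continuous_spl.comp
      (continuous_const.prodMk (continuous_const.prodMk continuous_id)))).measurable.ennreal_ofReal
  rw [EE] at h1 ⊢
  rw [← one_mul (nz κ s₀ y ω z _), ← h1, ← lintegral_mul_const _ hm]
  refine lintegral_mono fun ω' => mul_le_mul_right ?_ _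
  rw [← (agr_spl ((i + 1 : ℕ) * Δ) ω ω').nz measurableSet_Ioc (by rw [g_cast]; exact Ioc_subset_Iic_self)]
  refine lintegral_mono_set (Ioc_subset_Ioc (by positivity) (mul_le_mul_of_nonneg_right ?_ hΔ.le))
  exact_mod_cast hi

/-- The special block.  `prod_step`; `nz (Ioc 0 (nΔ)) ≥ nz (Ioc (iΔ) ((i+1)Δ))`, which is `Agr ((i+1)Δ)`-invariant (`Agr.nz`), so the
inner `EE` is `≥ nz (Ioc (iΔ) ((i+1)Δ))` when `|dev ((i+1)Δ)| ≤ ε₀` (`prod_mean`); on the event of `Spec` with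
`d = h ((i+1)Δ) - ω (iΔ)` one has `1 ≤ φ i` (`Wt.one`, `zig_lip`); `Alive.nz_add`, `sh_spl`, `sh_zero`;
`Υ / Y = exp Wl ∈ [exp (-C), exp C]`, `0 < b < 1` -/
theorem ready_step (hκ : 0 < κ) (hκ8 : κ < 8) (hμ : Wie κ μ) (ha : 0 < a) (hv : 0 < v) (hΔ : 0 < Δ) (hη : 0 < η)
    (hε : 0 ≤ ε₀) (W : Wt μ (zig a v) Δ ε₀ ε₁ φ M L)
    (S : Spec κ μ s₀ η Δ (2 * v * Δ + ε₀) (ε₀ / 2) Ls X) (hLs : Ls + v * Δ ≤ ε₁ / 2) {C : ℝ} (hy : 0 < y)
    (hyη : y ≤ η / 20 * Real.exp (-C)) {i : ℕ} (hi : i < n) {ω : Path} (h0 : ω 0 = 0)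
    (hd : |dev (zig a v) ω (i * Δ)| ≤ ε₀) (hY : η / 2 ≤ Yc ω z (i * Δ)) (hR : Ready (zig a v) ω z v η Δ i)
    (hW : |Wl ω z (i * Δ)| ≤ C) : ENNReal.ofReal (X * Real.exp (-C)) ≤ Val κ μ s₀ y Δ φ z n i ω := by
  have hs : 0 ≤ (i : ℝ) * Δ := by positivity
  have ht : ((i : ℝ) + 1) * Δ = i * Δ + Δ := by ring
  have hY0 : 0 < Yc ω z (i * Δ) := by linarith
  have hal : Alive ω z (i * Δ) := alive_iff.2 hY0
  obtain ⟨ρ, hρ⟩ : ∃ ρ, ρ = Up ω z (i * Δ) / Yc ω z (i * Δ) := ⟨_, rfl⟩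
  have hρW : ρ = Real.exp (Wl ω z (i * Δ)) := by
    rw [Wl, Real.exp_sub, Real.exp_log hal.up_pos, Real.exp_log hY0, hρ]
  have hρ0 : 0 < ρ := by rw [hρW]; positivity
  have hb0 : 0 < bb κ := by rw [bb]; linarith
  have hb1 : bb κ ≤ 1 := by rw [bb]; linarith
  have hρb : Real.exp (-C) ≤ ρ ^ (-bb κ) := by
    rw [hρW, ← Real.exp_mul]
    refine Real.exp_le_exp.2 ?_
    have h1 := abs_le.1 hW
    have h2 : 0 ≤ C := (abs_nonneg _).trans hW
    nlinarith [h1.1, h1.2]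
  have hlip := zig_lip ha hv hs (show (i : ℝ) * Δ ≤ i * Δ + Δ by linarith)
  rw [dev, h0, sub_zero] at hd
  have hd' := abs_le.1 hd
  have hS := S (Zc ω z (i * Δ)) (y / ρ) (zig a v (i * Δ + Δ) - ω (i * Δ))
    (by simpa [Zc, Yc] using And.intro hY hR.1)
    (by
      have h1 := abs_le.1 hR.2
      have e : (Zc ω z (i * Δ)).re = (gt ω z (i * Δ)).re - ω (i * Δ) := by simp [Zc]
      rw [e, abs_le]; constructor <;> linarith [h1.1, h1.2])
    (by positivity)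
    (by
      rw [div_le_iff₀ hρ0, hρW]
      exact hyη.trans (mul_le_mul_of_nonneg_left (Real.exp_le_exp.2 (abs_le.1 hW).1) (by positivity)))
    (by
      have h1 := abs_le.1 hlip
      have := mul_pos hv hΔ
      rw [abs_le]; constructor <;> linarith [h1.1, h1.2])
  rw [Val, W.prod_step hμ hΔ hi (measurable_nz' κ s₀ y z 0 (n * Δ)), EE, mul_comm X,
    ENNReal.ofReal_mul (Real.exp_pos _).le]
  refine (mul_le_mul_right hS _).trans ?_
  rw [← lintegral_const_mul _ (measurable_nz' _ _ _ _ _ _), ← lintegral_indicator (measurableSet_end _ _ _ _)]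
  refine lintegral_mono_ae ?_
  filter_upwards [hμ.sh_zero] with ω' hsh
  by_cases hE : ω' ∈ {ω' : Path | osc Δ ω' ≤ Ls ∧ |ω' Δ - ω' 0 - (zig a v (i * Δ + Δ) - ω (i * Δ))| ≤ ε₀ / 2}
  swap
  · rw [indicator_of_notMem hE]; exact zero_le
  rw [indicator_of_mem hE]
  have hag := agr_spl (i * Δ) ω ω'
  set ω₁ := spl (i * Δ) ω ω' with hω₁
  have h10 : ω₁ 0 = 0 := (hag 0 hs).trans h0
  have hend : |dev (zig a v) ω₁ ((i + 1) * Δ)| ≤ ε₀ / 2 := by
    rw [dev, h10, ht, hω₁, g_spl_ge (by linarith), add_sub_cancel_left]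
    convert hE.2 using 2
    ring
  have h1 : 1 ≤ φ i ω₁ := W.one i ω₁ (fun u hu => by
    have k1 := abs_le.1 ((abs_le_osc ω' (t := u - i * Δ) ⟨sub_nonneg.2 hu.1, by linarith [hu.2]⟩).trans hE.1)
    have k2 := abs_le.1 (zig_lip ha hv hs hu.1)
    have k3 : v * (u - i * Δ) ≤ v * Δ := mul_le_mul_of_nonneg_left (by linarith [hu.2]) hv.le
    rw [dev, dev, hag _ le_rfl, hω₁, g_spl_ge hu.1, abs_le]
    constructor <;> linarith [k1.1, k1.2, k2.1, k2.2]) hend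
  have h2 := g_inner (κ := κ) (s₀ := s₀) (y := y) (z := z) hμ hΔ W hi (hend.trans (by linarith))
  have h3 := (hag.alive.2 hal).nz_add (s₀ := s₀) hκ8 hy (b := Δ) le_rfl
  have e1 : Zc ω₁ z (i * Δ) = Zc ω z (i * Δ) := by rw [Zc, Zc, hag.gt, hag _ le_rfl]
  have e2 : Yc ω₁ z (i * Δ) = Yc ω z (i * Δ) := by rw [Yc, Yc, hag.gt]
  rw [add_zero, ← ht, e1, e2, hag.Up, ← hρ, hω₁, sh_spl, hsh] at h3
  refine le_trans ?_ (mul_le_mul' (ENNReal.one_le_ofReal.2 h1) h2)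
  rw [one_mul, hω₁, h3]
  exact mul_le_mul_left (ENNReal.ofReal_le_ofReal hρb) _

/-- the potential -/
def Pot (p η e Y : ℝ) : ℝ := Real.exp (p * (Real.log (η / 2) - Real.log (min Y (6 * e))))

theorem g_pot_le_one {e Y : ℝ} (hp : 0 ≤ p) (hη : 0 < η) (hY : η / 2 ≤ Y) (he : η ≤ e) : Pot p η e Y ≤ 1 := by
  refine Real.exp_le_one_iff.2 (mul_nonpos_of_nonneg_of_nonpos hp (sub_nonpos.2 ?_))
  exact Real.log_le_log (by positivity) (le_min hY (by linarith))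

theorem g_pot_anti {e Y Y' : ℝ} (hp : 0 ≤ p) (he : 0 < e) (hY : 0 < Y') (h : Y' ≤ Y) :
    Pot p η e Y ≤ Pot p η e Y' := by
  refine Real.exp_le_exp.2 (mul_le_mul_of_nonneg_left (sub_le_sub_left ?_ _) hp)
  exact Real.log_le_log (lt_min hY (by positivity)) (min_le_min_right _ h)

theorem g_pot_near {e Y Y' k : ℝ} (hp : 0 ≤ p) (he : 0 < e) (hq : 0 < q) (hY : 0 < Y') (hYe : Y ≤ 6 * e)
    (h : Real.log Y' ≤ Real.log Y - k) (hk : -Real.log q ≤ p * k) : Pot p η e Y / q ≤ Pot p η e Y' := by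
  have h1 : Real.log (min Y' (6 * e)) ≤ Real.log Y' := Real.log_le_log (lt_min hY (by positivity)) (min_le_left _ _)
  rw [Pot, Pot, min_eq_left hYe, ← Real.exp_log hq, ← Real.exp_sub]
  refine Real.exp_le_exp.2 ?_
  nlinarith [mul_le_mul_of_nonneg_left (h1.trans h) hp]

/-- Downward induction on `i ≤ n`.  `i = n`: `inv_Y` and `glob_im` contradict each other.  `i < n`: ready: `ready_step`, `glob_W`,
`Pot ≤ 1`.  Not ready and `6 e ≤ |Z|`: wherever `φ i ≠ 0` the invariant holds at `i + 1` (`Wt.supp`, `far_step`, `Inv.succ`),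
`Yc_anti`, `Wt.mean`.  Not ready and `|Z| ≤ 6 e`: on the set of `Nar`, `1 ≤ φ i`, the invariant holds at `i + 1`, and
`near_step` gives `Pot (Y_i) ≤ q Pot (Y_{i+1})`; `mul_le_lintegral`. -/
theorem game (hκ : 0 < κ) (hκ8 : κ < 8) (hμ : Wie κ μ) (P : IP A δ a v (ε₀ + ε₁) η (2 * ε₀) Δ) (hε : 6 * ε₀ ≤ ε₁)
    (W : Wt μ (zig a v) Δ ε₀ ε₁ φ M L) (hq : 0 < q) (N : Nar μ (zig a v) Δ ε₀ q) (hX : 0 ≤ X)
    (S : Spec κ μ s₀ η Δ (2 * v * Δ + ε₀) (ε₀ / 2) Ls X) (hLs : Ls + v * Δ ≤ ε₁ / 2) (hηe : η ≤ ε₀ + ε₁) {C : ℝ}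
    (hC : Cw v (ε₀ + ε₁) (η / 4) ≤ C) (hy : 0 < y) (hyη : y ≤ η / 20 * Real.exp (-C)) (hp : 0 ≤ p)
    (hpq : -Real.log q ≤ p * (2 * Δ / (33 * (ε₀ + ε₁)) ^ 2)) (hn : n * Δ ≤ a / 3)
    (hn' : 1 - δ / 8 - δ / 32 ≤ Real.pi * (n * Δ) / a) (hz : |z.re| ≤ A) (hz2 : z.im ∈ Icc (1 / 2) (1 - δ / 4))
    {i : ℕ} (hi : i ≤ n) {ω : Path} (H : Inv (zig a v) z v (ε₀ + ε₁) η (2 * ε₀) ε₀ Δ i ω) :
    ENNReal.ofReal (X * Real.exp (-C) * Pot p η (ε₀ + ε₁) (Yc ω z (i * Δ))) ≤ Val κ μ s₀ y Δ φ z n i ω := by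
  have hA := P.gp.a_ge
  have ha : 0 < a := by linarith [hA.1]
  have hv : 0 < v := by linarith [hA.2.2.2]
  have hΔ := P.Δ0
  have he := P.gp.e0
  have hη : 0 < η := by linarith [P.gp.η0]
  have hε0 : 0 < ε₀ := by
    have := P.h1
    by_contra hc
    nlinarith [not_lt.1 hc]
  have hδ := P.gp.δ0
  have hz3 : z.im ∈ Icc (1 / 2 : ℝ) 2 := ⟨hz2.1, by linarith [hz2.2]⟩
  have hle : ∀ j : ℕ, j ≤ n → (j : ℝ) * Δ ≤ a / 3 := fun j hj =>
    (mul_le_mul_of_nonneg_right (by exact_mod_cast hj) hΔ.le).trans hn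
  induction hi using Nat.decreasingInduction generalizing ω with
  | self =>
    exfalso
    have h1 := inv_Y P hz hz3 hn H
    have h2 := glob_im P.gp hz hz3.2 ⟨by positivity, hn⟩ H.tube (by linarith)
    linarith [(abs_le.1 h2).1, hz2.2]
  | of_succ i hi ih =>
    have hs : 0 ≤ (i : ℝ) * Δ := by positivity
    have ht : ((i : ℝ) + 1) * Δ = i * Δ + Δ := by ring
    have hY := inv_Y P hz hz3 (hle i hi.le) H
    have hal : Alive ω z (i * Δ) := alive_iff.2 (by linarith)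
    have hXC : 0 ≤ X * Real.exp (-C) := by positivity
    by_cases hR : Ready (zig a v) ω z v η Δ i
    · refine le_trans (ENNReal.ofReal_le_ofReal ?_) (ready_step hκ hκ8 hμ ha hv hΔ hη hε0.le W S hLs hy hyη hi
        H.zero H.fin hY hR ((glob_W P.gp hz hz3.2 ⟨hs, hle i hi.le⟩ H.tube (by linarith)).trans hC))
      exact mul_le_of_le_one_right hXC (g_pot_le_one hp hη hY hηe)
    have hinc : ∀ (ω₁ : Path) (b : ℝ), b ≤ 2 * (ε₀ + ε₁) →
        (∀ u ∈ Icc (i * Δ) ((i + 1) * Δ), |dev (zig a v) ω₁ u - dev (zig a v) ω₁ (i * Δ)| ≤ b) →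
        ∀ u ∈ Icc (i * Δ) (i * Δ + Δ), |ω₁ u - ω₁ (i * Δ)| ≤ 3 * (ε₀ + ε₁) := fun ω₁ b hb h u hu => by
      have k1 := abs_le.1 (h u (by rwa [ht]))
      have k2 := abs_le.1 (zig_lip ha hv hs hu.1)
      have k3 : v * (u - i * Δ) ≤ v * Δ := mul_le_mul_of_nonneg_left (by linarith [hu.2]) hv.le
      have k4 := P.h5
      simp only [dev] at k1
      rw [abs_le]
      constructor <;> linarith [k1.1, k1.2, k2.1, k2.2]
    have hZ : ∀ ω', Zc (spl (i * Δ) ω ω') z (i * Δ) = Zc ω z (i * Δ) := fun ω' => by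
      rw [Zc, Zc, (agr_spl _ ω ω').gt, agr_spl _ ω ω' _ le_rfl]
    have hYc : ∀ ω', Yc (spl (i * Δ) ω ω') z (i * Δ) = Yc ω z (i * Δ) := fun ω' => by
      rw [Yc, Yc, (agr_spl _ ω ω').gt]
    rw [Val, W.prod_step hμ hΔ hi (measurable_nz' κ s₀ y z 0 (n * Δ)), EE]
    rcases le_total (6 * (ε₀ + ε₁)) ‖Zc ω z (i * Δ)‖ with hfar | hnear
    · have hm : Measurable fun ω' => ENNReal.ofReal (φ i (spl (i * Δ) ω ω')) :=
        ((W.lip i).continuous.comp (continuous_spl.comp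
          (continuous_const.prodMk (continuous_const.prodMk continuous_id)))).measurable.ennreal_ofReal
      have h1 := W.mean i ω H.fin
      rw [EE] at h1
      rw [← one_mul (ENNReal.ofReal (X * _ * _)), ← h1, ← lintegral_mul_const _ hm]
      refine lintegral_mono fun ω' => ?_
      by_cases h0 : φ i (spl (i * Δ) ω ω') = 0
      · simp [h0]
      obtain ⟨k1, k2⟩ := W.supp i _ h0
      have hag := agr_spl (i * Δ) ω ω'
      have k3 := far_step (hag.alive.2 hal) hΔ P.h6 (by rwa [hZ]) (hinc _ _ (by linarith) k1)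
      have H' := H.succ hΔ hR hag (fun u hu => by
        have k4 := abs_le.1 (k1 u hu)
        have k5 := abs_le.1 H.fin
        rw [g_dev_agr hs hag] at k4
        rw [abs_le]; constructor <;> linarith [k4.1, k4.2, k5.1, k5.2])
        (fun u hu => Or.inr (k3 u (by rwa [← ht]))) k2
      have hY' := inv_Y P hz hz3 (hle _ hi) H'
      refine mul_le_mul_right (le_trans (ENNReal.ofReal_le_ofReal ?_) (ih H')) _
      refine mul_le_mul_of_nonneg_left (g_pot_anti hp he (by linarith) ?_) hXC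
      rw [← hYc ω']
      exact Yc_anti hs (by rw [g_cast]; linarith)
    · obtain ⟨s, hsm, hsq, hs'⟩ := N i ω H.fin
      refine le_trans (le_of_eq ?_) (mul_le_lintegral hsm hsq
        (c := ENNReal.ofReal (X * Real.exp (-C) * (Pot p η (ε₀ + ε₁) (Yc ω z (i * Δ)) / q))) fun ω' hω' => ?_)
      · rw [← ENNReal.ofReal_mul' hq.le]
        congr 1
        field_simp
      obtain ⟨k1, k2⟩ := hs' ω' hω'
      have hag := agr_spl (i * Δ) ω ω'
      have k3 : ∀ u ∈ Icc (i * Δ) ((i + 1) * Δ),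
          |dev (zig a v) (spl (i * Δ) ω ω') u - dev (zig a v) (spl (i * Δ) ω ω') (i * Δ)| ≤ ε₁ / 2 := fun u hu => by
        have k4 := abs_le.1 (k1 u hu)
        have k5 := abs_le.1 H.fin
        rw [g_dev_agr hs hag, abs_le]
        constructor <;> linarith [k4.1, k4.2, k5.1, k5.2]
      have H' := H.succ hΔ hR hag (fun u hu => (k1 u hu).trans P.h4) (fun u hu => Or.inl (k1 u hu))
        (k2.trans (by linarith))
      have hY' := inv_Y P hz hz3 (hle _ hi) H'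
      have hY'' : 0 < Yc (spl (i * Δ) ω ω') z ((i + 1 : ℕ) * Δ) := by linarith
      have k4 := near_step hs (alive_iff.2 (by rwa [g_cast, ht] at hY'')) hΔ P.h6 (by rwa [hZ])
        (hinc _ _ (by linarith) k3)
      rw [← ht, ← g_cast, hYc] at k4
      refine le_trans ?_ (mul_le_mul' (ENNReal.one_le_ofReal.2 (W.one i _ k3 k2)) (ih H'))
      rw [one_mul]
      exact ENNReal.ofReal_le_ofReal (mul_le_mul_of_nonneg_left
        (g_pot_near hp he hq hY'' (Yc_le_norm.trans hnear) k4 hpq) hXC)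

end Crest.Agent.R162.Z
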