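import Crest.Agent.R162.Z.Zig
import Crest.Agent.R162.Z.Piece

/-! Row 162, block Z: the flow in the tube around the zigzag.  Statements frozen (helper84). -/

set_option autoImplicit false

open scoped ENNReal NNReal Topology
open Set Filter MeasureTheory Metric

noncomputable section
namespace Crest.Agent.R162.Z

/-- telescoping over the pieces: crude bound on the first and the last piece, sharp bound in between -/
theorem tele {f B : ℝ → ℝ} {s : ℕ → ℝ} {t₀ c₁ c₂ d : ℝ} (hs : Monotone s) (hc₁ : 0 ≤ c₁) (hc₂ : 0 ≤ c₂)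
    (h1 : ∀ k t, s k ≤ t → t ≤ s (k + 1) → t ≤ t₀ → |f t - f (s k)| ≤ c₁ + (B t - B (s k)))
    (h2 : ∀ k, s (k + 2) ≤ t₀ → |f (s (k + 2)) - f (s (k + 1)) - d| ≤ c₂ + (B (s (k + 2)) - B (s (k + 1))))
    (k : ℕ) {t : ℝ} (ht1 : s k ≤ t) (ht2 : t ≤ s (k + 1)) (ht : t ≤ t₀) :
    |f t - f (s 0) - k * d| ≤ 2 * c₁ + |d| + k * c₂ + (B t - B (s 0)) := by
  have key : ∀ j : ℕ, s j ≤ t₀ → |f (s j) - f (s 0) - j * d| ≤ c₁ + |d| + j * c₂ + (B (s j) - B (s 0)) := by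
    intro j
    induction j with
    | zero => intro _; simp; positivity
    | succ j ih =>
      intro hj
      rcases j with _ | j
      · have a := abs_le.1 (h1 0 (s 1) (hs zero_le_one) le_rfl hj)
        have b := le_abs_self d
        have c := neg_abs_le d
        simp only [zero_add, Nat.cast_one, one_mul] at a ⊢
        rw [abs_le]; constructor <;> linarith
      · have a := abs_le.1 (ih ((hs (Nat.le_succ _)).trans hj))
        have b := abs_le.1 (h2 j hj)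
        push_cast at a b ⊢
        rw [abs_le]; constructor <;> linarith
  have a := abs_le.1 (key k (ht1.trans ht))
  have b := abs_le.1 (h1 k t ht1 ht2 ht)
  rw [abs_le]; constructor <;> linarith

/-- continuity argument -/
theorem boot {f : ℝ → ℝ} {T b c : ℝ} (hf : ContinuousOn f (Icc 0 T)) (hbc : b < c) (h0 : f 0 ≤ c)
    (h : ∀ t ∈ Icc 0 T, (∀ u ∈ Icc 0 t, f u ≤ c) → f t ≤ b) : ∀ t ∈ Icc 0 T, f t ≤ b := by
  have hcl : IsClosed ({u | f u ≤ c} ∩ Icc 0 T) := by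
    rw [inter_comm]; exact hf.preimage_isClosed_of_isClosed isClosed_Icc isClosed_Iic
  have key : Icc 0 T ⊆ {u | f u ≤ c} := hcl.Icc_subset_of_forall_mem_nhdsGT_of_Icc_subset h0 fun t ht hsub => by
    have h1 : f t < c := (h t ⟨ht.1, ht.2.le⟩ hsub).trans_lt hbc
    have h2 : ∀ᶠ u in 𝓝[Icc 0 T] t, f u < c := (hf t ⟨ht.1, ht.2.le⟩).eventually_lt_const h1
    have h3 : 𝓝[>] t ≤ 𝓝[Icc 0 T] t := nhdsWithin_le_of_mem (Icc_mem_nhdsGT_of_mem ht)
    exact (h2.filter_mono h3).mono fun u hu => hu.le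
  exact fun t ht => h t ht fun u hu => key ⟨hu.1, hu.2.trans ht.2⟩

/-- `sin (arg w) = Im w / ‖w‖`, `Real.mul_le_sin` -/
theorem arg_small {w : ℂ} {b y : ℝ} (hb : 0 < b) (h0 : 0 ≤ w.im) (hy : w.im ≤ y) :
    (b ≤ w.re → w.arg ≤ Real.pi / 2 * (y / b)) ∧ (w.re ≤ -b → Real.pi - Real.pi / 2 * (y / b) ≤ w.arg) := by
  have hp := Real.pi_pos
  have ha0 : 0 ≤ w.arg := Complex.arg_nonneg_iff.2 h0
  have ha1 := Complex.arg_le_pi w
  have key : ∀ x, 0 ≤ x → x ≤ Real.pi / 2 → b ≤ |w.re| → Real.sin x = Real.sin w.arg → x ≤ Real.pi / 2 * (y / b) := by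
    intro x hx hx' hw hsin
    have h1 := Real.mul_le_sin hx hx'
    rw [hsin, Complex.sin_arg] at h1
    have h2 : w.im / ‖w‖ ≤ y / b := div_le_div₀ (h0.trans hy) hy hb (hw.trans (Complex.abs_re_le_norm w))
    calc x = Real.pi / 2 * (2 / Real.pi * x) := by field_simp
      _ ≤ _ := by gcongr; exact h1.trans h2
  refine ⟨fun h => key _ ha0 (Complex.arg_le_pi_div_two_iff.2 (Or.inl (hb.le.trans h))) (h.trans (le_abs_self _)) rfl,
    fun h => ?_⟩
  have h1 : ¬w.arg ≤ Real.pi / 2 := fun h' => by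
    rcases Complex.arg_le_pi_div_two_iff.1 h' with h'' | h'' <;> linarith
  have := key (Real.pi - w.arg) (by linarith) (by linarith [not_le.1 h1]) (by linarith [neg_le_abs w.re])
    (Real.sin_pi_sub _)
  linarith

variable {A δ a v e η t : ℝ} {ω : Path} {z : ℂ}

theorem GP.a_ge (P : GP A δ a v e η) : 2000 ≤ a ∧ 2 * A + 2000 ≤ a ∧ 1000 / δ ≤ a ∧ 6000 ≤ v := by
  have h1 : 2000 ≤ 1000 / δ := by
    rw [le_div_iff₀ P.δ0]; linarith [P.δ1]
  refine ⟨?_, ?_, ?_, ?_⟩ <;> linarith [P.ha, P.A1, P.hv]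

/-- the number of pieces before time `a / 3` -/
theorem GP.piece (P : GP A δ a v e η) (ht : t ∈ Icc 0 (a / 3)) :
    ∃ k : ℕ, tp a v k ≤ t ∧ t ≤ tp a v (k + 1) ∧ |k - v * t / (2 * a)| ≤ 1 / 2 ∧ k ≤ v / 4 := by
  obtain ⟨h1, -, -, h4⟩ := P.a_ge
  have ha : 0 < a := by linarith
  have hv : 0 < v := by linarith
  obtain ⟨k, k1, k2, k3⟩ := exists_piece ha hv ht.1
  refine ⟨k, k1, k2, k3, ?_⟩
  have : v * t / (2 * a) ≤ v / 6 := by
    rw [div_le_iff₀ (by positivity)]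
    nlinarith [mul_le_mul_of_nonneg_left ht.2 hv.le]
  linarith [(abs_le.1 k3).2]

/-- the compensator of P1 -/
theorem GP.comp (P : GP A δ a v e η) (hz2 : z.im ≤ 2) (ht : 0 ≤ t) (hY : η ≤ Yc ω z t) :
    (6 * e + 6 / v) * (Real.log (Yc ω z 0) - Real.log (Yc ω z t)) ≤ δ / 100 := by
  have hal : Alive ω z t := alive_iff.2 (P.η0.trans_le hY)
  have hv : 0 < v := by linarith [P.a_ge.2.2.2]
  have h0 : Yc ω z 0 = z.im := Lx.yc_zero hal.mem
  have h1 : Real.log (Yc ω z 0) ≤ Real.log 2 := Real.log_le_log (by rw [h0]; exact hal.mem) (by rwa [h0])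
  have h2 : Real.log η ≤ Real.log (Yc ω z t) := Real.log_le_log P.η0 hY
  have h3 := P.s1
  rw [Real.log_div two_ne_zero P.η0.ne'] at h3
  have h4 : 0 ≤ 6 * e + 6 / v := by have := P.e0; positivity
  exact (mul_le_mul_of_nonneg_left (by linarith) h4).trans h3

theorem GP.pos (P : GP A δ a v e η) : 0 < a ∧ 0 < v := ⟨by linarith [P.a_ge.1], by linarith [P.a_ge.2.2.2]⟩

/-- `piece_log` on an initial part of the `k`-th piece -/
theorem GP.step (P : GP A δ a v e η) (htube : ∀ u ∈ Icc 0 t, |ω u - zig a v u| ≤ e) (hal : Alive ω z t) (k : ℕ) {r : ℝ}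
    (h1 : tp a v k ≤ r) (h2 : r ≤ tp a v (k + 1)) (h3 : r ≤ t) :
    ‖(gt ω z r + 2 * (((-1) ^ k : ℝ) : ℂ) / v * Complex.log (Zh (zig a v) e ω z r)) - (gt ω z (tp a v k) +
        2 * (((-1) ^ k : ℝ) : ℂ) / v * Complex.log (Zh (zig a v) e ω z (tp a v k)))‖ ≤
      (6 * e + 6 / v) * (Real.log (Yc ω z (tp a v k)) - Real.log (Yc ω z r)) :=
  piece_log P.pos.2 P.e0 (tp_nonneg k) h1 ((zig_aff P.pos.1 P.pos.2 k).mono le_rfl h2)
    (hal.mono ((tp_nonneg k).trans h1) h3) fun u hu => htube u ⟨(tp_nonneg k).trans hu.1, hu.2.trans h3⟩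

theorem GP.im_le (P : GP A δ a v e η) (hz2 : z.im ≤ 2) (hal : Alive ω z t) : Yc ω z t + e ≤ 3 := by
  have h1 : Yc ω z t ≤ Yc ω z 0 := Yc_anti le_rfl hal.1
  rw [Lx.yc_zero hal.mem] at h1
  linarith [P.e1]

theorem GP.norm_le (P : GP A δ a v e η) (hz2 : z.im ≤ 2) (hal : Alive ω z t) (hre : |(gt ω z t).re| ≤ a / 2) :
    ‖Zh (zig a v) e ω z t‖ ≤ 2 * a := by
  have h1 := Complex.norm_le_abs_re_add_abs_im (Zh (zig a v) e ω z t)
  have h2 := P.im_le hz2 hal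
  have h3 : 0 ≤ Yc ω z t := Yc_nonneg
  have h4 := abs_sub (gt ω z t).re (zig a v t)
  rw [Zh_re, Zh_im, abs_of_nonneg (a := Yc ω z t + e) (by linarith [P.e0])] at h1
  linarith [abs_zig_le (v := v) P.pos.1 t, P.a_ge.1]

theorem GP.le_norm (P : GP A δ a v e η) (k : ℕ) (hre : |(gt ω z (tp a v (k + 1))).re| ≤ a / 2) :
    a / 2 ≤ ‖Zh (zig a v) e ω z (tp a v (k + 1))‖ := by
  have h1 := Complex.abs_re_le_norm (Zh (zig a v) e ω z (tp a v (k + 1)))
  have h2 := abs_sub_abs_le_abs_sub (zig a v (tp a v (k + 1))) (gt ω z (tp a v (k + 1))).re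
  rw [Zh_re, abs_sub_comm] at h1
  have h3 : |zig a v (tp a v (k + 1))| = a := by
    rw [zig_tp P.pos.1 P.pos.2, abs_mul, abs_pow, abs_neg, abs_one, one_pow, one_mul, abs_of_pos P.pos.1]
  linarith

theorem abs_log_sub_le {x y l u : ℝ} (hl : 0 < l) (hx : l ≤ x) (hx' : x ≤ u) (hy : l ≤ y) (hy' : y ≤ u) :
    |Real.log x - Real.log y| ≤ Real.log (u / l) := by
  rw [Real.log_div (hl.trans_le (hx.trans hx')).ne' hl.ne', abs_le]
  constructor <;> linarith [Real.log_le_log hl hx, Real.log_le_log hl hy, Real.log_le_log (hl.trans_le hx) hx',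
    Real.log_le_log (hl.trans_le hy) hy']

/-- `|x + (2σ/v) y| ≤ B` and `|y| ≤ c` -/
theorem abs_le_of_sgn {x y B c : ℝ} (k : ℕ) (hv : 0 < v) (h : |x + 2 * (-1) ^ k / v * y| ≤ B) (hy : |y| ≤ c) :
    |x| ≤ 2 / v * c + B := by
  have h1 : |2 * (-1) ^ k / v * y| ≤ 2 / v * c := by
    rw [abs_mul, abs_div, abs_mul, abs_pow, abs_neg, abs_one, one_pow, mul_one, abs_two, abs_of_pos hv]
    gcongr
  have := abs_sub (x + 2 * (-1) ^ k / v * y) (2 * (-1) ^ k / v * y)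
  rw [add_sub_cancel_right] at this
  linarith

theorem re_aux {g g' L L' : ℂ} {c : ℝ} :
    ((g + 2 * (c : ℂ) / v * L) - (g' + 2 * (c : ℂ) / v * L')).re = (g.re - g'.re) + 2 * c / v * (L.re - L'.re) ∧
    ((g + 2 * (c : ℂ) / v * L) - (g' + 2 * (c : ℂ) / v * L')).im = (g.im - g'.im) + 2 * c / v * (L.im - L'.im) := by
  have : 2 * (c : ℂ) / v = ((2 * c / v : ℝ) : ℂ) := by push_cast; ring
  rw [this]
  simp only [Complex.sub_re, Complex.add_re, Complex.re_ofReal_mul, Complex.sub_im, Complex.add_im, Complex.im_ofReal_mul]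
  constructor <;> ring

/-- G1.  `boot` for `|Re g|` with `b = A + 2 < c = a / 2`; `tele` for `f = Re g`, `B = -(6 e + 6/v) log Y`, `d = 0`,
`c₁ = (2/v) log (2 a / e)` (`e ≤ |Zh| ≤ 2 a`), `c₂ = 3 / v` (`a / 2 ≤ |Zh| ≤ 2 a` at turning times, `zig_tp`, `log 4 ≤ 3/2`);
real part of `piece_log` (`Complex.log_re`) -/
theorem glob_re (P : GP A δ a v e η) (hz : |z.re| ≤ A) (hz2 : z.im ≤ 2) (ht : t ∈ Icc 0 (a / 3))
    (htube : ∀ u ∈ Icc 0 t, |ω u - zig a v u| ≤ e) (hY : η ≤ Yc ω z t) :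
    ∀ u ∈ Icc 0 t, |(gt ω z u).re| ≤ a / 2 := by
  have hal : Alive ω z t := alive_iff.2 (P.η0.trans_le hY)
  obtain ⟨ha, hv⟩ := P.pos
  obtain ⟨a1, a2, -, a4⟩ := P.a_ge
  have he := P.e0
  have key := boot (f := fun u => |(gt ω z u).re|) (T := t) (b := A + 2) (c := a / 2)
    ((Complex.continuous_re.comp_continuousOn hal.sol.cont).abs) (by linarith)
    (by simp only [gt_zero hal.mem]; linarith) (fun r hr H => ?_)
  · exact fun u hu => (key u hu).trans (by linarith)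
  obtain ⟨k, k1, k2, -, k4⟩ := P.piece (t := r) ⟨hr.1, hr.2.trans ht.2⟩
  have hN : ∀ u, 0 ≤ u → u ≤ r → ‖Zh (zig a v) e ω z u‖ ≤ 2 * a := fun u h0 h1 =>
    P.norm_le hz2 (hal.mono h0 (h1.trans hr.2)) (H u ⟨h0, h1⟩)
  have step : ∀ j u, tp a v j ≤ u → u ≤ tp a v (j + 1) → u ≤ r →
      |((gt ω z u).re - (gt ω z (tp a v j)).re) + 2 * (-1) ^ j / v *
        (Real.log ‖Zh (zig a v) e ω z u‖ - Real.log ‖Zh (zig a v) e ω z (tp a v j)‖)| ≤
      -(6 * e + 6 / v) * Real.log (Yc ω z u) - -(6 * e + 6 / v) * Real.log (Yc ω z (tp a v j)) := by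
    intro j u h1 h2 h3
    have := (Complex.abs_re_le_norm _).trans (P.step htube hal j h1 h2 (h3.trans hr.2))
    rw [re_aux.1, Complex.log_re, Complex.log_re] at this
    linarith
  have T := tele (f := fun u => (gt ω z u).re) (B := fun u => -(6 * e + 6 / v) * Real.log (Yc ω z u))
    (s := tp a v) (t₀ := r) (c₁ := 2 / v * Real.log (2 * a / e)) (c₂ := 2 / v * (3 / 2)) (d := 0) (tp_mono ha hv)
    (mul_nonneg (by positivity) (Real.log_nonneg (by rw [le_div_iff₀ he]; linarith [P.e1]))) (by positivity)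
    (fun j u h1 h2 h3 => abs_le_of_sgn j hv (step j u h1 h2 h3) (abs_log_sub_le he (le_norm_Zh he.le)
      (hN u ((tp_nonneg j).trans h1) h3) (le_norm_Zh he.le) (hN _ (tp_nonneg j) (h1.trans h3))))
    (fun j hj => ?_) k k1 k2 le_rfl
  · have C := P.comp hz2 hr.1 (hY.trans (Yc_anti hr.1 hr.2))
    simp only [tp_zero ha hv, gt_zero hal.mem, mul_zero, sub_zero, abs_zero, add_zero] at T
    have h1 : (k : ℝ) * (2 / v * (3 / 2)) ≤ 3 / 4 := by
      calc _ ≤ v / 4 * (2 / v * (3 / 2)) := by gcongr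
        _ = _ := by field_simp
    have h2 := P.s2
    have h3 : 2 * (2 / v * Real.log (2 * a / e)) = 4 / v * Real.log (2 * a / e) := by ring
    have h4 := abs_sub_abs_le_abs_sub (gt ω z r).re z.re
    show |(gt ω z r).re| ≤ A + 2
    linarith [P.δ1]
  have hj' : tp a v (j + 1) ≤ tp a v (j + 2) := tp_mono ha hv (Nat.le_succ _)
  rw [sub_zero]
  refine abs_le_of_sgn (j + 1) hv (step (j + 1) _ hj' le_rfl hj) ((abs_log_sub_le (half_pos ha)
    (P.le_norm (j + 1) (H _ ⟨tp_nonneg _, hj⟩)) (hN _ (tp_nonneg _) hj)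
    (P.le_norm j (H _ ⟨tp_nonneg _, hj'.trans hj⟩)) (hN _ (tp_nonneg _) (hj'.trans hj))).trans ?_)
  have : 2 * a / (a / 2) = 2 ^ 2 := by field_simp
  rw [this, Real.log_pow]
  have := Real.log_two_lt_d9
  push_cast; linarith

/-- G2.  `tele` for `f = Y`, `d = -2π/v`, `c₁ = 2π/v`, `c₂ = 40 / (a v)` (`arg_small` with `b = a/2`, `y = 3` at the turning
times); imaginary part of `piece_log` (`Complex.log_im`) -/
theorem glob_im (P : GP A δ a v e η) (hz : |z.re| ≤ A) (hz2 : z.im ≤ 2) (ht : t ∈ Icc 0 (a / 3))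
    (htube : ∀ u ∈ Icc 0 t, |ω u - zig a v u| ≤ e) (hY : η ≤ Yc ω z t) :
    |z.im - Yc ω z t - Real.pi * t / a| ≤ δ / 32 := by
  have hal : Alive ω z t := alive_iff.2 (P.η0.trans_le hY)
  obtain ⟨ha, hv⟩ := P.pos
  obtain ⟨a1, a2, a3, a4⟩ := P.a_ge
  have he := P.e0
  have hp := Real.pi_pos
  have hp' := Real.pi_lt_d2
  have H := glob_re P hz hz2 ht htube hY
  obtain ⟨k, k1, k2, k3, k4⟩ := P.piece ht
  have him : ∀ u, 0 ≤ (Zh (zig a v) e ω z u).im := fun u => by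
    have h3 : 0 ≤ Yc ω z u := Yc_nonneg
    rw [Zh_im]; positivity
  have p0 : ∀ u, 0 ≤ (Zh (zig a v) e ω z u).arg := fun u => Complex.arg_nonneg_iff.2 (him u)
  have p1 : ∀ u, (Zh (zig a v) e ω z u).arg ≤ Real.pi := fun u => Complex.arg_le_pi _
  have step : ∀ j u, tp a v j ≤ u → u ≤ tp a v (j + 1) → u ≤ t →
      |(Yc ω z u - Yc ω z (tp a v j)) + 2 * (-1) ^ j / v *
        ((Zh (zig a v) e ω z u).arg - (Zh (zig a v) e ω z (tp a v j)).arg)| ≤
      -(6 * e + 6 / v) * Real.log (Yc ω z u) - -(6 * e + 6 / v) * Real.log (Yc ω z (tp a v j)) := by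
    intro j u h1 h2 h3
    have := (Complex.abs_im_le_norm _).trans (P.step htube hal j h1 h2 h3)
    rw [re_aux.2, Complex.log_im, Complex.log_im] at this
    simp only [Yc] at this ⊢
    linarith
  have T := tele (f := Yc ω z) (B := fun u => -(6 * e + 6 / v) * Real.log (Yc ω z u))
    (s := tp a v) (t₀ := t) (c₁ := 2 / v * Real.pi) (c₂ := 2 / v * (20 / a)) (d := -(2 / v * Real.pi)) (tp_mono ha hv)
    (by positivity) (by positivity)
    (fun j u h1 h2 h3 => abs_le_of_sgn j hv (step j u h1 h2 h3)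
      (abs_le.2 ⟨by linarith [p0 u, p1 (tp a v j)], by linarith [p1 u, p0 (tp a v j)]⟩))
    (fun j hj => ?_) k k1 k2 le_rfl
  · have C := P.comp hz2 ht.1 hY
    simp only [tp_zero ha hv, Lx.yc_zero hal.mem] at T C
    rw [abs_neg, abs_of_pos (a := 2 / v * Real.pi) (by positivity)] at T
    have h1 : (k : ℝ) * (2 / v * (20 / a)) ≤ 10 / a := by
      calc _ ≤ v / 4 * (2 / v * (20 / a)) := by gcongr
        _ = _ := by field_simp; norm_num
    have h2 : |k * (2 / v * Real.pi) - Real.pi * t / a| ≤ 1 / 2 * (2 / v * Real.pi) := by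
      have : k * (2 / v * Real.pi) - Real.pi * t / a = (k - v * t / (2 * a)) * (2 / v * Real.pi) := by field_simp
      rw [this, abs_mul, abs_of_pos (a := 2 / v * Real.pi) (by positivity)]
      gcongr
    have h3 : 2 / v * Real.pi ≤ 2.1 / a := by
      calc _ ≤ 2 / (3 * a) * 3.15 := by gcongr; exact P.hv
        _ = _ := by field_simp; norm_num
    have h4 : 1 / a ≤ δ / 1000 := by
      rw [div_le_iff₀ P.δ0] at a3
      rw [div_le_div_iff₀ ha (by norm_num)]; linarith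
    have h5 : 2.1 / a = 2.1 * (1 / a) := by ring
    have h6 : 10 / a = 10 * (1 / a) := by ring
    have T' := abs_le.1 T
    have h2' := abs_le.1 h2
    rw [abs_le]; constructor <;> linarith [P.δ0]
  have hj' : tp a v (j + 1) ≤ tp a v (j + 2) := tp_mono ha hv (Nat.le_succ _)
  have S := step (j + 1) _ hj' le_rfl hj
  have b1 := abs_le.1 (H _ ⟨tp_nonneg (j + 1), hj'.trans hj⟩)
  have b2 := abs_le.1 (H _ ⟨tp_nonneg (j + 2), hj⟩)
  have s1 := arg_small (half_pos ha) (him (tp a v (j + 1)))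
    (Zh_im.trans_le (P.im_le hz2 (hal.mono (tp_nonneg _) (hj'.trans hj))))
  have s2 := arg_small (half_pos ha) (him (tp a v (j + 2))) (Zh_im.trans_le (P.im_le hz2 (hal.mono (tp_nonneg _) hj)))
  rw [Zh_re, zig_tp ha hv] at s1 s2
  have h1 : Real.pi / 2 * (3 / (a / 2)) ≤ 10 / a := by
    calc _ ≤ 3.15 / 2 * (3 / (a / 2)) := by gcongr
      _ = 9.45 / a := by field_simp; norm_num
      _ ≤ _ := by gcongr; norm_num
  have h2 : |(-1) ^ (j + 1) * ((Zh (zig a v) e ω z (tp a v (j + 2))).arg - (Zh (zig a v) e ω z (tp a v (j + 1))).arg) -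
      Real.pi| ≤ 20 / a := by
    have h3 : 20 / a = 2 * (10 / a) := by ring
    have h4 : 0 < 10 / a := by positivity
    have q1 := p0 (tp a v (j + 1))
    have q2 := p0 (tp a v (j + 2))
    have q3 := p1 (tp a v (j + 1))
    have q4 := p1 (tp a v (j + 2))
    rw [pow_succ] at s2 ⊢
    rcases neg_one_pow_eq_or ℝ j with hh | hh <;> rw [hh] at s1 s2 ⊢
    · have := s1.2 (by linarith)
      have := s2.1 (by linarith)
      rw [abs_le]; constructor <;> linarith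
    · have := s1.1 (by linarith)
      have := s2.2 (by linarith)
      rw [abs_le]; constructor <;> linarith
  refine abs_le_of_sgn 0 hv (le_of_eq_of_le ?_ S) h2
  congr 1; ring

/-- G3.  `tele` for `f = Wl`, `B = (24 e + 18/v) / Y`, `d = 0`, `c₁ = 4 / (e v)`, `c₂ = 8 / (a v)`; `piece_W`; `Wl 0 = 0` -/
theorem glob_W (P : GP A δ a v e η) (hz : |z.re| ≤ A) (hz2 : z.im ≤ 2) (ht : t ∈ Icc 0 (a / 3))
    (htube : ∀ u ∈ Icc 0 t, |ω u - zig a v u| ≤ e) (hY : η ≤ Yc ω z t) : |Wl ω z t| ≤ Cw v e η := by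
  have hal : Alive ω z t := alive_iff.2 (P.η0.trans_le hY)
  obtain ⟨ha, hv⟩ := P.pos
  obtain ⟨a1, a2, a3, a4⟩ := P.a_ge
  have he := P.e0
  have H := glob_re P hz hz2 ht htube hY
  obtain ⟨k, k1, k2, -, k4⟩ := P.piece ht
  have step : ∀ j u, tp a v j ≤ u → u ≤ tp a v (j + 1) → u ≤ t →
      |(Wl ω z u - Wl ω z (tp a v j)) + 2 * (-1) ^ j / v *
        ((Zh (zig a v) e ω z (tp a v j))⁻¹.re - (Zh (zig a v) e ω z u)⁻¹.re)| ≤
      (24 * e + 18 / v) * (1 / Yc ω z u) - (24 * e + 18 / v) * (1 / Yc ω z (tp a v j)) := by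
    intro j u h1 h2 h3
    have := piece_W hv he (tp_nonneg j) h1 ((zig_aff ha hv j).mono le_rfl h2)
      (hal.mono ((tp_nonneg j).trans h1) h3) fun r hr => htube r ⟨(tp_nonneg j).trans hr.1, hr.2.trans h3⟩
    refine le_of_eq_of_le ?_ (this.trans (le_of_eq (by ring)))
    congr 1; ring
  have inv : ∀ {c : ℝ} {w w' : ℂ}, 0 < c → c ≤ ‖w‖ → c ≤ ‖w'‖ → |w⁻¹.re - w'⁻¹.re| ≤ 2 / c := by
    intro c w w' hc h1 h2
    have h3 := (Complex.abs_re_le_norm w⁻¹).trans (norm_inv w).le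
    have h4 := (Complex.abs_re_le_norm w'⁻¹).trans (norm_inv w').le
    have h5 := inv_anti₀ hc h1
    have h6 := inv_anti₀ hc h2
    have h7 := abs_sub w⁻¹.re w'⁻¹.re
    rw [div_eq_mul_inv]; linarith
  have T := tele (f := Wl ω z) (B := fun u => (24 * e + 18 / v) * (1 / Yc ω z u))
    (s := tp a v) (t₀ := t) (c₁ := 2 / v * (2 / e)) (c₂ := 2 / v * (2 / (a / 2))) (d := 0) (tp_mono ha hv)
    (by positivity) (by positivity)
    (fun j u h1 h2 h3 => abs_le_of_sgn j hv (step j u h1 h2 h3) (inv he (le_norm_Zh he.le) (le_norm_Zh he.le)))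
    (fun j hj => ?_) k k1 k2 le_rfl
  · have h0 : Wl ω z 0 = 0 := by rw [Wl, Up_zero hal.mem, Lx.yc_zero hal.mem, sub_self]
    simp only [tp_zero ha hv, h0, mul_zero, sub_zero, abs_zero, add_zero] at T
    have h1 : (k : ℝ) * (2 / v * (2 / (a / 2))) ≤ 1 := by
      calc _ ≤ v / 4 * (2 / v * (2 / (2000 / 2))) := by gcongr
        _ ≤ _ := by field_simp; norm_num
    have h2 : 2 * (2 / v * (2 / e)) = 8 / (e * v) := by field_simp; norm_num
    have h3 : (24 * e + 18 / v) * (1 / Yc ω z t) ≤ (24 * e + 18 / v) / η := by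
      rw [mul_one_div]; gcongr; exact P.η0
    have h4 : 0 ≤ (24 * e + 18 / v) * (1 / Yc ω z 0) := by
      have : 0 ≤ Yc ω z 0 := Yc_nonneg
      positivity
    rw [Cw]; linarith
  have hj' : tp a v (j + 1) ≤ tp a v (j + 2) := tp_mono ha hv (Nat.le_succ _)
  rw [sub_zero]
  exact abs_le_of_sgn (j + 1) hv (step (j + 1) _ hj' le_rfl hj) (inv (half_pos ha)
    (P.le_norm j (H _ ⟨tp_nonneg _, hj'.trans hj⟩)) (P.le_norm (j + 1) (H _ ⟨tp_nonneg _, hj⟩)))

/-- Z2, deterministic part: `boot` for `-Y` (`continuousOn_Yc`) with `glob_im` gives `δ/16 ≤ Y`; `Υ = Y exp Wl`;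
`|Z| ≤ 2 a`; `Υ ≤ Im z ≤ 2` (`Up_anti`, `Up_zero`) -/
theorem surv_det {κ : ℝ} (hκ : 0 < κ) (hκ8 : κ < 8) (P : GP A δ a v e η) (hη : η ≤ δ / 32) (hz : |z.re| ≤ A)
    (hz2 : z.im ∈ Icc (1 - δ / 32) 2) (ht : 0 ≤ t) (ht' : Real.pi * t / a ≤ 1 - δ / 8)
    (htube : ∀ u ∈ Icc 0 t, |ω u - zig a v u| ≤ e) :
    δ / 16 * Real.exp (-Cw v e η) ≤ Up ω z t ∧ 1 / 2 * (δ / (32 * a)) ^ aa κ ≤ Gr κ ω z t := by
  obtain ⟨ha, hv⟩ := P.pos
  obtain ⟨a1, a2, a3, a4⟩ := P.a_ge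
  have hδ := P.δ0
  have hδ1 := P.δ1
  have hp := Real.pi_gt_three
  have hzH : z ∈ HH := by show 0 < z.im; linarith [hz2.1]
  have hta : t ≤ a / 3 := by
    have : Real.pi * t / a ≤ 1 := by linarith
    rw [div_le_one ha] at this
    nlinarith
  have key := boot (f := fun u => -Yc ω z u) (T := t) (b := -(δ / 16)) (c := -(δ / 32))
    ((Lx.contOn_Yc'.mono Icc_subset_Ici_self).neg) (by linarith)
    (by simp only [Lx.yc_zero hzH]; linarith [hz2.1]) (fun r hr H => ?_) t ⟨ht, le_rfl⟩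
  swap
  · have h1 := glob_im P hz hz2.2 ⟨hr.1, hr.2.trans hta⟩ (fun u hu => htube u ⟨hu.1, hu.2.trans hr.2⟩)
      (hη.trans (neg_le_neg_iff.1 (H r ⟨hr.1, le_rfl⟩)))
    have h2 : Real.pi * r / a ≤ Real.pi * t / a := by gcongr; exact hr.2
    show -Yc ω z r ≤ -(δ / 16)
    linarith [(abs_le.1 h1).2, hz2.1]
  have hY : δ / 16 ≤ Yc ω z t := neg_le_neg_iff.1 key
  have hY' : η ≤ Yc ω z t := by linarith
  have hY0 : 0 < Yc ω z t := by linarith
  have hal : Alive ω z t := alive_iff.2 hY0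
  have hW := (abs_le.1 (glob_W P hz hz2.2 ⟨ht, hta⟩ htube hY')).1
  have hU : Up ω z t = Yc ω z t * Real.exp (Wl ω z t) := by
    rw [Wl, Real.exp_sub, Real.exp_log hal.up_pos, Real.exp_log hY0]; field_simp
  refine ⟨by rw [hU]; gcongr, ?_⟩
  have hre := glob_re P hz hz2.2 ⟨ht, hta⟩ htube hY' t ⟨ht, le_rfl⟩
  have hZ : ‖Zc ω z t‖ ≤ 2 * a := by
    have h1 := Complex.norm_le_abs_re_add_abs_im (Zc ω z t)
    have h2 : (Zc ω z t).re = (gt ω z t).re - ω t := by simp [Zc]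
    have h3 := abs_sub (gt ω z t).re (ω t)
    have h4 := abs_sub_abs_le_abs_sub (ω t) (zig a v t)
    rw [h2, Lx.zc_im, abs_of_pos hY0] at h1
    linarith [abs_zig_le (v := v) ha t, P.im_le hz2.2 hal, htube t ⟨ht, le_rfl⟩]
  have hS : δ / (32 * a) ≤ Sc ω z t := by
    calc _ = δ / 16 / (2 * a) := by field_simp; norm_num
      _ ≤ _ := div_le_div₀ hY0.le hY (Lx.norm_pos hal) hZ
  have hU2 : Up ω z t ≤ 2 := (Up_anti le_rfl ht).trans ((Up_zero hzH).trans_le hz2.2)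
  have hb0 : 0 ≤ bb κ := by rw [bb]; linarith
  have hb1 : bb κ ≤ 1 := by rw [bb]; linarith
  have ha0 : 0 ≤ aa κ := by
    rw [aa, sub_nonneg, le_div_iff₀ hκ]; linarith
  have h1 : (1 / 2 : ℝ) ≤ Up ω z t ^ (-bb κ) := by
    calc (1 / 2 : ℝ) = 2 ^ (-1 : ℝ) := by rw [Real.rpow_neg_one]; norm_num
      _ ≤ 2 ^ (-bb κ) := Real.rpow_le_rpow_of_exponent_le one_le_two (by linarith)
      _ ≤ _ := Real.rpow_le_rpow_of_nonpos hal.up_pos hU2 (by linarith)
  exact mul_le_mul h1 (Real.rpow_le_rpow (by positivity) hS ha0) (by positivity) (by linarith)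

end Crest.Agent.R162.Z
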