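import Crest.Agent.R162.Z.Defs

/-! Row 162, block Z: bounded Lipschitz functionals.  Statements frozen (helper84). -/

set_option autoImplicit false

open scoped ENNReal NNReal Topology
open Set Filter MeasureTheory Metric

noncomputable section
namespace Crest.Agent.R162.Z

variable {T T' L L' M M' β : ℝ} {f g : Path → ℝ} {ω ω' : Path}

theorem Cl.symm (h : Cl T β ω ω') : Cl T β ω' ω := by
  exact fun t ht => (abs_sub_comm _ _).trans_le (h t ht)

theorem Cl.nonneg (hT : 0 ≤ T) (h : Cl T β ω ω') : 0 ≤ β := by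
  exact (abs_nonneg _).trans (h 0 ⟨le_rfl, hT⟩)

theorem Cl.mono (h : Cl T β ω ω') (hT : T' ≤ T) : Cl T' β ω ω' := by
  exact fun t ht => h t ⟨ht.1, ht.2.trans hT⟩

theorem cl_of_agr (h : Agr T ω ω') : Cl T 0 ω ω' := by
  intro t ht
  rw [h t ht.2, h 0 (ht.1.trans ht.2), sub_self, abs_zero]

theorem cl_osc (ω ω' : Path) : Cl T (osc T (ω - ω')) ω ω' := by
  intro t ht
  refine le_of_eq_of_le ?_ (abs_le_osc (ω - ω') ht)
  congr 1
  simp only [ContinuousMap.sub_apply]; ring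

/-- splicing the same future at a time `0 ≤ s ≤ T` -/
theorem Cl.spl {s : ℝ} (h : Cl s β ω ω') (hs : 0 ≤ s) (T : ℝ) (ω'' : Path) :
    Cl T β (spl s ω ω'') (spl s ω' ω'') := by
  intro t ht
  refine le_of_eq_of_le ?_ (h (min t s) ⟨le_min ht.1 hs, min_le_right _ _⟩)
  congr 1
  simp only [R162.spl, ContinuousMap.coe_mk, min_eq_left hs]; ring

theorem Cl.osc_le (hT : 0 ≤ T) (h : Cl T β ω ω') : osc T ω ≤ osc T ω' + β := by
  refine R162.osc_le (add_nonneg (osc_nonneg _ _) (h.nonneg hT)) fun t ht => ?_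
  have := abs_sub_abs_le_abs_sub (ω t - ω 0) (ω' t - ω' 0)
  linarith [h t ht, abs_le_osc ω' ht]

theorem LipB.mono (h : LipB T L M f) (hT0 : 0 ≤ T') (hT : T ≤ T') (hL : L ≤ L') (hM : M ≤ M') : LipB T' L' M' f := by
  exact ⟨h.nonneg, fun ω => (h.le ω).trans hM, fun ω ω' β hc => (h.lip ω ω' β (hc.mono hT)).trans
    (by gcongr; exact hc.nonneg hT0)⟩

theorem LipB.agr (h : LipB T L M f) (ha : Agr T ω ω') : f ω' = f ω := by
  have h1 := h.lip _ _ _ (cl_of_agr ha)
  have h2 := h.lip _ _ _ (cl_of_agr ha).symm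
  linarith

/-- `|f ω - f ω'| ≤ L * osc T (ω - ω')`, `continuous_osc`, `osc T 0 = 0` -/
theorem LipB.continuous (h : LipB T L M f) : Continuous f := by
  refine continuous_iff_continuousAt.2 fun ω => tendsto_iff_norm_sub_tendsto_zero.2 ?_
  have h0 : osc T (ω - ω) = 0 := le_antisymm (osc_le le_rfl fun t _ => by simp) (osc_nonneg _ _)
  have h1 : Continuous fun ω' : Path => L * osc T (ω' - ω) :=
    continuous_const.mul ((continuous_osc T).comp (continuous_id.sub continuous_const))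
  have h2 := h1.tendsto ω
  rw [h0, mul_zero] at h2
  refine squeeze_zero (fun _ => norm_nonneg _) (fun ω' => abs_le.2 ⟨?_, ?_⟩) h2
  · linarith [h.lip _ _ _ (cl_osc ω' ω).symm]
  · linarith [h.lip _ _ _ (cl_osc ω' ω)]

theorem LipB.mul (hT : 0 ≤ T) (hL : 0 ≤ L) (hL' : 0 ≤ L') (h : LipB T L M f) (h' : LipB T L' M' g) :
    LipB T (L * M' + L' * M) (M * M') fun ω => f ω * g ω := by
  refine ⟨fun ω => mul_nonneg (h.nonneg ω) (h'.nonneg ω),
    fun ω => mul_le_mul (h.le ω) (h'.le ω) (h'.nonneg ω) ((h.nonneg ω).trans (h.le ω)), fun ω ω' β hc => ?_⟩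
  have hβ := hc.nonneg hT
  have h1 := mul_le_mul_of_nonneg_right (h.lip ω ω' β hc) (h'.nonneg ω)
  have h2 := mul_le_mul_of_nonneg_left (h'.lip ω ω' β hc) (h.nonneg ω')
  have h3 := mul_le_mul_of_nonneg_left (h'.le ω) (mul_nonneg hL hβ)
  have h4 := mul_le_mul_of_nonneg_left (h.le ω') (mul_nonneg hL' hβ)
  linarith

theorem LipB.const_mul {c : ℝ} (hc : 0 ≤ c) (h : LipB T L M f) : LipB T (c * L) (c * M) fun ω => c * f ω := by
  refine ⟨fun ω => mul_nonneg hc (h.nonneg ω), fun ω => mul_le_mul_of_nonneg_left (h.le ω) hc, fun ω ω' β hcl => ?_⟩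
  linarith [mul_le_mul_of_nonneg_left (h.lip ω ω' β hcl) hc]

theorem lipB_prod (hT : 0 ≤ T) (hL : 0 ≤ L) (hM : 1 ≤ M) {φ : ℕ → Path → ℝ} (s : Finset ℕ)
    (h : ∀ k ∈ s, LipB T L M (φ k)) :
    LipB T (s.card * L * M ^ s.card) (M ^ s.card) fun ω => ∏ k ∈ s, φ k ω := by
  classical
  induction s using Finset.induction_on with
  | empty => exact ⟨by simp, by simp, by simp⟩
  | insert k s hk ih =>
    have hM0 : 0 ≤ M := zero_le_one.trans hM
    have h1 := (h k (Finset.mem_insert_self _ _)).mul hT hL (by positivity)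
      (ih fun j hj => h j (Finset.mem_insert_of_mem hj))
    simp only [Finset.prod_insert hk, Finset.card_insert_of_notMem hk]
    refine h1.mono hT le_rfl ?_ (le_of_eq (by ring))
    have : L * M ^ s.card * 1 ≤ L * M ^ s.card * M := by gcongr
    push_cast
    rw [pow_succ]
    linarith

/-- `1 - f ω ≤ 1 - f ω' + L β ≤ (1 + 2 L β) (1 - f ω')` -/
theorem LipB.mark {Lip : ℝ} (hT : 0 ≤ T) (hL : 0 ≤ L) (h : LipB T L (1 / 2) f) (hLip : 2 * L ≤ Lip) :
    Mark f T Lip := by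
  refine ⟨h.continuous, h.nonneg, h.le, fun ω ω' β hc => ?_, fun ω ω' ha => h.agr ha⟩
  have hβ := Cl.nonneg hT hc
  have h1 := h.lip _ _ _ (Cl.symm hc)
  have h2 := Real.add_one_le_exp (Lip * β)
  have h3 := h.le ω'
  have h4 := mul_le_mul_of_nonneg_right hLip hβ
  have h5 := mul_nonneg hL hβ
  calc 1 - f ω ≤ (2 * (L * β) + 1) * (1 - f ω') := by nlinarith
    _ ≤ _ := mul_le_mul_of_nonneg_right (by linarith) (by linarith)

end Crest.Agent.R162.Z
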