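import Crest.Agent.R162.Z.Defs

/-! Row 162, block Z: Brownian motion follows any Lipschitz path with positive probability.  Statements frozen (helper84). -/

set_option autoImplicit false

open scoped ENNReal NNReal Topology
open Set Filter MeasureTheory Metric

noncomputable section
namespace Crest.Agent.R162.Z

variable {κ : ℝ} {μ : Measure Path}

theorem isClosed_Tube (k : ℝ → ℝ) (T r : ℝ) : IsClosed (Tube k T r) := by
  have : Tube k T r = ⋂ t ∈ Icc 0 T, {ω : Path | |ω t - ω 0 - k t| ≤ r} := by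
    ext ω; simp [Tube]
  rw [this]
  exact isClosed_biInter fun t _ => isClosed_le (by fun_prop) continuous_const

theorem mul_le_lintegral {s : Set Path} (hs : MeasurableSet s) {q c : ℝ≥0∞} (hq : q ≤ μ s) {f : Path → ℝ≥0∞}
    (hf : ∀ ω ∈ s, c ≤ f ω) : c * q ≤ ∫⁻ ω, f ω ∂μ := by
  calc c * q ≤ c * μ s := by gcongr
    _ = ∫⁻ _ in s, c ∂μ := (setLIntegral_const _ _).symm
    _ ≤ ∫⁻ ω in s, f ω ∂μ := setLIntegral_mono' hs hf
    _ ≤ _ := setLIntegral_le_lintegral _ _

/-- `hμ.cm 0 s (-c)` with `F` the indicator of `Tube 0 s r ⊇ {osc s ≤ r}`: `F (ω + (-c) • ramp 0 s)` is the indicator of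
`Tube (c * ·) s r`, and on `Tube 0 s r` the density is `≥ exp (-cm r / κ - cm² s / (2 κ))` -/
theorem steer_step (hκ : 0 < κ) (hμ : Wie κ μ) {s r c cm : ℝ} (hs : 0 < s) (hr : 0 < r) (hc : |c| ≤ cm) :
    ENNReal.ofReal (Real.exp (-cm * r / κ - cm ^ 2 * s / (2 * κ))) * μ {ω | osc s ω ≤ r} ≤
      μ (Tube (fun t => c * t) s r) := by
  have hm : ∀ k : ℝ → ℝ, MeasurableSet (Tube k s r) := fun k => (isClosed_Tube k s r).measurableSet
  have h := hμ.cm 0 s (-c) ((Tube (fun _ => 0) s r).indicator 1) le_rfl hs.le (measurable_one.indicator (hm _))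
  have e : ∀ ω : Path, (Tube (fun _ => 0) s r).indicator (1 : Path → ℝ≥0∞) (ω + (-c) • ramp 0 s) =
      (Tube (fun t => c * t) s r).indicator 1 ω := fun ω => by
    have : ω + (-c) • ramp 0 s ∈ Tube (fun _ => 0) s r ↔ ω ∈ Tube (fun t => c * t) s r := by
      refine forall₂_congr fun t ht => ?_
      have e1 : ramp 0 s t = t := by simp [ramp, max_eq_left ht.1, min_eq_left ht.2]
      have e2 : ramp 0 s 0 = 0 := by simp [ramp, hs.le]
      simp only [ContinuousMap.add_apply, ContinuousMap.smul_apply, e1, e2, smul_eq_mul]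
      rw [show ω t + -c * t - (ω 0 + -c * 0) - 0 = ω t - ω 0 - c * t by ring]
    by_cases hω : ω ∈ Tube (fun t => c * t) s r
    · rw [indicator_of_mem hω, indicator_of_mem (this.2 hω)]; rfl
    · rw [indicator_of_notMem hω, indicator_of_notMem (mt this.1 hω)]
  simp only [e] at h
  rw [lintegral_indicator_one (hm _)] at h
  rw [h]
  refine mul_le_lintegral (hm fun _ => 0) (measure_mono fun ω hω t ht => ?_) fun ω hω => ?_
  · rw [sub_zero]; exact (abs_le_osc ω ht).trans hω
  · rw [indicator_of_mem hω, Pi.one_apply, one_mul]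
    refine ENNReal.ofReal_le_ofReal (Real.exp_le_exp.2 ?_)
    have h1 := hω s ⟨hs.le, le_rfl⟩
    rw [sub_zero] at h1
    have hcm : 0 ≤ cm := (abs_nonneg c).trans hc
    have h2 : -cm * r ≤ -c * (ω s - ω 0) := by
      have : |c * (ω s - ω 0)| ≤ cm * r := by rw [abs_mul]; gcongr
      linarith [le_abs_self (c * (ω s - ω 0))]
    have h3 : (-c) ^ 2 ≤ cm ^ 2 := by rw [neg_sq, ← sq_abs]; gcongr
    rw [sub_zero]
    gcongr

/-- Induction on `j`.  First sub-block: `A₁ = Tube (c * ·) s (r/3)`, `c = k s / s` (`|c| ≤ 2 r / (3 s)`), on which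
`|ω t - ω 0 - k t| ≤ r` for `t ≤ s` (`c t - k t = (t/s) (k s - k t) - (1 - t/s) k t`); `lintegral_eq_EE` at the constant time `s`
for the indicator of the tube; for `ω ∈ A₁` apply the induction hypothesis to `t ↦ k (s + t) - (ω s - ω 0)`. -/
theorem steer_ind (hμ : Wie κ μ) {s r V : ℝ} {q : ℝ≥0∞} (hs : 0 < s) (hr : 0 < r) (hV : 0 ≤ V) (hVs : V * s ≤ r / 3)
    (hq : ∀ c, |c| ≤ 2 * r / (3 * s) → q ≤ μ (Tube (fun t => c * t) s (r / 3))) (j : ℕ) (k : ℝ → ℝ)
    (h0 : |k 0| ≤ r / 3) (hk : ∀ t t', 0 ≤ t → t ≤ t' → t' ≤ j * s → |k t' - k t| ≤ V * (t' - t)) :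
    q ^ j ≤ μ (Tube k (j * s) r) := by
  have hprob := hμ.prob
  induction j generalizing k with
  | zero =>
    have : Tube k ((0 : ℕ) * s) r = univ := by
      refine eq_univ_of_forall fun ω t ht => ?_
      have : t = 0 := le_antisymm (by simpa using ht.2) ht.1
      rw [this, sub_self, zero_sub, abs_neg]; linarith
    rw [this]; simp
  | succ j ih =>
    have hjs : (0 : ℝ) ≤ j * s := by positivity
    have hcast : ((j + 1 : ℕ) : ℝ) * s = s + j * s := by push_cast; ring
    rw [hcast] at hk ⊢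
    have k1 : ∀ t ∈ Icc 0 s, |k t| ≤ 2 * r / 3 := fun t ht => by
      have a := hk 0 t le_rfl ht.1 (by linarith [ht.2])
      have b : V * (t - 0) ≤ V * s := by gcongr; linarith [ht.2]
      have := abs_add_le (k 0) (k t - k 0)
      rw [add_sub_cancel] at this; linarith
    have hc : |k s / s| ≤ 2 * r / (3 * s) := by
      rw [abs_div, abs_of_pos hs, ← div_div]; gcongr; exact k1 s ⟨hs.le, le_rfl⟩
    have hm := (isClosed_Tube k (s + j * s) r).measurableSet
    rw [← lintegral_indicator_one hm, hμ.lintegral_eq_EE (Stop.const hs.le) (measurable_one.indicator hm), pow_succ]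
    refine mul_le_lintegral (isClosed_Tube _ _ _).measurableSet (hq _ hc) fun ω hω => ?_
    have i := ih (fun t => k (s + t) - (ω s - ω 0)) (by
      have := hω s ⟨hs.le, le_rfl⟩
      simp only [div_mul_cancel₀ _ hs.ne'] at this
      rw [add_zero, abs_sub_comm]; exact this) fun t t' h0 h1 h2 => by
      have := hk (s + t) (s + t') (by linarith) (by linarith) (by linarith)
      simpa using this
    refine i.trans ?_
    rw [← lintegral_indicator_one (isClosed_Tube _ _ _).measurableSet]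
    refine lintegral_mono fun ω' => ?_
    by_cases h' : ω' ∈ Tube (fun t => k (s + t) - (ω s - ω 0)) (j * s) r
    swap
    · rw [indicator_of_notMem h']; exact zero_le
    have : spl s ω ω' ∈ Tube k (s + j * s) r := fun t ht => by
      rw [agr_spl s ω ω' 0 hs.le]
      rcases le_total t s with h | h
      · rw [agr_spl s ω ω' t h]
        have a := hω t ⟨ht.1, h⟩
        have b : |k s / s * t - k t| ≤ 2 * r / 3 := by
          have e : k s / s * t - k t = t / s * (k s - k t) - (1 - t / s) * k t := by field_simp; ring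
          have l0 : 0 ≤ t / s := div_nonneg ht.1 hs.le
          have l1 : t / s ≤ 1 := (div_le_one hs).2 h
          have c1 : |k s - k t| ≤ 2 * r / 3 := by
            have := hk t s ht.1 h (by linarith)
            have b : V * (s - t) ≤ V * s := by gcongr; linarith [ht.1]
            linarith
          rw [e]
          calc _ ≤ |t / s * (k s - k t)| + |(1 - t / s) * k t| := abs_sub _ _
            _ = t / s * |k s - k t| + (1 - t / s) * |k t| := by
              rw [abs_mul, abs_mul, abs_of_nonneg l0, abs_of_nonneg (by linarith : 0 ≤ 1 - t / s)]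
            _ ≤ t / s * (2 * r / 3) + (1 - t / s) * (2 * r / 3) := by
              gcongr
              exact k1 t ⟨ht.1, h⟩
            _ = _ := by ring
        have := abs_add_le (ω t - ω 0 - k s / s * t) (k s / s * t - k t)
        rw [sub_add_sub_cancel] at this
        simp only at a
        linarith
      · have a := h' (t - s) ⟨by linarith, by linarith [ht.2]⟩
        simp only [add_sub_cancel] at a
        have e : spl s ω ω' t = ω s + (ω' (t - s) - ω' 0) := by
          simp [spl, min_eq_right h, max_eq_left (sub_nonneg.2 h)]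
        rw [e]
        convert a using 2
        ring
    rw [indicator_of_mem h', indicator_of_mem this]
    exact le_rfl

/-- `s = T / j` with `j` so large that `V s ≤ r / 3` and `μ {osc s ≤ r / 3} ≥ 1/2` (`osc_tail`) -/
theorem steer_unit (hκ : 0 < κ) (hμ : Wie κ μ) {T V r : ℝ} (hT : 0 < T) (hV : 0 ≤ V) (hr : 0 < r) :
    ∃ q, 0 < q ∧ q ≤ 1 ∧ ∀ k : ℝ → ℝ, k 0 = 0 →
      (∀ t t', 0 ≤ t → t ≤ t' → t' ≤ T → |k t' - k t| ≤ V * (t' - t)) → ENNReal.ofReal q ≤ μ (Tube k T r) := by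
  have hprob := hμ.prob
  have t0 : Tendsto (fun j : ℕ => T / j) atTop (𝓝 0) := tendsto_const_div_atTop_nhds_zero_nat T
  have t1 : ∀ᶠ j : ℕ in atTop, V * (T / j) ≤ r / 3 := by
    have : Tendsto (fun j : ℕ => V * (T / j)) atTop (𝓝 (V * 0)) := t0.const_mul V
    rw [mul_zero] at this
    exact this.eventually (ge_mem_nhds (by positivity))
  have t2 : ∀ᶠ j : ℕ in atTop, T / j ≤ (r / 3) ^ 2 / (2 * κ * 8) := t0.eventually (ge_mem_nhds (by positivity))
  obtain ⟨j, ⟨h1, h2⟩, h3⟩ := ((t1.and t2).and (eventually_gt_atTop 0)).exists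
  have hj : (0 : ℝ) < j := by exact_mod_cast h3
  set s := T / j with hs
  have hs0 : 0 < s := by positivity
  have hosc : ENNReal.ofReal (1 / 2) ≤ μ {ω | osc s ω ≤ r / 3} := by
    have a := hμ.osc_tail hκ hs0 (l := r / 3) (by positivity)
    have b : 4 * Real.exp (-(r / 3) ^ 2 / (2 * κ * s)) ≤ 1 / 2 := by
      have : 8 ≤ (r / 3) ^ 2 / (2 * κ * s) := by
        rw [le_div_iff₀ (by positivity)]; rw [le_div_iff₀ (by positivity)] at h2; linarith
      have e := Real.add_one_le_exp ((r / 3) ^ 2 / (2 * κ * s))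
      rw [neg_div, Real.exp_neg, ← div_eq_mul_inv, div_le_iff₀ (Real.exp_pos _)]
      linarith
    have c : (1 : ℝ≥0∞) ≤ μ {ω | osc s ω ≤ r / 3} + ENNReal.ofReal (1 / 2) := by
      calc (1 : ℝ≥0∞) = μ univ := measure_univ.symm
        _ ≤ μ ({ω | osc s ω ≤ r / 3} ∪ {ω | r / 3 ≤ osc s ω}) :=
          measure_mono fun ω _ => le_total (osc s ω) (r / 3)
        _ ≤ _ := (measure_union_le _ _).trans (by gcongr; exact a.trans (ENNReal.ofReal_le_ofReal b))
    have d : (1 : ℝ≥0∞) = ENNReal.ofReal (1 / 2) + ENNReal.ofReal (1 / 2) := by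
      rw [← ENNReal.ofReal_add (by norm_num) (by norm_num)]; norm_num
    rw [d] at c
    exact (ENNReal.add_le_add_iff_right ENNReal.ofReal_ne_top).1 c
  set cm := 2 * r / (3 * s)
  set q₁ := Real.exp (-cm * (r / 3) / κ - cm ^ 2 * s / (2 * κ)) * (1 / 2) with hq₁
  have hq0 : 0 < q₁ := by positivity
  have hq1 : q₁ ≤ 1 := by
    have : Real.exp (-cm * (r / 3) / κ - cm ^ 2 * s / (2 * κ)) ≤ 1 := by
      rw [Real.exp_le_one_iff]
      have : 0 ≤ cm * (r / 3) / κ := by positivity
      have : 0 ≤ cm ^ 2 * s / (2 * κ) := by positivity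
      rw [neg_mul, neg_div]; linarith
    rw [hq₁]; linarith
  refine ⟨q₁ ^ j, by positivity, pow_le_one₀ hq0.le hq1, fun k hk0 hk => ?_⟩
  have hT' : j * s = T := by rw [hs]; field_simp
  rw [ENNReal.ofReal_pow hq0.le, ← hT']
  refine steer_ind hμ hs0 hr hV h1 (fun c hc => le_trans ?_ (steer_step hκ hμ hs0 (by positivity) hc)) j k
    (by rw [hk0, abs_zero]; positivity) (by rw [hT']; exact hk)
  rw [hq₁, ENNReal.ofReal_mul (Real.exp_pos _).le]
  gcongr

/-- `hμ.scale ℓ`: `scl ℓ ⁻¹' Tube (fun t => k (ℓ² t) / ℓ) T r ⊆ Tube k (T ℓ²) (r ℓ)` -/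
theorem steer (hκ : 0 < κ) (hμ : Wie κ μ) {T V r : ℝ} (hT : 0 < T) (hV : 0 ≤ V) (hr : 0 < r) :
    ∃ q, 0 < q ∧ q ≤ 1 ∧ ∀ ℓ, 0 < ℓ → ∀ k : ℝ → ℝ, k 0 = 0 →
      (∀ t t', 0 ≤ t → t ≤ t' → t' ≤ T * ℓ ^ 2 → |k t' - k t| ≤ V / ℓ * (t' - t)) →
      ENNReal.ofReal q ≤ μ (Tube k (T * ℓ ^ 2) (r * ℓ)) := by
  obtain ⟨q, hq0, hq1, h⟩ := steer_unit hκ hμ hT hV hr
  refine ⟨q, hq0, hq1, fun ℓ hℓ k hk0 hk => ?_⟩
  have a := h (fun t => k (ℓ ^ 2 * t) / ℓ) (by simp [hk0]) fun t t' h0 h1 h2 => by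
    have := hk (ℓ ^ 2 * t) (ℓ ^ 2 * t') (by positivity) (by gcongr) (by rw [mul_comm]; gcongr)
    rw [← sub_div, abs_div, abs_of_pos hℓ, div_le_iff₀ hℓ]
    refine this.trans (le_of_eq ?_)
    field_simp
  rw [← (hμ.scale ℓ hℓ).measure_preimage (isClosed_Tube _ _ _).measurableSet.nullMeasurableSet] at a
  refine a.trans (measure_mono fun ω hω t ht => ?_)
  have b := hω (t / ℓ ^ 2) ⟨div_nonneg ht.1 (by positivity), by rw [div_le_iff₀ (by positivity)]; exact ht.2⟩
  have e : ℓ ^ 2 * (t / ℓ ^ 2) = t := by field_simp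
  simp only [scl, ContinuousMap.coe_mk, e, mul_zero] at b
  rw [← sub_div, ← sub_div, abs_div, abs_of_pos hℓ, div_le_iff₀ hℓ] at b
  exact b

/-- `steer` with `ℓ = 1 / v`, `V = 1 + ε₀ / Δ`, `r = ε₀ / 2`, and the target
`k u = h (t_i + u) - h t_i - dev h ω t_i * u / (Δ / v²)`; then `dev (t_i + u) = dev t_i (1 - u / (Δ / v²)) ± ε₀ / (2 v)` -/
theorem exists_nar (hκ : 0 < κ) (hμ : Wie κ μ) {Δ ε₀ : ℝ} (hΔ : 0 < Δ) (hε : 0 < ε₀) :
    ∃ q, 0 < q ∧ q ≤ 1 ∧ ∀ (v : ℝ) (h : Path), 0 < v → (∀ s t, 0 ≤ s → s ≤ t → |h t - h s| ≤ v * (t - s)) →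
      Nar μ h (Δ / v ^ 2) (ε₀ / v) q := by
  obtain ⟨q, hq0, hq1, H⟩ := steer hκ hμ (V := 1 + ε₀ / Δ) (r := ε₀ / 2) hΔ (by positivity) (by positivity)
  refine ⟨q, hq0, hq1, fun v h hv hh i ω hd => ?_⟩
  set D := Δ / v ^ 2 with hD
  have hD0 : 0 < D := by positivity
  have hi : (0 : ℝ) ≤ i * D := by positivity
  set d := dev h ω (i * D)
  have eD : Δ * (1 / v) ^ 2 = D := by rw [hD]; field_simp
  have a := H (1 / v) (by positivity) (fun u => h (i * D + u) - h (i * D) - d * u / D) (by simp) fun t t' h0 h1 h2 => by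
    have b := hh (i * D + t) (i * D + t') (by positivity) (by linarith)
    have c : |d * (t' - t) / D| ≤ ε₀ / Δ * v * (t' - t) := by
      rw [abs_div, abs_mul, abs_of_pos hD0, abs_of_nonneg (sub_nonneg.2 h1)]
      calc _ ≤ ε₀ / v * (t' - t) / D := by gcongr
        _ = _ := by rw [hD]; field_simp
    calc _ = |(h (i * D + t') - h (i * D + t)) - d * (t' - t) / D| := by congr 1; ring
      _ ≤ _ := abs_sub _ _
      _ ≤ v * (i * D + t' - (i * D + t)) + ε₀ / Δ * v * (t' - t) := add_le_add b c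
      _ = _ := by field_simp; ring
  rw [eD] at a
  refine ⟨_, (isClosed_Tube _ _ _).measurableSet, a, fun ω' hω' => ?_⟩
  have key : ∀ u ∈ Icc (i * D) ((i + 1) * D), |dev h (spl (i * D) ω ω') u - d * (1 - (u - i * D) / D)| ≤ ε₀ / v / 2 :=
    fun u hu => by
      have b := hω' (u - i * D) ⟨by linarith [hu.1], by linarith [hu.2]⟩
      simp only [add_sub_cancel] at b
      have e : spl (i * D) ω ω' u = ω (i * D) + (ω' (u - i * D) - ω' 0) := by
        simp [spl, min_eq_right hu.1, max_eq_left (sub_nonneg.2 hu.1)]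
      unfold dev
      rw [e, agr_spl _ ω ω' 0 hi]
      convert b using 2
      · simp only [d, dev]; ring
      · ring
  have hεv : 0 < ε₀ / v := by positivity
  constructor
  · intro u hu
    have b := key u hu
    have l0 : 0 ≤ (u - i * D) / D := div_nonneg (by linarith [hu.1]) hD0.le
    have l1 : (u - i * D) / D ≤ 1 := (div_le_one hD0).2 (by linarith [hu.2])
    have c : |d * (1 - (u - i * D) / D)| ≤ ε₀ / v := by
      rw [abs_mul, abs_of_nonneg (by linarith : 0 ≤ 1 - (u - i * D) / D)]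
      exact (mul_le_of_le_one_right (abs_nonneg _) (by linarith)).trans hd
    have := abs_add_le (dev h (spl (i * D) ω ω') u - d * (1 - (u - i * D) / D)) (d * (1 - (u - i * D) / D))
    rw [sub_add_cancel] at this
    linarith
  · have b := key ((i + 1) * D) ⟨by linarith, le_rfl⟩
    have e : ((i + 1) * D - i * D) / D = 1 := by field_simp; ring
    rwa [e, sub_self, mul_zero, sub_zero] at b

end Crest.Agent.R162.Z
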