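import Crest.Agent.R162.Z.Steer
import Crest.Agent.R162.Z.Lip

/-! Row 162, block Z: the block weights.  Statements frozen (helper84). -/

set_option autoImplicit false

open scoped ENNReal NNReal Topology
open Set Filter MeasureTheory Metric

noncomputable section
namespace Crest.Agent.R162.Z

variable {κ : ℝ} {μ : Measure Path} {h : Path} {Δ ε₀ ε₁ q M L : ℝ} {φ : ℕ → Path → ℝ}

/-- the raw weight of block `i` -/
def bw (h : Path) (Δ ε₀ ε₁ : ℝ) (i : ℕ) (ω : Path) : ℝ :=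
  max 0 (min 1 (2 - 2 * max (osc Δ (sh (i * Δ) (ω - h)) / ε₁) (|dev h ω ((i + 1) * Δ)| / ε₀)))

theorem bw_sh (ω : Path) (t : ℝ) {u : ℝ} (hu : 0 ≤ u) :
    sh t (ω - h) u - sh t (ω - h) 0 = dev h ω (t + u) - dev h ω t := by
  simp [sh, dev, hu]
  ring

/-- `Cl ((i+1) Δ) β ω ω'` gives `Cl Δ (2 β) (sh (iΔ) (ω - h)) (sh (iΔ) (ω' - h))`; `Cl.osc_le` -/
theorem bw_lip (hΔ : 0 < Δ) (hε : 0 < ε₀) (hε' : ε₀ ≤ ε₁) (i : ℕ) :
    LipB ((i + 1) * Δ) (4 / ε₀) 1 (bw h Δ ε₀ ε₁ i) := by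
  refine ⟨fun _ => le_max_left _ _, fun _ => max_le zero_le_one (min_le_left _ _), fun ω ω' β H => ?_⟩
  have i0 : 0 ≤ i * Δ := by positivity
  have β0 := H.nonneg (by linarith)
  have c0 : 0 ≤ 4 / ε₀ * β := by positivity
  have h1 : osc Δ (sh (i * Δ) (ω' - h)) ≤ osc Δ (sh (i * Δ) (ω - h)) + 2 * β := Cl.osc_le hΔ.le fun t ht => by
    obtain ⟨a1, a2⟩ := abs_le.1 (H (i * Δ + t) ⟨by linarith [ht.1], by linarith [ht.2]⟩)
    obtain ⟨a3, a4⟩ := abs_le.1 (H (i * Δ) ⟨i0, by linarith⟩)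
    rw [bw_sh _ _ ht.1, bw_sh _ _ ht.1]
    unfold dev
    exact abs_le.2 ⟨by linarith, by linarith⟩
  have h2 : |dev h ω' ((i + 1) * Δ)| ≤ |dev h ω ((i + 1) * Δ)| + 2 * β := by
    have := H.symm _ ⟨by linarith, le_rfl⟩
    rw [← sub_sub_sub_cancel_right _ _ (h ((i + 1) * Δ))] at this
    unfold dev
    linarith [(abs_sub_abs_le_abs_sub _ _).trans this]
  have h3 : max (osc Δ (sh (i * Δ) (ω' - h)) / ε₁) (|dev h ω' ((i + 1) * Δ)| / ε₀) ≤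
      max (osc Δ (sh (i * Δ) (ω - h)) / ε₁) (|dev h ω ((i + 1) * Δ)| / ε₀) + 2 * β / ε₀ := by
    rw [← max_add_add_right, ← add_div]
    refine max_le_max ((div_le_div_of_nonneg_right h1 (by linarith)).trans ?_) (div_le_div_of_nonneg_right h2 hε.le)
    rw [add_div]
    gcongr
  refine max_le (add_nonneg (le_max_left _ _) c0) (((min_le_min (le_add_of_nonneg_right c0) ?_).trans_eq
    (min_add_add_right _ _ _)).trans (add_le_add_left (le_max_right _ _) _))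
  linear_combination 2 * h3

theorem bw_supp (hε : 0 < ε₀) (hε' : ε₀ ≤ ε₁) (i : ℕ) (ω : Path) (H : bw h Δ ε₀ ε₁ i ω ≠ 0) :
    (∀ u ∈ Icc (i * Δ) ((i + 1) * Δ), |dev h ω u - dev h ω (i * Δ)| ≤ ε₁) ∧ |dev h ω ((i + 1) * Δ)| ≤ ε₀ := by
  obtain ⟨h1, h2⟩ : osc Δ (sh (i * Δ) (ω - h)) / ε₁ < 1 ∧ |dev h ω ((i + 1) * Δ)| / ε₀ < 1 :=
    max_lt_iff.1 (lt_of_not_ge fun hc => H (max_eq_left ((min_le_right _ _).trans (by linarith))))
  refine ⟨fun u hu => ?_, ((div_lt_one hε).1 h2).le⟩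
  have := abs_le_osc (T := Δ) (t := u - i * Δ) (sh (i * Δ) (ω - h)) ⟨by linarith [hu.1], by linarith [hu.2]⟩
  rw [bw_sh _ _ (sub_nonneg.2 hu.1), add_sub_cancel] at this
  exact this.trans ((div_lt_one (by linarith)).1 h1).le

theorem bw_one (hε : 0 < ε₀) (hε' : ε₀ ≤ ε₁) (i : ℕ) (ω : Path)
    (h1 : ∀ u ∈ Icc (i * Δ) ((i + 1) * Δ), |dev h ω u - dev h ω (i * Δ)| ≤ ε₁ / 2)
    (h2 : |dev h ω ((i + 1) * Δ)| ≤ ε₀ / 2) : bw h Δ ε₀ ε₁ i ω = 1 := by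
  have h3 : osc Δ (sh (i * Δ) (ω - h)) ≤ ε₁ / 2 := osc_le (by linarith) fun t ht => by
    rw [bw_sh _ _ ht.1]
    exact h1 _ ⟨by linarith [ht.1], by linarith [ht.2]⟩
  have h4 : max (osc Δ (sh (i * Δ) (ω - h)) / ε₁) (|dev h ω ((i + 1) * Δ)| / ε₀) ≤ 1 / 2 :=
    max_le ((div_le_iff₀ (by linarith)).2 (by linarith)) ((div_le_iff₀ hε).2 (by linarith))
  rw [bw, min_eq_left (by linarith), max_eq_right zero_le_one]

/-- conditional expectations of bounded Lipschitz functionals (`Cl.spl`, `integral_mono`; continuity gives integrability) -/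
theorem LipB.cond [IsProbabilityMeasure μ] {T s : ℝ} {f : Path → ℝ} (hf : LipB T L M f) (hs : 0 ≤ s) :
    LipB s L M (fun ω => ∫ ω', f (spl s ω ω') ∂μ) ∧
      ∀ ω, EE μ ω s (fun ω₁ => ENNReal.ofReal (f ω₁)) = ENNReal.ofReal (∫ ω', f (spl s ω ω') ∂μ) := by
  have i : ∀ ω, Integrable (fun ω' => f (spl s ω ω')) μ := fun ω =>
    .of_bound (hf.continuous.comp (continuous_spl.comp (f := fun ω' => (s, ω, ω')) (by fun_prop))).aestronglyMeasurable M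
      (ae_of_all _ fun ω' => (abs_of_nonneg (hf.nonneg _)).trans_le (hf.le _))
  refine ⟨⟨fun ω => integral_nonneg fun _ => hf.nonneg _,
    fun ω => (integral_mono (i ω) (integrable_const M) fun _ => hf.le _).trans_eq (by simp), fun ω ω' β H => ?_⟩,
    fun ω => (ofReal_integral_eq_lintegral_ofReal (i ω) (ae_of_all _ fun _ => hf.nonneg _)).symm⟩
  refine (integral_mono (i ω) ((i ω').add (integrable_const (L * β))) fun _ => hf.lip _ _ β (H.spl hs T _)).trans_eq ?_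
  rw [integral_add' (i ω') (integrable_const _)]
  simp

/-- `φ i ω = bw i ω / max (Q i ω) q` with `Q i ω = ∫ bw i (spl (iΔ) ω ω')` (`LipB.cond`; `Q i (spl (iΔ) ω ω') = Q i ω` by
`LipB.agr`, `agr_spl`; `Q ≤ 1`; `Q i ω ≥ q` if `|dev (iΔ)| ≤ ε₀` by `Nar`, `bw_one`, `mul_le_lintegral`) -/
theorem exists_wt (hμ : Wie κ μ) (hΔ : 0 < Δ) (hε : 0 < ε₀) (hε' : 6 * ε₀ ≤ ε₁) (hq : 0 < q) (hq1 : q ≤ 1)
    (hN : Nar μ h Δ ε₀ q) : ∃ φ, Wt μ h Δ ε₀ ε₁ φ (1 / q) (8 / (ε₀ * q ^ 2)) := by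
  have := hμ.prob
  have e : ε₀ ≤ ε₁ := by linarith
  have i0 : ∀ i : ℕ, 0 ≤ i * Δ := fun i => by positivity
  have hb := bw_lip (h := h) hΔ hε e
  have hQ := fun i => (hb i).cond (μ := μ) (i0 i)
  set Q := fun (i : ℕ) ω => ∫ ω', bw h Δ ε₀ ε₁ i (spl (i * Δ) ω ω') ∂μ
  have m0 : ∀ i ω, 0 < max (Q i ω) q := fun i ω => hq.trans_le (le_max_right _ _)
  refine ⟨fun i ω => bw h Δ ε₀ ε₁ i ω * (max (Q i ω) q)⁻¹, fun i => ?_,
    fun i ω H => bw_supp hε e i ω (left_ne_zero_of_mul H), fun i ω h1 h2 => ?_, fun i ω hd => ?_⟩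
  · have t0 : 0 ≤ (i + 1) * Δ := by positivity
    refine ((hb i).mul (L' := 4 / ε₀ / q ^ 2) (M' := 1 / q) t0 (by positivity) (by positivity)
      ⟨fun ω => (inv_pos.2 (m0 i ω)).le, fun ω => (inv_anti₀ hq (le_max_right _ _)).trans_eq (inv_eq_one_div q),
        fun ω ω' β H => ?_⟩).mono t0 le_rfl ?_ (one_mul _).le
    · have c0 : 0 ≤ 4 / ε₀ * β := by have := H.nonneg t0; positivity
      have h1 : max (Q i ω') q ≤ max (Q i ω) q + 4 / ε₀ * β := (max_le_max ((hQ i).1.lip _ _ β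
        (H.symm.mono (by linarith))) (le_add_of_nonneg_right c0)).trans_eq (max_add_add_right _ _ _)
      rw [← sub_le_iff_le_add', inv_sub_inv (m0 i ω).ne' (m0 i ω').ne', div_mul_eq_mul_div, sq]
      exact div_le_div₀ c0 (by linarith) (by positivity)
        (mul_le_mul (le_max_right _ _) (le_max_right _ _) hq.le (m0 i ω).le)
    · have : 4 / ε₀ * (1 / q) ≤ 4 / ε₀ * (1 / q ^ 2) := by
        gcongr
        exact pow_le_of_le_one hq.le hq1 two_ne_zero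
      linear_combination this
  · rw [bw_one hε e i ω h1 h2, one_mul]
    exact (one_le_inv₀ (m0 i ω)).2 (max_le ((hQ i).1.le ω) hq1)
  · obtain ⟨s, s1, s2, s3⟩ := hN i ω hd
    have h1 : q ≤ Q i ω := by
      rw [← ENNReal.ofReal_le_ofReal_iff ((hQ i).1.nonneg ω), ← (hQ i).2 ω, ← one_mul (ENNReal.ofReal q)]
      refine mul_le_lintegral s1 s2 fun ω' h' => ?_
      have d : dev h (spl (i * Δ) ω ω') (i * Δ) = dev h ω (i * Δ) := by
        simp only [dev, agr_spl _ ω ω' _ le_rfl, agr_spl _ ω ω' _ (i0 i)]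
      exact ENNReal.one_le_ofReal.2 (bw_one hε e i _
        (fun u hu => (abs_sub _ _).trans (by linarith [(s3 ω' h').1 u hu, d ▸ hd])) (s3 ω' h').2).ge
    have h2 : ∀ ω', Q i (spl (i * Δ) ω ω') = Q i ω := fun ω' => (hQ i).1.agr (agr_spl _ _ _)
    simp only [EE, h2, max_eq_left h1, ENNReal.ofReal_mul ((hb i).nonneg _)]
    rw [lintegral_mul_const' _ _ ENNReal.ofReal_ne_top, show ∫⁻ _, _ ∂μ = _ from (hQ i).2 ω,
      ← ENNReal.ofReal_mul ((hQ i).1.nonneg ω), mul_inv_cancel₀ (hq.trans_le h1).ne', ENNReal.ofReal_one]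

/-- `EE_tower` at the constant time `t`, `agr_spl`, `lintegral_const_mul` -/
theorem EE_mul_tower (hμ : Wie κ μ) {s t : ℝ} (ht : 0 ≤ t) (hst : s ≤ t) {G F : Path → ℝ≥0∞} (hG : Measurable G)
    (hF : Measurable F) (ha : ∀ ω ω', Agr t ω ω' → G ω' = G ω) (ω : Path) :
    EE μ ω s (fun ω₁ => G ω₁ * F ω₁) = EE μ ω s fun ω₁ => G ω₁ * EE μ ω₁ t F := by
  refine (hμ.EE_tower (Stop.const ht) (fun _ => hst) (hG.fun_mul hF)).trans (congrArg _ (funext fun ω₁ => ?_))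
  simp only [EE, ha _ _ (agr_spl t ω₁ _)]
  exact lintegral_const_mul _ (hF.comp (continuous_spl.comp (f := fun ω' => (t, ω₁, ω')) (by fun_prop)).measurable)

theorem Wt.prod_nonneg (H : Wt μ h Δ ε₀ ε₁ φ M L) (i n : ℕ) (ω : Path) : 0 ≤ prodW φ i n ω := by
  exact Finset.prod_nonneg fun k _ => (H.lip k).nonneg ω

theorem Wt.prod_cont (H : Wt μ h Δ ε₀ ε₁ φ M L) (i n : ℕ) : Continuous (prodW φ i n) := by
  exact continuous_finsetProd _ fun k _ => (H.lip k).continuous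

theorem Wt.prod_step (hμ : Wie κ μ) (hΔ : 0 < Δ) (H : Wt μ h Δ ε₀ ε₁ φ M L) {i n : ℕ} (hi : i < n)
    {F : Path → ℝ≥0∞} (hF : Measurable F) (ω : Path) :
    EE μ ω (i * Δ) (fun ω₁ => ENNReal.ofReal (prodW φ i n ω₁) * F ω₁) =
      EE μ ω (i * Δ) fun ω₁ => ENNReal.ofReal (φ i ω₁) *
        EE μ ω₁ ((i + 1 : ℕ) * Δ) fun ω₂ => ENNReal.ofReal (prodW φ (i + 1) n ω₂) * F ω₂ := by
  rw [← EE_mul_tower hμ (by positivity) (by gcongr; omega) (H.lip i).continuous.measurable.ennreal_ofReal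
    ((H.prod_cont _ _).measurable.ennreal_ofReal.fun_mul hF)
    fun ω ω' ha => by rw [(H.lip i).agr (by exact_mod_cast ha)]]
  simp only [prodW, Finset.prod_eq_prod_Ico_succ_bot hi, ENNReal.ofReal_mul ((H.lip i).nonneg _), mul_assoc]

/-- downward induction on `i` (`prod_step` with `F = 1`, `supp`, `mean`) -/
theorem Wt.prod_mean (hμ : Wie κ μ) (hΔ : 0 < Δ) (H : Wt μ h Δ ε₀ ε₁ φ M L) (i n : ℕ) (ω : Path)
    (hd : |dev h ω (i * Δ)| ≤ ε₀) : EE μ ω (i * Δ) (fun ω₁ => ENNReal.ofReal (prodW φ i n ω₁)) = 1 := by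
  have := hμ.prob
  induction hk : n - i generalizing i ω with
  | zero => simp [EE, prodW, Finset.Ico_eq_empty_of_le (show n ≤ i by omega)]
  | succ k ih =>
    have := H.prod_step hμ hΔ (show i < n by omega) (F := fun _ => 1) measurable_const ω
    simp only [mul_one] at this
    rw [this, ← H.mean i ω hd]
    refine congrArg _ (funext fun ω₁ => ?_)
    by_cases h0 : φ i ω₁ = 0
    · simp [h0]
    · rw [ih (i + 1) ω₁ (by exact_mod_cast (H.supp i ω₁ h0).2) (by omega), mul_one]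

theorem Wt.total (hμ : Wie κ μ) (hΔ : 0 < Δ) (hε : 0 ≤ ε₀) (h0 : h 0 = 0) (H : Wt μ h Δ ε₀ ε₁ φ M L) (n : ℕ) :
    ∫⁻ ω, ENNReal.ofReal (prodW φ 0 n ω) ∂μ = 1 := by
  have := H.prod_mean hμ hΔ 0 n 0 (by simp [dev, h0, hε])
  rwa [Nat.cast_zero, zero_mul, hμ.EE_zero fun _ _ => rfl] at this

theorem Wt.prod_supp (hΔ : 0 < Δ) (hε : 0 ≤ ε₀) (hε' : 0 ≤ ε₁) (h0 : h 0 = 0) (H : Wt μ h Δ ε₀ ε₁ φ M L) (n : ℕ)
    {ω : Path} (hω : prodW φ 0 n ω ≠ 0) : ∀ u ∈ Icc 0 (n * Δ), |dev h ω u| ≤ ε₀ + ε₁ := by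
  suffices key : |dev h ω (n * Δ)| ≤ ε₀ ∧ ∀ u ∈ Icc 0 (n * Δ), |dev h ω u| ≤ ε₀ + ε₁ from key.2
  induction n with
  | zero => simp [dev, h0, hε, add_nonneg hε hε']
  | succ n ih =>
    rw [prodW, Finset.prod_Ico_succ_top n.zero_le] at hω
    obtain ⟨h1, h2⟩ := ih (left_ne_zero_of_mul hω)
    obtain ⟨h3, h4⟩ := H.supp n ω (right_ne_zero_of_mul hω)
    push_cast
    refine ⟨h4, fun u hu => (le_total u (n * Δ)).elim (fun h5 => h2 u ⟨hu.1, h5⟩) fun h5 => ?_⟩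
    linarith [h3 u ⟨h5, hu.2⟩, abs_sub_abs_le_abs_sub (dev h ω u) (dev h ω (n * Δ))]

theorem Wt.prod_lip (hΔ : 0 < Δ) (hL : 0 ≤ L) (hM : 1 ≤ M) (H : Wt μ h Δ ε₀ ε₁ φ M L) (n : ℕ) :
    LipB (n * Δ) (n * L * M ^ n) (M ^ n) (prodW φ 0 n) := by
  have t0 : 0 ≤ n * Δ := by positivity
  have := lipB_prod t0 hL hM (Finset.Ico 0 n) fun k hk => (H.lip k).mono t0
    (by gcongr; exact_mod_cast (Finset.mem_Ico.1 hk).2) le_rfl le_rfl
  rwa [Nat.card_Ico, Nat.sub_zero] at this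

end Crest.Agent.R162.Z
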