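import Crest.Agent.R162.Z.Defs

/-! Row 162, block Z: the zigzag.  Statements frozen (helper84). -/

set_option autoImplicit false

open scoped ENNReal NNReal Topology
open Set Filter MeasureTheory Metric

noncomputable section
namespace Crest.Agent.R162.Z

variable {a v s t : ℝ}

theorem zig_zero : zig a v 0 = 0 := by
  simp [zig]

theorem tp_zero (ha : 0 < a) (hv : 0 < v) : tp a v 0 = 0 := by
  refine max_eq_left (div_nonpos_of_nonpos_of_nonneg ?_ hv.le)
  simp [ha.le]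

theorem tp_succ (ha : 0 < a) (hv : 0 < v) (k : ℕ) : tp a v (k + 1) = (2 * k + 1) * a / v := by
  have : (2 * ((k + 1 : ℕ) : ℝ) - 1) = 2 * k + 1 := by push_cast; ring
  rw [tp, this]
  exact max_eq_right (by positivity)

theorem tp_nonneg (k : ℕ) : 0 ≤ tp a v k := by
  exact le_max_left _ _

theorem tp_mono (ha : 0 < a) (hv : 0 < v) : Monotone (tp a v) := by
  intro k l hkl
  refine max_le_max le_rfl ?_
  gcongr

/-- `x = π v t / (2 a)` has `x - k π ∈ [-π/2, π/2]`; `Real.sin_add_nat_mul_pi`, `Real.arcsin_sin`, `Real.arcsin_neg` -/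
theorem zig_eq (ha : 0 < a) (hv : 0 < v) (k : ℕ) (ht : t ∈ Icc (tp a v k) (tp a v (k + 1))) :
    zig a v t = (-1) ^ k * (v * t - 2 * k * a) := by
  have hp := Real.pi_pos
  have h1 : (2 * k - 1) * a ≤ t * v := (div_le_iff₀ hv).1 ((le_max_right _ _).trans ht.1)
  have h2 : t * v ≤ (2 * k + 1) * a := (le_div_iff₀ hv).1 (ht.2.trans_eq (tp_succ ha hv k))
  have e : Real.pi * v * t / (2 * a) = Real.pi / 2 * ((v * t - 2 * k * a) / a) + k * Real.pi := by field_simp; ring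
  have b1 : -1 ≤ (v * t - 2 * k * a) / a := by rw [le_div_iff₀ ha]; linarith
  have b2 : (v * t - 2 * k * a) / a ≤ 1 := by rw [div_le_iff₀ ha]; linarith
  have e2 : Real.arcsin (Real.sin (Real.pi / 2 * ((v * t - 2 * k * a) / a))) = Real.pi / 2 * ((v * t - 2 * k * a) / a) :=
    Real.arcsin_sin (by nlinarith) (by nlinarith)
  show 2 * a / Real.pi * Real.arcsin (Real.sin (Real.pi * v * t / (2 * a))) = _
  rw [e, Real.sin_add_nat_mul_pi]
  rcases neg_one_pow_eq_or ℝ k with h | h <;> rw [h]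
  · rw [one_mul, e2]; field_simp
  · rw [neg_one_mul, Real.arcsin_neg, e2]; field_simp

theorem zig_aff (ha : 0 < a) (hv : 0 < v) (k : ℕ) :
    Aff (zig a v) ((-1) ^ k) v (tp a v k) (tp a v (k + 1)) := by
  refine ⟨neg_one_pow_eq_or ℝ k, -((-1) ^ k * (2 * k * a)), fun u hu => ?_⟩
  rw [zig_eq ha hv k hu]; ring

theorem Aff.mono {h : ℝ → ℝ} {σ s' t' : ℝ} (H : Aff h σ v s t) (hs : s ≤ s') (ht : t' ≤ t) : Aff h σ v s' t' := by
  obtain ⟨h₀, hh⟩ := H.aff
  exact ⟨H.sgn, h₀, fun u hu => hh u ⟨hs.trans hu.1, hu.2.trans ht⟩⟩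

theorem zig_tp (ha : 0 < a) (hv : 0 < v) (k : ℕ) : zig a v (tp a v (k + 1)) = (-1) ^ k * a := by
  rw [zig_eq ha hv k ⟨tp_mono ha hv (Nat.le_succ k), le_rfl⟩, tp_succ ha hv]
  congr 1; field_simp; ring

theorem abs_zig_le (ha : 0 < a) (t : ℝ) : |zig a v t| ≤ a := by
  have hp := Real.pi_pos
  show |2 * a / Real.pi * Real.arcsin (Real.sin (Real.pi * v * t / (2 * a)))| ≤ a
  rw [abs_mul, abs_of_pos (by positivity)]
  calc _ ≤ 2 * a / Real.pi * (Real.pi / 2) := by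
        gcongr; exact abs_le.2 ⟨Real.neg_pi_div_two_le_arcsin _, Real.arcsin_le_pi_div_two _⟩
    _ = a := by field_simp

/-- `k = ⌊v t / (2 a) + 1/2⌋₊` -/
theorem exists_piece (ha : 0 < a) (hv : 0 < v) (ht : 0 ≤ t) :
    ∃ k : ℕ, tp a v k ≤ t ∧ t ≤ tp a v (k + 1) ∧ |k - v * t / (2 * a)| ≤ 1 / 2 := by
  have h0 : 0 ≤ v * t / (2 * a) + 1 / 2 := by positivity
  have h1 := Nat.floor_le h0
  have h2 := (Nat.lt_floor_add_one (v * t / (2 * a) + 1 / 2)).le
  generalize ⌊v * t / (2 * a) + 1 / 2⌋₊ = k at h1 h2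
  have e : t * v = 2 * (v * t / (2 * a)) * a := by field_simp
  refine ⟨k, max_le ht ?_, ?_, abs_le.2 ⟨by linarith, by linarith⟩⟩
  · rw [div_le_iff₀ hv, e]; gcongr; linarith
  · rw [tp_succ ha hv, le_div_iff₀ hv, e]; gcongr; linarith

/-- induction on `k` for `t ≤ tp (k + 1)`: same piece (`zig_eq`), or split at `tp (k + 1)` -/
theorem zig_lip (ha : 0 < a) (hv : 0 < v) (hs : 0 ≤ s) (hst : s ≤ t) : |zig a v t - zig a v s| ≤ v * (t - s) := by
  have same : ∀ (k : ℕ) s t, tp a v k ≤ s → s ≤ t → t ≤ tp a v (k + 1) → |zig a v t - zig a v s| ≤ v * (t - s) := by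
    intro k s t h1 h2 h3
    rw [zig_eq ha hv k ⟨h1.trans h2, h3⟩, zig_eq ha hv k ⟨h1, h2.trans h3⟩, ← mul_sub, abs_mul, abs_pow, abs_neg,
      abs_one, one_pow, one_mul, sub_sub_sub_cancel_right, ← mul_sub, abs_of_nonneg (mul_nonneg hv.le (sub_nonneg.2 h2))]
  have key : ∀ (k : ℕ) s t, 0 ≤ s → s ≤ t → t ≤ tp a v (k + 1) → |zig a v t - zig a v s| ≤ v * (t - s) := by
    intro k
    induction k with
    | zero => exact fun s t h1 => same 0 s t ((tp_zero ha hv).trans_le h1)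
    | succ k ih =>
      intro s t h1 h2 h3
      rcases le_total t (tp a v (k + 1)) with h4 | h4
      · exact ih s t h1 h2 h4
      rcases le_total s (tp a v (k + 1)) with h5 | h5
      · have := abs_sub_le (zig a v t) (zig a v (tp a v (k + 1))) (zig a v s)
        linarith [ih s _ h1 h5 le_rfl, same (k + 1) _ t le_rfl h4 h3]
      · exact same (k + 1) s t h5 h2 h3
  obtain ⟨k, -, hk, -⟩ := exists_piece ha hv (hs.trans hst)
  exact key k s t hs hst hk

end Crest.Agent.R162.Z
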